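import Vale.Agent.Lib.P309.Defs

/-!
# Basic objects of the P309 proof (not part of the final statement)
-/

open MeasureTheory ProbabilityTheory Metric Set
open scoped RealInnerProductSpace ENNReal

namespace Vale.Agent.Lib.P309

variable {d : ℕ}

/-- The standard Gaussian on `Vec d`. -/
noncomputable abbrev gam (d : ℕ) : Measure (Vec d) := stdGaussian (Vec d)

/-! ### cells -/

/-- The inverse of the side of a depth-zero cell. -/
def gridA (d : ℕ) : ℕ := Nat.sqrt d + 1

/-- Lattice cell index of a point at depth `D`: cells have side `2^(-D) / gridA d`. -/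
noncomputable def cellIdx (d D : ℕ) (s : Vec d) : Fin d → ℤ :=
  fun i => ⌊s i * ((2:ℝ) ^ D * (gridA d : ℝ))⌋

/-- The lattice cell of index `k` at depth `D`. -/
def cellSet (d D : ℕ) (k : Fin d → ℤ) : Set (Vec d) := {s | cellIdx d D s = k}

/-- The dyadic radius `2^(-D)`. -/
noncomputable def rad (D : ℕ) : ℝ := (2:ℝ)⁻¹ ^ D

/-! ### block space -/

/-- A block of `j` rows. -/
abbrev Rows (d j : ℕ) := Fin j → Vec d
/-- A block of `j` rows with (arbitrary) labels. -/
abbrev Zsp (d j : ℕ) := Rows d j × (Fin j → ℝ)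

/-- `j` independent standard Gaussian rows. -/
noncomputable def rowLaw (d j : ℕ) : Measure (Rows d j) :=
  Measure.pi fun _ => stdGaussian (Vec d)

/-- Reference measure on a block: Gaussian rows times Lebesgue measure on labels. -/
noncomputable def zLaw (d j : ℕ) : Measure (Zsp d j) := (rowLaw d j).prod volume

/-- Exact labels. -/
noncomputable def labels {j : ℕ} (X : Rows d j) (s : Vec d) : Fin j → ℝ := fun r => ⟪X r, s⟫

/-- Probability, given signal `s`, that the block with exact labels lies in `A`. -/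
noncomputable def chan (d j : ℕ) (A : Set (Zsp d j)) (s : Vec d) : ℝ≥0∞ :=
  rowLaw d j {X | (X, labels X s) ∈ A}

/-! ### Potential -/

/-- Total mass of a sub-density. -/
noncomputable def mass (μ : Measure (Vec d)) (w : Vec d → ℝ) : ℝ := ∫ s, w s ∂μ

/-- log of the ball bound at depth zero: `log (2 * 4^(d-1))`. -/
noncomputable def bC (d : ℕ) : ℝ := (2 * (d:ℝ) - 1) * Real.log 2

/-- The weighted potential of a sub-density at depth `D`
(with `N = 8 j` the regularity dimension). -/
noncomputable def Pot (μ : Measure (Vec d)) (j : ℕ) (w : Vec d → ℝ) (D : ℕ) : ℝ :=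
  mass μ w * (bC d - 8 * j * D * Real.log 2) + ∫ s, w s * Real.log (w s) ∂μ
    - mass μ w * Real.log (mass μ w)

/-- A component: sub-density, depth and center. -/
structure Comp (d : ℕ) where
  w : Vec d → ℝ
  D : ℕ
  z : Vec d

/-- Basic requirements of a component. -/
structure Comp.Sub (c : Comp d) (μ : Measure (Vec d)) : Prop where
  meas : Measurable c.w
  nonneg : ∀ s, 0 ≤ c.w s
  le_one : ∀ s, c.w s ≤ 1
  supp : ∀ s, c.w s ≠ 0 → s ∈ closedBall c.z (rad c.D)

/-- Alive components: positive mass, and regular of dimension `8 j` below their depth. -/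
structure Comp.Alive (c : Comp d) (μ : Measure (Vec d)) (j : ℕ) : Prop extends c.Sub μ where
  pos : 0 < mass μ c.w
  reg : ∀ (ℓ : ℕ) (k : Fin d → ℤ), ∫ s in cellSet d (c.D + ℓ) k, c.w s ∂μ
    ≤ mass μ c.w * (2:ℝ) ^ (d + 2) / (2:ℝ) ^ (8 * j * ℓ)

/-- The hypotheses used on the prior. -/
structure Prior (μ : Measure (Vec d)) : Prop where
  prob : IsProbabilityMeasure μ
  ball : ∀ (z : Vec d) (r : ℝ), 0 < r → μ (closedBall z r) ≤ ENNReal.ofReal (2 * (4 * r) ^ (d - 1))
  norm_le : μ (closedBall 0 1)ᶜ = 0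

/-- Weight of peeling-dead mass in the potential bookkeeping. -/
noncomputable def deadWeight (d : ℕ) : ℝ := (2:ℝ) ^ (d - 2)

/-- per-block potential gain -/
noncomputable def gainC (j : ℕ) (ℓ₀ : ℕ) (logσ : ℝ) : ℝ :=
  2 * (((j * (ℓ₀ + 2) + 1 : ℕ) : ℝ) * Real.log 2 + 4 * j) + 2 / j * (logσ + 1) + Real.exp (-1)

/-- constraint on constants -/
def GoodParams (d j ℓ₀ : ℕ) : Prop :=
  2 ≤ j ∧ 8 * j + 4 ≤ d ∧ 3 ^ j * (2 ^ 36) ^ d * 2 ^ (d + 2) ≤ 2 ^ (7 * j * ℓ₀)

/-! ### affine distance -/

/-- distance of `s` from the affine subspace `b + V`. -/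
noncomputable def dperp (V : Submodule ℝ (Vec d)) (b s : Vec d) : ℝ :=
  ‖(s - b) - V.starProjection (s - b)‖

/-- The span of the differences `s - s₀`, for `s` in the list `S`. -/
noncomputable def spanS (s₀ : Vec d) (S : List (Vec d)) : Submodule ℝ (Vec d) :=
  Submodule.span ℝ {v | ∃ s ∈ S, v = s - s₀}

/-- The row set where `⟪x, s - s₀⟫` is small for all `s` in `S`. -/
def boxC (w : ℝ) (s₀ : Vec d) (S : List (Vec d)) : Set (Vec d) :=
  {x | ∀ s ∈ S, |⟪x, s - s₀⟫| ≤ 2 * w}

/-- The constant `2 / √(2π)`. -/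
noncomputable def cGauss : ℝ≥0∞ := ENNReal.ofReal (2 / √(2 * Real.pi))

end Vale.Agent.Lib.P309
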