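import Vale.Agent.Lib.P309.Basic

/-!
# Potential calculus
-/

open MeasureTheory ProbabilityTheory Metric Set
open scoped RealInnerProductSpace ENNReal

namespace Vale.Agent.Lib.P309

variable {d : ℕ}

section helpers

variable {μ : Measure (Vec d)} [IsProbabilityMeasure μ]

theorem ent_integrable_of_bound {f : Vec d → ℝ} (hf : Measurable f) {C : ℝ}
    (hC : ∀ s, |f s| ≤ C) : Integrable f μ :=
  Integrable.of_bound (C := C) hf.aestronglyMeasurable
    (Filter.Eventually.of_forall (by simpa [Real.norm_eq_abs] using hC))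

theorem abs_mul_log_le_one {x : ℝ} (h0 : 0 ≤ x) (h1 : x ≤ 1) : |x * Real.log x| ≤ 1 := by
  rcases h0.eq_or_lt with rfl | h
  · simp
  · rw [mul_comm]
    exact (Real.abs_log_mul_self_lt x h h1).le

theorem ent_integrable_self {w : Vec d → ℝ} (hw : Measurable w) (hw0 : ∀ s, 0 ≤ w s)
    (hw1 : ∀ s, w s ≤ 1) : Integrable w μ :=
  ent_integrable_of_bound hw (C := 1) (fun s => by
    rw [abs_of_nonneg (hw0 s)]
    exact hw1 s)

theorem ent_integrable_mul_log {w : Vec d → ℝ} (hw : Measurable w) (hw0 : ∀ s, 0 ≤ w s)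
    (hw1 : ∀ s, w s ≤ 1) : Integrable (fun s => w s * Real.log (w s)) μ :=
  ent_integrable_of_bound (hw.mul hw.log) (C := 1) (fun s => abs_mul_log_le_one (hw0 s) (hw1 s))

/-- Gibbs inequality. -/
theorem gibbs {w g L : Vec d → ℝ} (hw : Measurable w) (hw0 : ∀ s, 0 ≤ w s) (hw1 : ∀ s, w s ≤ 1)
    (hπ : 0 < mass μ w) (hgi : Integrable g μ) (hg0 : ∀ s, 0 ≤ g s) (hg1 : ∫ s, g s ∂μ ≤ 1)
    (hLi : Integrable (fun s => w s * L s) μ)
    (hL : ∀ s, w s ≠ 0 → 0 < g s ∧ L s ≤ Real.log (g s)) :
    ∫ s, w s * L s ∂μ ≤ ∫ s, w s * Real.log (w s) ∂μ - mass μ w * Real.log (mass μ w) := by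
  set π := mass μ w with hπdef
  have hwi : Integrable w μ := ent_integrable_self hw hw0 hw1
  have hei := ent_integrable_mul_log (μ := μ) hw hw0 hw1
  have hpt : ∀ s, w s - π * g s ≤ w s * Real.log (w s) - w s * Real.log π - w s * L s := by
    intro s
    by_cases hws : w s = 0
    · simp only [hws, zero_mul, sub_zero, zero_sub]
      have := hg0 s
      nlinarith
    · obtain ⟨hgs, hLs⟩ := hL s hws
      have hwpos : 0 < w s := lt_of_le_of_ne (hw0 s) (Ne.symm hws)
      set y := w s / (π * g s) with hy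
      have hypos : 0 < y := by positivity
      have h1 : 1 - y⁻¹ ≤ Real.log y := Real.one_sub_inv_le_log_of_pos hypos
      have h2 : Real.log y = Real.log (w s) - Real.log π - Real.log (g s) := by
        rw [hy, Real.log_div hwpos.ne' (by positivity), Real.log_mul hπ.ne' hgs.ne']
        ring
      have h3 : w s * y⁻¹ = π * g s := by
        rw [hy]
        field_simp
      have h4 : w s * (1 - y⁻¹) ≤ w s * Real.log y := mul_le_mul_of_nonneg_left h1 hwpos.le
      have h5 : w s * L s ≤ w s * Real.log (g s) := mul_le_mul_of_nonneg_left hLs hwpos.le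
      rw [h2] at h4
      nlinarith
  have hA : Integrable (fun s => w s * Real.log (w s) - w s * Real.log π) μ :=
    hei.sub (hwi.mul_const _)
  have hB : Integrable (fun s => w s - π * g s) μ := hwi.sub (hgi.const_mul π)
  have hint : ∫ s, (w s - π * g s) ∂μ
      ≤ ∫ s, (w s * Real.log (w s) - w s * Real.log π - w s * L s) ∂μ :=
    integral_mono hB (hA.sub hLi) hpt
  have e1 : ∫ s, (w s - π * g s) ∂μ = (∫ s, w s ∂μ) - π * ∫ s, g s ∂μ := by
    rw [integral_sub hwi (hgi.const_mul π), integral_const_mul]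
  have e2 : ∫ s, (w s * Real.log (w s) - w s * Real.log π - w s * L s) ∂μ
      = (∫ s, w s * Real.log (w s) ∂μ) - (∫ s, w s ∂μ) * Real.log π - ∫ s, w s * L s ∂μ := by
    rw [integral_sub hA hLi, integral_sub hei (hwi.mul_const _), integral_mul_const]
  rw [e1, e2] at hint
  have h6 : π * ∫ s, g s ∂μ ≤ π * 1 := mul_le_mul_of_nonneg_left hg1 hπ.le
  have h7 : ∫ s, w s ∂μ = π := rfl
  rw [h7] at hint
  linarith

theorem mass_zero_imp {w : Vec d → ℝ} (hw : Measurable w) (hw0 : ∀ s, 0 ≤ w s)
    (hw1 : ∀ s, w s ≤ 1) (h : mass μ w = 0) : ∀ᵐ s ∂μ, w s = 0 := by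
  have := (integral_eq_zero_iff_of_nonneg (μ := μ) hw0 (ent_integrable_self hw hw0 hw1)).1 h
  exact this

end helpers

theorem log_omega (hd : 1 ≤ d) {x : ℝ} (hx : 0 < x) :
    Real.log (2 * x ^ (d - 1)) = Real.log 2 + ((d:ℝ) - 1) * Real.log x := by
  rw [Real.log_mul (by norm_num) (by positivity), Real.log_pow, Nat.cast_sub hd]
  push_cast
  ring

theorem log_four : Real.log 4 = 2 * Real.log 2 := by
  rw [show (4:ℝ) = 2 ^ 2 by norm_num, Real.log_pow]
  norm_num

theorem log_four_rad (D : ℕ) : Real.log (4 * rad D) = 2 * Real.log 2 - D * Real.log 2 := by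
  unfold rad
  rw [Real.log_mul (by norm_num) (by positivity), Real.log_pow, Real.log_inv, log_four]
  ring

/-- The lower bound of the potential from the ball bound. -/
theorem pot_lower {μ : Measure (Vec d)} (hμ : Prior μ) {j : ℕ} (hd : 8 * j + 4 ≤ d)
    (c : Comp d) (hc : c.Sub μ) :
    mass μ c.w * (((d:ℝ) - 1 - 8 * j) * c.D * Real.log 2) ≤ Pot μ j c.w c.D := by
  have := hμ.prob
  have hm0 : 0 ≤ mass μ c.w := integral_nonneg hc.nonneg
  rcases hm0.eq_or_lt with h0 | hπ
  · have hae := mass_zero_imp (μ := μ) hc.meas hc.nonneg hc.le_one h0.symm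
    have hent : ∫ s, c.w s * Real.log (c.w s) ∂μ = 0 := by
      apply integral_eq_zero_of_ae
      filter_upwards [hae] with s hs
      simp [hs]
    unfold Pot
    rw [hent, ← h0]
    simp
  · set B := closedBall c.z (rad c.D) with hB
    set Ω : ℝ := 2 * (4 * rad c.D) ^ (d - 1) with hΩ
    have hrad : 0 < rad c.D := by
      unfold rad
      positivity
    have hΩpos : 0 < Ω := by positivity
    have hBm : MeasurableSet B := measurableSet_closedBall
    have hμB : μ.real B ≤ Ω := by
      have h1 := hμ.ball c.z (rad c.D) hrad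
      unfold Measure.real
      exact ENNReal.toReal_le_of_le_ofReal hΩpos.le h1
    have hgi : Integrable (B.indicator fun _ => Ω⁻¹) μ :=
      (integrable_const _).indicator hBm
    have hg0 : ∀ s, 0 ≤ B.indicator (fun _ => Ω⁻¹) s :=
      fun s => Set.indicator_nonneg (fun _ _ => by positivity) s
    have hg1 : ∫ s, B.indicator (fun _ => Ω⁻¹) s ∂μ ≤ 1 := by
      rw [integral_indicator hBm]
      simp only [integral_const, smul_eq_mul, measureReal_restrict_apply_univ]
      have : μ.real B * Ω⁻¹ ≤ Ω * Ω⁻¹ := mul_le_mul_of_nonneg_right hμB (by positivity)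
      rwa [mul_inv_cancel₀ hΩpos.ne'] at this
    have hG := gibbs (μ := μ) (L := fun _ => -Real.log Ω) hc.meas hc.nonneg hc.le_one hπ hgi hg0 hg1
      ((ent_integrable_self hc.meas hc.nonneg hc.le_one).mul_const _)
      (by
        intro s hs
        have hsB : s ∈ B := hc.supp s hs
        simp only [Set.indicator_of_mem hsB]
        refine ⟨by positivity, ?_⟩
        rw [Real.log_inv])
    rw [integral_mul_const] at hG
    have hlog : Real.log Ω = bC d - ((d:ℝ) - 1) * c.D * Real.log 2 := by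
      rw [hΩ, log_omega (by omega) (by positivity), log_four_rad]
      unfold bC
      ring
    unfold Pot
    have h3 : ∫ s, c.w s ∂μ = mass μ c.w := rfl
    rw [h3, hlog] at hG
    nlinarith

theorem pot_nonneg {μ : Measure (Vec d)} (hμ : Prior μ) {j : ℕ} (hd : 8 * j + 4 ≤ d)
    (c : Comp d) (hc : c.Sub μ) : 0 ≤ Pot μ j c.w c.D := by
  refine le_trans ?_ (pot_lower hμ hd c hc)
  have hm0 : 0 ≤ mass μ c.w := integral_nonneg hc.nonneg
  have hk : (0:ℝ) ≤ (d:ℝ) - 1 - 8 * j := by
    have : ((8 * j + 4 : ℕ) : ℝ) ≤ d := by exact_mod_cast hd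
    push_cast at this
    linarith
  have hl : 0 ≤ Real.log 2 := Real.log_nonneg (by norm_num)
  positivity

/-- The lower bound on the potential of a component that concentrates near a point. -/
theorem pot_big {μ : Measure (Vec d)} (hμ : Prior μ) {j : ℕ} (hd : 8 * j + 4 ≤ d)
    (c : Comp d) (hc : c.Sub μ) (y : Vec d) {ε : ℝ} (hε : 0 < ε) (hε' : ε < 1 / 8)
    (hbig : mass μ c.w ≤ 2 * ∫ s in closedBall y ε, c.w s ∂μ) :
    mass μ c.w * (((d:ℝ) - 1 - 8 * j) * Real.log (1 / (4 * ε)) / 2 - 2) ≤ Pot μ j c.w c.D := by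
  have := hμ.prob
  have hm0 : 0 ≤ mass μ c.w := integral_nonneg hc.nonneg
  rcases hm0.eq_or_lt with h0 | hπ
  · rw [← h0, zero_mul]
    exact pot_nonneg hμ hd c hc
  set π := mass μ c.w with hπdef
  set B := closedBall y ε with hB
  have hBm : MeasurableSet B := measurableSet_closedBall
  set Λ := Real.log (1 / (4 * ε)) with hΛ
  have hd1 : (1:ℝ) ≤ (d:ℝ) - 1 := by
    have : ((8 * j + 4 : ℕ) : ℝ) ≤ d := by exact_mod_cast hd
    push_cast at this
    have hj : (0:ℝ) ≤ j := Nat.cast_nonneg j
    linarith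
  have hlog2 : 0 < Real.log 2 := Real.log_pos (by norm_num)
  have h4ε : 0 < 4 * ε := by positivity
  have hΛ2 : Real.log 2 ≤ Λ := by
    rw [hΛ]
    apply Real.log_le_log (by norm_num)
    rw [le_div_iff₀ h4ε]
    linarith
  set Ω : ℝ := 2 * (4 * ε) ^ (d - 1) with hΩ
  have hΩpos : 0 < Ω := by positivity
  have hΩ1 : Ω ≤ 1 := by
    have h1 : (4 * ε) ^ (d - 1) ≤ (4 * ε) ^ 1 :=
      pow_le_pow_of_le_one h4ε.le (by linarith) (by omega)
    rw [pow_one] at h1
    rw [hΩ]
    linarith
  have hlogΩ : Real.log Ω = Real.log 2 - ((d:ℝ) - 1) * Λ := by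
    rw [hΩ, log_omega (by omega) h4ε, hΛ, one_div, Real.log_inv]
    ring
  have hμB : μ.real B ≤ Ω := by
    have h1 := hμ.ball y ε hε
    unfold Measure.real
    exact ENNReal.toReal_le_of_le_ofReal hΩpos.le h1
  -- the comparison density
  set g : Vec d → ℝ := fun s => B.indicator (fun _ => (2 * Ω)⁻¹) s + 2⁻¹ with hg
  have hI1 : Integrable (B.indicator fun _ => (2 * Ω)⁻¹) μ :=
    (integrable_const _).indicator hBm
  have hgi : Integrable g μ := hI1.add (integrable_const _)
  have hg0 : ∀ s, 0 ≤ g s := fun s => by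
    have : 0 ≤ B.indicator (fun _ => (2 * Ω)⁻¹) s :=
      Set.indicator_nonneg (fun _ _ => by positivity) s
    simp only [hg]
    positivity
  have hg1 : ∫ s, g s ∂μ ≤ 1 := by
    simp only [hg]
    rw [integral_add hI1 (integrable_const _), integral_indicator hBm]
    simp only [integral_const, smul_eq_mul, measureReal_restrict_apply_univ, probReal_univ]
    have : μ.real B * (2 * Ω)⁻¹ ≤ Ω * (2 * Ω)⁻¹ := mul_le_mul_of_nonneg_right hμB (by positivity)
    have h2 : Ω * (2 * Ω)⁻¹ = 2⁻¹ := by
      field_simp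
    rw [h2] at this
    norm_num at this ⊢
    linarith
  -- the lower function
  set L : Vec d → ℝ := fun s => B.indicator (fun _ => -Real.log Ω) s - Real.log 2 with hL
  have hLi : Integrable (fun s => c.w s * L s) μ := by
    refine ent_integrable_of_bound (hc.meas.mul ?_) (C := |Real.log Ω| + |Real.log 2|) ?_
    · exact (measurable_const.indicator hBm).sub_const _
    · intro s
      rw [abs_mul]
      have h1 : |c.w s| ≤ 1 := by
        rw [abs_of_nonneg (hc.nonneg s)]
        exact hc.le_one s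
      have h2 : |L s| ≤ |Real.log Ω| + |Real.log 2| := by
        simp only [hL]
        rw [abs_le]
        by_cases hs : s ∈ B
        · simp only [Set.indicator_of_mem hs]
          constructor <;> linarith [neg_abs_le (Real.log Ω), le_abs_self (Real.log Ω),
            neg_abs_le (Real.log 2), le_abs_self (Real.log 2)]
        · simp only [Set.indicator_of_notMem hs]
          constructor <;> linarith [neg_abs_le (Real.log Ω), le_abs_self (Real.log Ω),
            neg_abs_le (Real.log 2), le_abs_self (Real.log 2), abs_nonneg (Real.log Ω)]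
      calc |c.w s| * |L s| ≤ 1 * (|Real.log Ω| + |Real.log 2|) :=
            mul_le_mul h1 h2 (abs_nonneg _) zero_le_one
        _ = _ := one_mul _
  have hG := gibbs (μ := μ) (g := g) (L := L) hc.meas hc.nonneg hc.le_one hπ hgi hg0 hg1 hLi (by
    intro s _
    have hi0 : 0 ≤ B.indicator (fun _ => (2 * Ω)⁻¹) s :=
      Set.indicator_nonneg (fun _ _ => by positivity) s
    have hgpos : 0 < g s := by
      simp only [hg]
      positivity
    refine ⟨hgpos, ?_⟩
    simp only [hL]
    by_cases hs : s ∈ B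
    · simp only [Set.indicator_of_mem hs]
      have h1 : Real.log ((2 * Ω)⁻¹) ≤ Real.log (g s) := by
        apply Real.log_le_log (by positivity)
        simp only [hg, Set.indicator_of_mem hs]
        linarith [show (0:ℝ) ≤ 2⁻¹ by norm_num]
      rw [Real.log_inv, Real.log_mul (by norm_num) hΩpos.ne'] at h1
      linarith
    · simp only [Set.indicator_of_notMem hs, hg, zero_add, zero_sub]
      rw [Real.log_inv])
  -- evaluate the left side
  have hleft : ∫ s, c.w s * L s ∂μ
      = (∫ s in B, c.w s ∂μ) * (-Real.log Ω) - π * Real.log 2 := by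
    have h1 : (fun s => c.w s * L s)
        = fun s => (B.indicator c.w s) * (-Real.log Ω) - c.w s * Real.log 2 := by
      funext s
      simp only [hL]
      by_cases hs : s ∈ B <;> simp [hs]
      ring
    have hwi : Integrable c.w μ := ent_integrable_self hc.meas hc.nonneg hc.le_one
    rw [h1, integral_sub ((hwi.indicator hBm).mul_const _) (hwi.mul_const _),
      integral_mul_const, integral_mul_const, integral_indicator hBm]
    rfl
  rw [hleft] at hG
  -- lower bound using hbig
  have hlogΩ0 : 0 ≤ -Real.log Ω := by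
    have := Real.log_nonpos hΩpos.le hΩ1
    linarith
  have hA : π / 2 * (-Real.log Ω) ≤ (∫ s in B, c.w s ∂μ) * (-Real.log Ω) :=
    mul_le_mul_of_nonneg_right (by linarith) hlogΩ0
  -- first inequality (A)
  have hcomb := pot_lower hμ hd c hc
  simp only [Pot] at hcomb ⊢
  rw [← hπdef] at hcomb ⊢
  set E := ∫ s, c.w s * Real.log (c.w s) ∂μ - π * Real.log π with hE
  set P := π * (bC d - 8 * j * c.D * Real.log 2) + ∫ s, c.w s * Real.log (c.w s) ∂μ
    - π * Real.log π with hP
  have hPA : π * (bC d - 8 * j * c.D * Real.log 2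
      + ((d:ℝ) - 1) * Λ / 2 - 3 / 2 * Real.log 2) ≤ P := by
    have h1 : π / 2 * (-Real.log Ω) - π * Real.log 2 ≤ E := by linarith
    rw [hlogΩ] at h1
    have h2 : P = π * (bC d - 8 * j * c.D * Real.log 2) + E := by
      rw [hP, hE]
      ring
    rw [h2]
    nlinarith
  -- combination: (d-1) P = κ P + 8 j P
  set κ := (d:ℝ) - 1 - 8 * j with hκ
  have hκ0 : 0 ≤ κ := by
    have : ((8 * j + 4 : ℕ) : ℝ) ≤ d := by exact_mod_cast hd
    push_cast at this
    rw [hκ]
    linarith
  have hj0 : (0:ℝ) ≤ 8 * j := by positivity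
  have hPB : π * (κ * c.D * Real.log 2) ≤ P := hcomb
  have hdd : (d:ℝ) - 1 = κ + 8 * j := by rw [hκ]; ring
  have hb : 3 / 2 * Real.log 2 ≤ bC d := by
    unfold bC
    have : (2:ℝ) ≤ 2 * (d:ℝ) - 1 := by linarith
    nlinarith
  have hmain : ((d:ℝ) - 1) * (π * (κ * Λ / 2)) ≤ ((d:ℝ) - 1) * P := by
    have h1 : κ * (π * (bC d - 8 * j * c.D * Real.log 2
        + ((d:ℝ) - 1) * Λ / 2 - 3 / 2 * Real.log 2)) ≤ κ * P :=
      mul_le_mul_of_nonneg_left hPA hκ0
    have h2 : (8 * j : ℝ) * (π * (κ * c.D * Real.log 2)) ≤ 8 * j * P :=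
      mul_le_mul_of_nonneg_left hPB hj0
    have h3 : 0 ≤ κ * (π * (bC d - 3 / 2 * Real.log 2)) :=
      mul_nonneg hκ0 (mul_nonneg hπ.le (by linarith))
    have h4 : ((d:ℝ) - 1) * P = κ * P + 8 * j * P := by rw [hdd]; ring
    rw [h4]
    have h5 : ((d:ℝ) - 1) * (π * (κ * Λ / 2))
        = κ * (π * (((d:ℝ) - 1) * Λ / 2)) := by ring
    rw [h5]
    nlinarith
  have hmain2 : π * (κ * Λ / 2) ≤ P := le_of_mul_le_mul_left hmain (by linarith)
  have hfin : π * (κ * Λ / 2 - 2) ≤ π * (κ * Λ / 2) := by
    apply mul_le_mul_of_nonneg_left _ hπ.le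
    linarith
  exact hfin.trans hmain2

/-- The chain rule: splitting a sub-density by a partition of unity. -/
theorem pot_chain {μ : Measure (Vec d)} [IsProbabilityMeasure μ] {ι : Type} [Fintype ι] {w : Vec d → ℝ}
    (hw : Measurable w) (hw0 : ∀ s, 0 ≤ w s) (hw1 : ∀ s, w s ≤ 1)
    (hπ : 0 < mass μ w) {h : ι → Vec d → ℝ} (hm : ∀ i, Measurable (h i)) (h0 : ∀ i s, 0 ≤ h i s)
    (hsum : ∀ s, ∑ i, h i s = 1) (j : ℕ) (D : ι → ℕ) (D₀ : ℕ) :
    ∑ i, Pot μ j (fun s => w s * h i s) (D i)
      = Pot μ j w D₀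
        + ∑ i, ((∫ s, w s * h i s * Real.log (h i s) ∂μ)
            - mass μ (fun s => w s * h i s) * Real.log (mass μ (fun s => w s * h i s) / mass μ w)
            - mass μ (fun s => w s * h i s) * (8 * j * ((D i : ℝ) - D₀) * Real.log 2)) := by
  have h1 : ∀ i s, h i s ≤ 1 := fun i s => by
    have h2 := Finset.single_le_sum (f := fun k => h k s) (fun k _ => h0 k s) (Finset.mem_univ i)
    rw [hsum s] at h2
    exact h2
  set π := mass μ w with hπdef
  set p : ι → ℝ := fun i => mass μ (fun s => w s * h i s) with hp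
  have hwi : Integrable w μ := ent_integrable_self hw hw0 hw1
  have hIw : ∀ i, Integrable (fun s => w s * h i s) μ := fun i =>
    ent_integrable_of_bound (hw.mul (hm i)) (C := 1) (fun s => by
      rw [abs_of_nonneg (mul_nonneg (hw0 s) (h0 i s))]
      have := mul_le_mul (hw1 s) (h1 i s) (h0 i s) zero_le_one
      simpa using this)
  have hIa : ∀ i, Integrable (fun s => w s * h i s * Real.log (w s)) μ := fun i =>
    ent_integrable_of_bound ((hw.mul (hm i)).mul hw.log) (C := 1) (fun s => by
      have e : w s * h i s * Real.log (w s) = h i s * (w s * Real.log (w s)) := by ring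
      rw [e, abs_mul, abs_of_nonneg (h0 i s)]
      have h3 := abs_mul_log_le_one (hw0 s) (hw1 s)
      have := mul_le_mul (h1 i s) h3 (abs_nonneg _) zero_le_one
      simpa using this)
  have hIb : ∀ i, Integrable (fun s => w s * h i s * Real.log (h i s)) μ := fun i =>
    ent_integrable_of_bound ((hw.mul (hm i)).mul (hm i).log) (C := 1) (fun s => by
      have e : w s * h i s * Real.log (h i s) = w s * (h i s * Real.log (h i s)) := by ring
      rw [e, abs_mul, abs_of_nonneg (hw0 s)]
      have h3 := abs_mul_log_le_one (h0 i s) (h1 i s)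
      have := mul_le_mul (hw1 s) h3 (abs_nonneg _) zero_le_one
      simpa using this)
  have hsumπ : ∑ i, p i = π := by
    simp only [hp, hπdef, mass]
    rw [← integral_finsetSum _ (fun i _ => hIw i)]
    congr 1
    funext s
    rw [← Finset.mul_sum, hsum s, mul_one]
  have hEnt : ∀ i, ∫ s, (w s * h i s) * Real.log (w s * h i s) ∂μ
      = ∫ s, w s * h i s * Real.log (w s) ∂μ + ∫ s, w s * h i s * Real.log (h i s) ∂μ := by
    intro i
    rw [← integral_add (hIa i) (hIb i)]
    congr 1
    funext s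
    by_cases hws : w s = 0
    · simp [hws]
    · by_cases hhs : h i s = 0
      · simp [hhs]
      · rw [Real.log_mul hws hhs]
        ring
  have hSumLog : ∑ i, ∫ s, w s * h i s * Real.log (w s) ∂μ = ∫ s, w s * Real.log (w s) ∂μ := by
    rw [← integral_finsetSum _ (fun i _ => hIa i)]
    congr 1
    funext s
    have : ∑ i, w s * h i s * Real.log (w s) = w s * (∑ i, h i s) * Real.log (w s) := by
      rw [Finset.mul_sum, Finset.sum_mul]
    rw [this, hsum s, mul_one]
  have hLogSplit : ∀ i, p i * Real.log (p i) = p i * Real.log (p i / π) + p i * Real.log π := by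
    intro i
    by_cases hpi : p i = 0
    · simp [hpi]
    · rw [Real.log_div hpi hπ.ne']
      ring
  unfold Pot
  simp only [hEnt]
  -- bring to `p`
  change ∑ i, (p i * (bC d - 8 * j * (D i : ℝ) * Real.log 2)
      + (∫ s, w s * h i s * Real.log (w s) ∂μ + ∫ s, w s * h i s * Real.log (h i s) ∂μ)
      - p i * Real.log (p i))
    = π * (bC d - 8 * j * D₀ * Real.log 2) + ∫ s, w s * Real.log (w s) ∂μ - π * Real.log π
      + ∑ i, ((∫ s, w s * h i s * Real.log (h i s) ∂μ) - p i * Real.log (p i / π)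
        - p i * (8 * j * ((D i : ℝ) - D₀) * Real.log 2))
  have hterm : ∀ i, (p i * (bC d - 8 * j * (D i : ℝ) * Real.log 2)
      + (∫ s, w s * h i s * Real.log (w s) ∂μ + ∫ s, w s * h i s * Real.log (h i s) ∂μ)
      - p i * Real.log (p i))
      = p i * (bC d - 8 * j * D₀ * Real.log 2) + (∫ s, w s * h i s * Real.log (w s) ∂μ)
        - p i * Real.log π
        + ((∫ s, w s * h i s * Real.log (h i s) ∂μ) - p i * Real.log (p i / π)
          - p i * (8 * j * ((D i : ℝ) - D₀) * Real.log 2)) := by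
    intro i
    rw [hLogSplit i]
    ring
  rw [Finset.sum_congr rfl (fun i _ => hterm i), Finset.sum_add_distrib, Finset.sum_sub_distrib,
    Finset.sum_add_distrib, ← Finset.sum_mul, ← Finset.sum_mul, hsumπ, hSumLog]

/-- `-x log x ≤ exp (-1)` -/
theorem neg_mul_log_le (x : ℝ) (hx : 0 ≤ x) : -(x * Real.log x) ≤ Real.exp (-1) := by
  rcases hx.eq_or_lt with rfl | h
  · simpa using (Real.exp_pos (-1)).le
  · have h1 : Real.log (x⁻¹ * Real.exp (-1)) ≤ x⁻¹ * Real.exp (-1) - 1 :=
      Real.log_le_sub_one_of_pos (by positivity)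
    rw [Real.log_mul (by positivity) (Real.exp_pos _).ne', Real.log_exp, Real.log_inv] at h1
    have h2 : x * (-Real.log x + -1) ≤ x * (x⁻¹ * Real.exp (-1) - 1) :=
      mul_le_mul_of_nonneg_left h1 h.le
    have h3 : x * (x⁻¹ * Real.exp (-1) - 1) = Real.exp (-1) - x := by
      field_simp
    nlinarith

/-- Tangent estimate for `-q log q`. -/
theorem neg_mul_log_le_tangent {q N : ℝ} (hq : 0 ≤ q) (hN : 0 < N) :
    -(q * Real.log q) ≤ N⁻¹ - q + q * Real.log N := by
  rcases hq.eq_or_lt with rfl | h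
  · simp
    positivity
  · have h1 : Real.log (q⁻¹ * N⁻¹) ≤ q⁻¹ * N⁻¹ - 1 :=
      Real.log_le_sub_one_of_pos (by positivity)
    rw [Real.log_mul (by positivity) (by positivity), Real.log_inv, Real.log_inv] at h1
    have h2 : q * (-Real.log q + -Real.log N) ≤ q * (q⁻¹ * N⁻¹ - 1) :=
      mul_le_mul_of_nonneg_left h1 h.le
    have h3 : q * (q⁻¹ * N⁻¹ - 1) = N⁻¹ - q := by
      field_simp
    nlinarith

/-- The single-state estimate in the gain lemma. -/
theorem term_bound {μ : Measure (Vec d)} [IsProbabilityMeasure μ] {w f : Vec d → ℝ}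
    (hw : Measurable w) (hw0 : ∀ s, 0 ≤ w s) (hw1 : ∀ s, w s ≤ 1) (hπ : 0 < mass μ w)
    (hf : Measurable f) (hf0 : ∀ s, 0 ≤ f s) (hf1 : ∀ s, f s ≤ 1)
    {Γ : ℝ} (hΓ : 1 ≤ Γ) {n : ℕ} (hn : 1 ≤ n)
    (hflat : ∫ s, w s * f s ^ 2 ∂μ ≤
      mass μ w * (Γ * (mass μ (fun s => w s * f s) / mass μ w)) ^ (2 * (((n:ℝ) - 1) / n))) :
    (∫ s, w s * f s * Real.log (f s) ∂μ)
        - mass μ (fun s => w s * f s) * Real.log (mass μ (fun s => w s * f s) / mass μ w)
      ≤ mass μ (fun s => w s * f s) * (2 * Real.log Γ)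
        + 2 / n * (mass μ w * (-(mass μ (fun s => w s * f s) / mass μ w
            * Real.log (mass μ (fun s => w s * f s) / mass μ w)))) := by
  set π := mass μ w with hπdef
  set p := mass μ (fun s => w s * f s) with hp
  have hIw : Integrable (fun s => w s * f s) μ :=
    ent_integrable_of_bound (hw.mul hf) (C := 1) (fun s => by
      rw [abs_of_nonneg (mul_nonneg (hw0 s) (hf0 s))]
      have := mul_le_mul (hw1 s) (hf1 s) (hf0 s) zero_le_one
      simpa using this)
  have hI2 : Integrable (fun s => w s * f s ^ 2) μ :=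
    ent_integrable_of_bound (hw.mul (hf.pow_const 2)) (C := 1) (fun s => by
      rw [abs_of_nonneg (mul_nonneg (hw0 s) (sq_nonneg _))]
      have h2 : f s ^ 2 ≤ 1 := pow_le_one₀ (hf0 s) (hf1 s)
      have := mul_le_mul (hw1 s) h2 (sq_nonneg _) zero_le_one
      simpa using this)
  have hIb : Integrable (fun s => w s * f s * Real.log (f s)) μ :=
    ent_integrable_of_bound ((hw.mul hf).mul hf.log) (C := 1) (fun s => by
      have e : w s * f s * Real.log (f s) = w s * (f s * Real.log (f s)) := by ring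
      rw [e, abs_mul, abs_of_nonneg (hw0 s)]
      have h3 := abs_mul_log_le_one (hf0 s) (hf1 s)
      have := mul_le_mul (hw1 s) h3 (abs_nonneg _) zero_le_one
      simpa using this)
  have hp0 : 0 ≤ p := integral_nonneg (fun s => mul_nonneg (hw0 s) (hf0 s))
  have hlogΓ : 0 ≤ Real.log Γ := Real.log_nonneg hΓ
  rcases hp0.eq_or_lt with h0 | hppos
  · -- zero mass
    have hae : ∀ᵐ s ∂μ, w s * f s = 0 :=
      (integral_eq_zero_iff_of_nonneg (fun s => mul_nonneg (hw0 s) (hf0 s)) hIw).1 h0.symm
    have hz : ∫ s, w s * f s * Real.log (f s) ∂μ = 0 := by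
      apply integral_eq_zero_of_ae
      filter_upwards [hae] with s hs
      simp [hs]
    rw [hz, ← h0]
    simp
  -- positive mass
  set S := ∫ s, w s * f s ^ 2 ∂μ with hS
  have hS0 : 0 ≤ S := integral_nonneg (fun s => mul_nonneg (hw0 s) (sq_nonneg _))
  have hSpos : 0 < S := by
    rcases hS0.eq_or_lt with h | h
    · exfalso
      have hae : ∀ᵐ s ∂μ, w s * f s ^ 2 = 0 :=
        (integral_eq_zero_iff_of_nonneg (fun s => mul_nonneg (hw0 s) (sq_nonneg _)) hI2).1 h.symm
      have : p = 0 := by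
        apply integral_eq_zero_of_ae
        filter_upwards [hae] with s hs
        rcases mul_eq_zero.1 hs with h1 | h1
        · simp [h1]
        · have : f s = 0 := by simpa using h1
          simp [this]
      exact hppos.ne' this
    · exact h
  set q := p / π with hq
  have hqpos : 0 < q := by positivity
  set c := π * S / p ^ 2 with hc
  have hcpos : 0 < c := by positivity
  -- pointwise
  have hpt : ∀ s, w s * f s * Real.log (f s) - w s * f s * Real.log q
      ≤ w s * f s ^ 2 * (π / (p * c)) + w s * f s * (Real.log c - 1) := by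
    intro s
    by_cases hfs : f s = 0
    · simp [hfs]
    · have hfpos : 0 < f s := lt_of_le_of_ne (hf0 s) (Ne.symm hfs)
      have hx : 0 < f s * π / (p * c) := by positivity
      have h1 : Real.log (f s * π / (p * c)) ≤ f s * π / (p * c) - 1 :=
        Real.log_le_sub_one_of_pos hx
      have h2 : Real.log (f s * π / (p * c)) = Real.log (f s) - Real.log q - Real.log c := by
        rw [Real.log_div (by positivity) (by positivity), Real.log_mul hfpos.ne' hπ.ne',
          Real.log_mul hppos.ne' hcpos.ne', hq, Real.log_div hppos.ne' hπ.ne']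
        ring
      rw [h2] at h1
      have h3 := mul_le_mul_of_nonneg_left h1 (mul_nonneg (hw0 s) (hf0 s))
      have h4 : w s * f s * (f s * π / (p * c) - 1)
          = w s * f s ^ 2 * (π / (p * c)) - w s * f s := by
        field_simp
      rw [h4] at h3
      nlinarith
  have hint : ∫ s, (w s * f s * Real.log (f s) - w s * f s * Real.log q) ∂μ
      ≤ ∫ s, (w s * f s ^ 2 * (π / (p * c)) + w s * f s * (Real.log c - 1)) ∂μ :=
    integral_mono (hIb.sub (hIw.mul_const _)) ((hI2.mul_const _).add (hIw.mul_const _)) hpt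
  rw [integral_sub hIb (hIw.mul_const _), integral_add (hI2.mul_const _) (hIw.mul_const _),
    integral_mul_const, integral_mul_const, integral_mul_const] at hint
  have hpdef : ∫ s, w s * f s ∂μ = p := rfl
  rw [hpdef, ← hS] at hint
  have hSterm : S * (π / (p * c)) = p := by
    rw [hc]
    field_simp
  rw [hSterm] at hint
  -- upper bound of log c
  set e : ℝ := 2 * (((n:ℝ) - 1) / n) with he
  have hnpos : (0:ℝ) < n := by exact_mod_cast hn
  have hn1 : (1:ℝ) ≤ n := by exact_mod_cast hn
  have he2 : 2 - e = 2 / n := by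
    rw [he]
    field_simp
    ring
  have he0 : 0 ≤ e := by
    rw [he]
    have : (0:ℝ) ≤ ((n:ℝ) - 1) / n := div_nonneg (by linarith) hnpos.le
    linarith
  have he3 : e ≤ 2 := by
    have : (0:ℝ) < 2 / n := by positivity
    linarith
  have hΓq : 0 < Γ * q := by
    have : (0:ℝ) < Γ := by linarith
    positivity
  have hlogS : Real.log c ≤ e * Real.log Γ - (2 / n) * Real.log q := by
    have h1 : c = (S / π) / q ^ 2 := by
      rw [hc, hq]
      field_simp
    have h2 : S / π ≤ (Γ * q) ^ e := by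
      rw [div_le_iff₀ hπ, mul_comm]
      exact hflat
    have hSπ : 0 < S / π := by positivity
    have h3 : Real.log c = Real.log (S / π) - 2 * Real.log q := by
      rw [h1, Real.log_div hSπ.ne' (by positivity), Real.log_pow]
      norm_num
    have h4 : Real.log (S / π) ≤ e * Real.log (Γ * q) := by
      have := Real.log_le_log hSπ h2
      rwa [Real.log_rpow hΓq] at this
    have hΓ0 : (0:ℝ) < Γ := by linarith
    rw [Real.log_mul hΓ0.ne' hqpos.ne'] at h4
    rw [h3]
    have h5 : (2:ℝ) / n = 2 - e := he2.symm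
    rw [h5]
    nlinarith
  have hpq : p = π * q := by
    rw [hq]
    field_simp
  have hfinal : (∫ s, w s * f s * Real.log (f s) ∂μ) - p * Real.log q ≤ p * Real.log c := by
    linarith
  have hb1 : p * Real.log c ≤ p * (e * Real.log Γ - (2 / n) * Real.log q) :=
    mul_le_mul_of_nonneg_left hlogS hp0
  have hb2 : p * (e * Real.log Γ) ≤ p * (2 * Real.log Γ) := by
    apply mul_le_mul_of_nonneg_left _ hp0
    nlinarith
  have hb3 : 2 / (n:ℝ) * (π * -(q * Real.log q)) = -(p * ((2 / n) * Real.log q)) := by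
    rw [hpq]
    ring
  rw [hb3]
  nlinarith

/-- The block gain in abstract form. -/
theorem gain_abstract {μ : Measure (Vec d)} [IsProbabilityMeasure μ] {σ : Type} [Fintype σ]
    (hσ : Nonempty σ) {w : Vec d → ℝ}
    (hw : Measurable w) (hw0 : ∀ s, 0 ≤ w s) (hw1 : ∀ s, w s ≤ 1) (hπ : 0 < mass μ w)
    {h : σ → Vec d → ℝ} {hb : Vec d → ℝ} (hm : ∀ a, Measurable (h a)) (hbm : Measurable hb)
    (h0 : ∀ a s, 0 ≤ h a s) (hb0 : ∀ s, 0 ≤ hb s) (hsum : ∀ s, ∑ a, h a s + hb s = 1)
    {Γ : ℝ} (hΓ : 1 ≤ Γ) {n : ℕ} (hn : 1 ≤ n) (j D : ℕ)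
    (hflat : ∀ a, ∫ s, w s * h a s ^ 2 ∂μ ≤
      mass μ w * (Γ * (mass μ (fun s => w s * h a s) / mass μ w)) ^ (2 * (((n:ℝ) - 1) / n)))
    (hdead : 0 ≤ Pot μ j (fun s => w s * hb s) D) :
    ∑ a, Pot μ j (fun s => w s * h a s) D
      ≤ Pot μ j w D + mass μ w *
        (2 * Real.log Γ + 2 / n * (Real.log (Fintype.card σ) + 1) + Real.exp (-1)) := by
  have h1 : ∀ a s, h a s ≤ 1 := fun a s => by
    have h2 : h a s ≤ ∑ k, h k s :=
      Finset.single_le_sum (f := fun k => h k s) (fun k _ => h0 k s) (Finset.mem_univ a)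
    have h3 := hsum s
    have h4 := hb0 s
    linarith
  have hb1 : ∀ s, hb s ≤ 1 := fun s => by
    have h3 := hsum s
    have h2 : 0 ≤ ∑ a, h a s := Finset.sum_nonneg (fun a _ => h0 a s)
    linarith
  have key := pot_chain (μ := μ) (ι := Option σ) (w := w) hw hw0 hw1 hπ
    (h := fun o s => o.elim (hb s) (fun a => h a s))
    (by
      intro o
      cases o with
      | none => exact hbm
      | some a => exact hm a)
    (by
      intro o s
      cases o with
      | none => exact hb0 s
      | some a => exact h0 a s)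
    (by
      intro s
      rw [Fintype.sum_option]
      simp only [Option.elim_none, Option.elim_some]
      linarith [hsum s])
    j (fun _ => D) D
  simp only [Fintype.sum_option, Option.elim_none, Option.elim_some, sub_self, mul_zero,
    zero_mul, sub_zero] at key
  set π := mass μ w with hπdef
  set pb := mass μ (fun s => w s * hb s) with hpb
  set p : σ → ℝ := fun a => mass μ (fun s => w s * h a s) with hp
  have hp0 : ∀ a, 0 ≤ p a := fun a => integral_nonneg (fun s => mul_nonneg (hw0 s) (h0 a s))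
  have hpb0 : 0 ≤ pb := integral_nonneg (fun s => mul_nonneg (hw0 s) (hb0 s))
  have hIw : ∀ {f : Vec d → ℝ}, Measurable f → (∀ s, 0 ≤ f s) → (∀ s, f s ≤ 1) →
      Integrable (fun s => w s * f s) μ := by
    intro f hf hf0 hf1
    exact ent_integrable_of_bound (hw.mul hf) (C := 1) (fun s => by
      rw [abs_of_nonneg (mul_nonneg (hw0 s) (hf0 s))]
      have := mul_le_mul (hw1 s) (hf1 s) (hf0 s) zero_le_one
      simpa using this)
  have hsumπ : ∑ a, p a + pb = π := by
    simp only [hp, hpb, hπdef, mass]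
    rw [← integral_finsetSum _ (fun a _ => hIw (hm a) (h0 a) (h1 a)),
      ← integral_add (integrable_finsetSum _ (fun a _ => hIw (hm a) (h0 a) (h1 a)))
        (hIw hbm hb0 hb1)]
    congr 1
    funext s
    rw [← Finset.mul_sum, ← mul_add, hsum s, mul_one]
  have hSum0 : 0 ≤ ∑ a, p a := Finset.sum_nonneg (fun a _ => hp0 a)
  have hlogΓ : 0 ≤ Real.log Γ := Real.log_nonneg hΓ
  -- the dead part
  have hdeadT : (∫ s, w s * hb s * Real.log (hb s) ∂μ) - pb * Real.log (pb / π)
      ≤ π * Real.exp (-1) := by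
    have h2 : ∫ s, w s * hb s * Real.log (hb s) ∂μ ≤ 0 := by
      apply integral_nonpos
      intro s
      have h3 : Real.log (hb s) ≤ 0 := Real.log_nonpos (hb0 s) (hb1 s)
      exact mul_nonpos_of_nonneg_of_nonpos (mul_nonneg (hw0 s) (hb0 s)) h3
    have h3 := neg_mul_log_le (pb / π) (by positivity)
    have h4 : pb * Real.log (pb / π) = π * (pb / π * Real.log (pb / π)) := by
      field_simp
    have h5 : π * -(pb / π * Real.log (pb / π)) ≤ π * Real.exp (-1) :=
      mul_le_mul_of_nonneg_left h3 hπ.le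
    rw [h4]
    nlinarith
  -- the states
  have hterm : ∀ a, (∫ s, w s * h a s * Real.log (h a s) ∂μ) - p a * Real.log (p a / π)
      ≤ p a * (2 * Real.log Γ) + 2 / n * (π * -(p a / π * Real.log (p a / π))) := fun a =>
    term_bound hw hw0 hw1 hπ (hm a) (h0 a) (h1 a) hΓ hn (hflat a)
  set N : ℝ := ((Fintype.card σ : ℕ) : ℝ) with hN
  have hNpos : 0 < N := by
    rw [hN]
    exact_mod_cast Fintype.card_pos
  have hlogN : 0 ≤ Real.log N := by
    apply Real.log_nonneg
    rw [hN]
    exact_mod_cast Fintype.card_pos (α := σ)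
  set Q : ℝ := ∑ a, p a / π with hQ
  have hQ0 : 0 ≤ Q := Finset.sum_nonneg (fun a _ => div_nonneg (hp0 a) hπ.le)
  have hQ1 : Q ≤ 1 := by
    rw [hQ, ← Finset.sum_div, div_le_one hπ]
    linarith
  have hent : ∑ a, -(p a / π * Real.log (p a / π)) ≤ 1 + Real.log N := by
    have h2 : ∀ a, -(p a / π * Real.log (p a / π))
        ≤ N⁻¹ - p a / π + p a / π * Real.log N := fun a =>
      neg_mul_log_le_tangent (div_nonneg (hp0 a) hπ.le) hNpos
    have h3 := Finset.sum_le_sum (fun a (_ : a ∈ Finset.univ) => h2 a)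
    rw [Finset.sum_add_distrib, Finset.sum_sub_distrib, ← Finset.sum_mul, ← hQ,
      Finset.sum_const, Finset.card_univ, nsmul_eq_mul, ← hN, mul_inv_cancel₀ hNpos.ne'] at h3
    nlinarith
  have hsumterm : ∑ a, ((∫ s, w s * h a s * Real.log (h a s) ∂μ) - p a * Real.log (p a / π))
      ≤ π * (2 * Real.log Γ) + 2 / n * (π * (1 + Real.log N)) := by
    have h3 := Finset.sum_le_sum (fun a (_ : a ∈ Finset.univ) => hterm a)
    refine h3.trans ?_
    rw [Finset.sum_add_distrib, ← Finset.sum_mul, ← Finset.mul_sum, ← Finset.mul_sum]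
    have h4 : (∑ a, p a) * (2 * Real.log Γ) ≤ π * (2 * Real.log Γ) := by
      apply mul_le_mul_of_nonneg_right _ (by positivity)
      linarith
    have h5 : π * ∑ a, -(p a / π * Real.log (p a / π)) ≤ π * (1 + Real.log N) :=
      mul_le_mul_of_nonneg_left hent hπ.le
    have h6 : (2:ℝ) / n * (π * ∑ a, -(p a / π * Real.log (p a / π)))
        ≤ 2 / n * (π * (1 + Real.log N)) :=
      mul_le_mul_of_nonneg_left h5 (by positivity)
    linarith
  have hfin : ∑ a, Pot μ j (fun s => w s * h a s) D
      = Pot μ j w D + ((∫ s, w s * hb s * Real.log (hb s) ∂μ) - pb * Real.log (pb / π))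
        + ∑ a, ((∫ s, w s * h a s * Real.log (h a s) ∂μ) - p a * Real.log (p a / π))
        - Pot μ j (fun s => w s * hb s) D := by
    linarith
  rw [hfin]
  nlinarith

end Vale.Agent.Lib.P309
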