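import Vale.Agent.Lib.P309.Basic

/-!
# Basic properties of the channel
-/

open MeasureTheory ProbabilityTheory Metric Set
open scoped RealInnerProductSpace ENNReal

namespace Vale.Agent.Lib.P309

variable {d : ℕ}

instance isProbabilityMeasure_rowLaw (d j : ℕ) : IsProbabilityMeasure (rowLaw d j) := by
  unfold rowLaw
  infer_instance

theorem measurable_labels_joint {j : ℕ} :
    Measurable fun p : Vec d × Rows d j => ((p.2, labels p.2 p.1) : Zsp d j) := by
  refine measurable_snd.prodMk (measurable_pi_lambda _ fun r => ?_)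
  have : Continuous fun p : Vec d × Rows d j => ⟪p.2 r, p.1⟫ := by fun_prop
  exact this.measurable

theorem measurableSet_chan_section {j : ℕ} {A : Set (Zsp d j)} (hA : MeasurableSet A) (s : Vec d) :
    MeasurableSet {X : Rows d j | (X, labels X s) ∈ A} :=
  (measurable_prodMk_left (x := s)) (measurable_labels_joint hA)

theorem measurable_chan {j : ℕ} {A : Set (Zsp d j)} (hA : MeasurableSet A) :
    Measurable (chan d j A) :=
  measurable_measure_prodMk_left (measurable_labels_joint hA)

theorem chan_le_one {j : ℕ} (A : Set (Zsp d j)) (s : Vec d) : chan d j A s ≤ 1 :=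
  prob_le_one

theorem chan_mono {j : ℕ} {A B : Set (Zsp d j)} (h : A ⊆ B) (s : Vec d) :
    chan d j A s ≤ chan d j B s :=
  measure_mono fun _ hX => h hX

/-- Partition of a good set -/
theorem sum_chan_inter {j : ℕ} {σ : Type} [Fintype σ] (f : Zsp d j → σ)
    (hf : ∀ a, MeasurableSet (f ⁻¹' {a})) {G : Set (Zsp d j)} (hG : MeasurableSet G) (s : Vec d) :
    ∑ a, (chan d j (f ⁻¹' {a} ∩ G) s).toReal + (chan d j Gᶜ s).toReal = 1 := by
  classical
  have hmeas : ∀ a, MeasurableSet {X : Rows d j | (X, labels X s) ∈ f ⁻¹' {a} ∩ G} := fun a =>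
    measurableSet_chan_section ((hf a).inter hG) s
  have hu : ⋃ a, {X : Rows d j | (X, labels X s) ∈ f ⁻¹' {a} ∩ G} = {X | (X, labels X s) ∈ G} := by
    ext X
    simp
  have hdisj : Pairwise fun a b : σ => Disjoint {X : Rows d j | (X, labels X s) ∈ f ⁻¹' {a} ∩ G}
      {X : Rows d j | (X, labels X s) ∈ f ⁻¹' {b} ∩ G} := by
    intro a b hab
    rw [Set.disjoint_left]
    rintro X ⟨h1, -⟩ ⟨h2, -⟩
    apply hab
    simp only [Set.mem_preimage, Set.mem_singleton_iff] at h1 h2
    exact h1.symm.trans h2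
  have h1 : rowLaw d j {X | (X, labels X s) ∈ G}
      = ∑ a, chan d j (f ⁻¹' {a} ∩ G) s := by
    rw [← hu, measure_iUnion hdisj hmeas, tsum_fintype]
    rfl
  have hGs := measurableSet_chan_section hG s
  have h2 : chan d j Gᶜ s = rowLaw d j {X | (X, labels X s) ∈ G}ᶜ := rfl
  have h3 : rowLaw d j {X | (X, labels X s) ∈ G} + rowLaw d j {X | (X, labels X s) ∈ G}ᶜ = 1 :=
    prob_add_prob_compl hGs
  have hfin : ∀ a, chan d j (f ⁻¹' {a} ∩ G) s ≠ ⊤ := fun a =>
    ne_top_of_le_ne_top ENNReal.one_ne_top (chan_le_one _ s)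
  rw [← ENNReal.toReal_sum (fun a _ => hfin a), ← h1, h2, ← ENNReal.toReal_add (measure_ne_top _ _)
    (measure_ne_top _ _), h3]
  simp

/-- The chan of a partition sums to one -/
theorem sum_chan {j : ℕ} {σ : Type} [Fintype σ] (f : Zsp d j → σ)
    (hf : ∀ a, MeasurableSet (f ⁻¹' {a})) (s : Vec d) :
    ∑ a, (chan d j (f ⁻¹' {a}) s).toReal = 1 := by
  have := sum_chan_inter f hf (G := univ) MeasurableSet.univ s
  simpa [chan] using this

end Vale.Agent.Lib.P309
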