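import Vale.Agent.Lib.P309.Gauss
import Vale.Agent.Lib.P309.Chan

/-!
# The good set of blocks
-/

open MeasureTheory ProbabilityTheory Metric Set
open scoped RealInnerProductSpace ENNReal

namespace Vale.Agent.Lib.P309

variable {d : ℕ}

/-- Tonelli for a product function over a finite product measure. -/
theorem lintegral_pi_prod_fin {α : Type} [MeasurableSpace α] (m : Measure α) [SigmaFinite m] :
    ∀ (j : ℕ) (f : Fin j → α → ℝ≥0∞), (∀ r, Measurable (f r)) →
      ∫⁻ x, ∏ r, f r (x r) ∂Measure.pi (fun _ : Fin j => m) = ∏ r, ∫⁻ a, f r a ∂m := by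
  intro j
  induction j with
  | zero =>
    intro f _
    simp
  | succ j ih =>
    intro f hf
    have hmp := measurePreserving_piFinSuccAbove (fun _ : Fin (j + 1) => m) 0
    have hsym := hmp.symm
    rw [← hsym.lintegral_comp_emb (MeasurableEquiv.measurableEmbedding _)]
    have h1 : ∀ p : α × (Fin j → α),
        ∏ r, f r (((MeasurableEquiv.piFinSuccAbove (fun _ : Fin (j + 1) => α) 0).symm p) r)
          = f 0 p.1 * ∏ r : Fin j, f r.succ (p.2 r) := by
      intro p
      rw [Fin.prod_univ_succ]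
      simp [MeasurableEquiv.piFinSuccAbove]
    simp_rw [h1]
    have hm2 : Measurable fun x : Fin j → α => ∏ r : Fin j, f r.succ (x r) :=
      Finset.measurable_prod _ fun r _ => (hf r.succ).comp (measurable_pi_apply r)
    have hm3 : Measurable fun a : α × (Fin j → α) => f 0 a.1 * ∏ r : Fin j, f r.succ (a.2 r) :=
      ((hf 0).comp measurable_fst).mul (hm2.comp measurable_snd)
    rw [lintegral_prod _ hm3.aemeasurable]
    simp only
    simp_rw [lintegral_const_mul _ hm2]
    rw [lintegral_mul_const _ (hf 0)]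
    rw [ih (fun r => f r.succ) (fun r => hf r.succ), Fin.prod_univ_succ]

/-- The law of a block with exact labels under a signal law. -/
noncomputable def blockLaw (ρ : Measure (Vec d)) (j : ℕ) : Measure (Zsp d j) :=
  (ρ.prod (rowLaw d j)).map fun p => ((p.2, labels p.2 p.1) : Zsp d j)

theorem blockLaw_apply (ρ : Measure (Vec d)) [SFinite ρ] {j : ℕ} {A : Set (Zsp d j)}
    (hA : MeasurableSet A) : blockLaw ρ j A = ∫⁻ s, chan d j A s ∂ρ := by
  have : SFinite (rowLaw d j) := by unfold rowLaw; infer_instance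
  unfold blockLaw
  rw [Measure.map_apply measurable_labels_joint hA, Measure.prod_apply (measurable_labels_joint hA)]
  rfl

instance instProbBlockLaw (ρ : Measure (Vec d)) [IsProbabilityMeasure ρ] (j : ℕ) :
    IsProbabilityMeasure (blockLaw ρ j) := by
  unfold blockLaw
  exact Measure.isProbabilityMeasure_map measurable_labels_joint.aemeasurable

/-- The variance as a nonnegative real. -/
noncomputable def varOf (τ : ℝ) : NNReal := Real.toNNReal (τ ^ 2)

/-- Gaussian reference density on the labels. -/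
noncomputable def refDensity {j : ℕ} (z : Vec d) (τ : ℝ) (p : Zsp d j) : ℝ≥0∞ :=
  ∏ r, gaussianPDF ⟪p.1 r, z⟫ (varOf τ) (p.2 r)

theorem measurable_refDensity {j : ℕ} (z : Vec d) (τ : ℝ) : Measurable (refDensity (j := j) z τ) := by
  unfold refDensity
  refine Finset.measurable_prod _ fun r _ => ?_
  have h1 : Measurable fun p : Zsp d j => (⟪p.1 r, z⟫, varOf τ, p.2 r) := by
    refine Measurable.prodMk ?_ (measurable_const.prodMk ((measurable_pi_apply r).comp measurable_snd))
    have : Continuous fun p : Zsp d j => ⟪p.1 r, z⟫ := by fun_prop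
    exact this.measurable
  exact measurable_uncurry_gaussianPDF.comp h1

theorem lintegral_refDensity {j : ℕ} (z : Vec d) {τ : ℝ} (hτ : 0 < τ) :
    ∫⁻ p, refDensity (j := j) z τ p ∂zLaw d j = 1 := by
  have hv : varOf τ ≠ 0 := by
    unfold varOf
    simp only [ne_eq, Real.toNNReal_eq_zero, not_le]
    positivity
  have : SFinite (rowLaw d j) := by unfold rowLaw; infer_instance
  unfold zLaw
  rw [lintegral_prod _ (measurable_refDensity z τ).aemeasurable]
  have h1 : ∀ X : Rows d j, ∫⁻ y, refDensity z τ (X, y) = 1 := by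
    intro X
    unfold refDensity
    have := lintegral_pi_prod_fin (volume : Measure ℝ) j
      (fun r => gaussianPDF ⟪X r, z⟫ (varOf τ)) (fun r => measurable_gaussianPDF _ _)
    rw [volume_pi]
    simp only
    rw [this]
    simp [lintegral_gaussianPDF_eq_one _ hv]
  simp_rw [h1]
  simp

/-- The far set of blocks. -/
def farSet (j : ℕ) (z : Vec d) (τ : ℝ) : Set (Zsp d j) :=
  {p | 6 * (j:ℝ) * τ ^ 2 < ∑ r, (p.2 r - ⟪p.1 r, z⟫) ^ 2}

theorem measurableSet_farSet (j : ℕ) (z : Vec d) (τ : ℝ) : MeasurableSet (farSet j z τ) := by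
  unfold farSet
  apply measurableSet_lt measurable_const
  have : Continuous fun p : Zsp d j => ∑ r, (p.2 r - ⟪p.1 r, z⟫) ^ 2 := by fun_prop
  exact this.measurable

/-- Chernoff bound for the far set. -/
theorem chan_far_le {j : ℕ} {z s : Vec d} {τ : ℝ} (hτ : 0 < τ) (hs : s ∈ closedBall z τ) :
    chan d j (farSet j z τ) s ≤ ENNReal.ofReal (Real.exp (-(j:ℝ))) := by
  set v := s - z with hv
  have hvn : ‖v‖ ≤ τ := by
    rw [hv, ← dist_eq_norm]
    exact hs
  have hτ2 : 0 < 4 * τ ^ 2 := by positivity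
  -- the exponential function
  let E : Rows d j → ℝ≥0∞ := fun X =>
    ∏ r, ENNReal.ofReal (Real.exp (⟪X r, v⟫ ^ 2 / (4 * τ ^ 2)))
  have hEm : Measurable E := by
    refine Finset.measurable_prod _ fun r _ => ?_
    have : Continuous fun X : Rows d j => Real.exp (⟪X r, v⟫ ^ 2 / (4 * τ ^ 2)) := by fun_prop
    exact this.measurable.ennreal_ofReal
  have hE : ∀ X, E X = ENNReal.ofReal (Real.exp (∑ r, ⟪X r, v⟫ ^ 2 / (4 * τ ^ 2))) := by
    intro X
    simp only [E]
    rw [← ENNReal.ofReal_prod_of_nonneg (fun r _ => (Real.exp_pos _).le), Real.exp_sum]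
  have hint : ∫⁻ X, E X ∂rowLaw d j ≤ ENNReal.ofReal (√2) ^ j := by
    unfold rowLaw
    simp only [E]
    have h1 : Measurable fun x : Vec d => ENNReal.ofReal (Real.exp (⟪x, v⟫ ^ 2 / (4 * τ ^ 2))) := by
      have : Continuous fun x : Vec d => Real.exp (⟪x, v⟫ ^ 2 / (4 * τ ^ 2)) := by fun_prop
      exact this.measurable.ennreal_ofReal
    rw [lintegral_pi_prod_fin (stdGaussian (Vec d)) j
      (fun _ x => ENNReal.ofReal (Real.exp (⟪x, v⟫ ^ 2 / (4 * τ ^ 2)))) (fun _ => h1)]
    simp only [Finset.prod_const, Finset.card_univ, Fintype.card_fin]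
    gcongr
    exact lintegral_exp_inner_sq_le hτ hvn
  -- inclusion
  have hsub : {X : Rows d j | (X, labels X s) ∈ farSet j z τ}
      ⊆ {X | ENNReal.ofReal (Real.exp (3 / 2 * (j:ℝ))) ≤ E X} := by
    intro X hX
    simp only [Set.mem_ofPred_eq] at hX ⊢
    rw [hE]
    apply ENNReal.ofReal_le_ofReal
    apply Real.exp_le_exp.2
    have h1 : 6 * (j:ℝ) * τ ^ 2 < ∑ r, (labels X s r - ⟪X r, z⟫) ^ 2 := hX
    have h2 : ∀ r, labels X s r - ⟪X r, z⟫ = ⟪X r, v⟫ := by
      intro r
      simp only [labels, hv, inner_sub_right]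
    simp_rw [h2] at h1
    rw [← Finset.sum_div, le_div_iff₀ hτ2]
    nlinarith
  have hpos : ENNReal.ofReal (Real.exp (3 / 2 * (j:ℝ))) ≠ 0 := by
    simp [Real.exp_pos]
  have hM := mul_meas_ge_le_lintegral (μ := rowLaw d j) hEm (ENNReal.ofReal (Real.exp (3 / 2 * (j:ℝ))))
  have h3 : chan d j (farSet j z τ) s * ENNReal.ofReal (Real.exp (3 / 2 * (j:ℝ)))
      ≤ ENNReal.ofReal (√2) ^ j := by
    rw [mul_comm]
    calc _ ≤ ENNReal.ofReal (Real.exp (3 / 2 * (j:ℝ))) * rowLaw d j {X | ENNReal.ofReal (Real.exp (3 / 2 * (j:ℝ))) ≤ E X} := by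
          gcongr
          exact measure_mono hsub
      _ ≤ _ := hM
      _ ≤ _ := hint
  have h4 : ENNReal.ofReal (√2) ^ j ≤ ENNReal.ofReal (Real.exp (-(j:ℝ))) * ENNReal.ofReal (Real.exp (3 / 2 * (j:ℝ))) := by
    rw [← ENNReal.ofReal_pow (by positivity), ← ENNReal.ofReal_mul (Real.exp_pos _).le, ← Real.exp_add]
    apply ENNReal.ofReal_le_ofReal
    have h5 : √2 ≤ Real.exp (1 / 2) := by
      rw [Real.sqrt_le_left (by positivity)]
      have : Real.exp (1 / 2) ^ 2 = Real.exp 1 := by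
        rw [← Real.exp_nat_mul]
        norm_num
      rw [this]
      have := Real.add_one_le_exp (1:ℝ)
      linarith
    calc √2 ^ j ≤ Real.exp (1 / 2) ^ j := by gcongr
      _ = Real.exp (-(j:ℝ) + 3 / 2 * j) := by
        rw [← Real.exp_nat_mul]
        congr 1
        ring
  have h6 := h3.trans h4
  exact (ENNReal.mul_le_mul_iff_left hpos ENNReal.ofReal_ne_top).1 h6

/-- Lower bound of the reference density off the far set. -/
theorem refDensity_ge {j : ℕ} (z : Vec d) {τ : ℝ} (hτ : 0 < τ) {p : Zsp d j} (hp : p ∉ farSet j z τ) :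
    ENNReal.ofReal (((√(2 * Real.pi) * τ) ^ j)⁻¹ * Real.exp (-(3 * (j:ℝ)))) ≤ refDensity z τ p := by
  have h1 : ∀ r, gaussianPDF ⟪p.1 r, z⟫ (varOf τ) (p.2 r)
      = ENNReal.ofReal ((√(2 * Real.pi) * τ)⁻¹ * Real.exp (-(p.2 r - ⟪p.1 r, z⟫) ^ 2 / (2 * τ ^ 2))) := by
    intro r
    rw [gaussianPDF, gaussianPDFReal]
    congr 2
    · have hv : ((varOf τ : NNReal) : ℝ) = τ ^ 2 := by
        unfold varOf
        exact Real.coe_toNNReal _ (by positivity)
      rw [hv]
      congr 1
      rw [show 2 * Real.pi * τ ^ 2 = (√(2 * Real.pi) * τ) ^ 2 by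
        rw [mul_pow, Real.sq_sqrt (by positivity)]]
      exact Real.sqrt_sq (by positivity)
    · have hv : ((varOf τ : NNReal) : ℝ) = τ ^ 2 := by
        unfold varOf
        exact Real.coe_toNNReal _ (by positivity)
      rw [hv]
  unfold refDensity
  simp_rw [h1]
  rw [← ENNReal.ofReal_prod_of_nonneg (fun r _ => by positivity)]
  apply ENNReal.ofReal_le_ofReal
  rw [Finset.prod_mul_distrib, ← Real.exp_sum]
  simp only [Finset.prod_const, Finset.card_univ, Fintype.card_fin, inv_pow]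
  gcongr
  rw [← Finset.sum_div]
  have h2 : ∑ r, -(p.2 r - ⟪p.1 r, z⟫) ^ 2 = - ∑ r, (p.2 r - ⟪p.1 r, z⟫) ^ 2 := by
    rw [Finset.sum_neg_distrib]
  rw [h2, le_div_iff₀ (by positivity)]
  have h3 : ∑ r, (p.2 r - ⟪p.1 r, z⟫) ^ 2 ≤ 6 * (j:ℝ) * τ ^ 2 := not_lt.1 hp
  nlinarith

/-- The Hahn decomposition against a Gaussian reference on labels gives a set `G` of blocks of
almost full probability, where the reference measure is dominated by the law of blocks. -/
theorem exists_good_set (ρ : Measure (Vec d)) [IsProbabilityMeasure ρ] {j : ℕ} (hj : 1 ≤ j)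
    {z : Vec d} {τ : ℝ} (hτ : 0 < τ) (hsupp : ρ (closedBall z τ)ᶜ = 0) :
    ∃ G : Set (Zsp d j), MeasurableSet G ∧
      (∫⁻ s, chan d j Gᶜ s ∂ρ ≤ ENNReal.ofReal (2 * Real.exp (-(j:ℝ)))) ∧
      ∀ A, MeasurableSet A → A ⊆ G →
        zLaw d j A ≤ (∫⁻ s, chan d j A s ∂ρ)
          * ENNReal.ofReal ((√(2 * Real.pi) * τ) ^ j * Real.exp (4 * j)) := by
  have hsf : SFinite (rowLaw d j) := by unfold rowLaw; infer_instance
  set θ : ℝ≥0∞ := ENNReal.ofReal (Real.exp (-(j:ℝ))) with hθ
  have hθ0 : θ ≠ 0 := by simp [hθ, Real.exp_pos]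
  have hθt : θ ≠ ⊤ := ENNReal.ofReal_ne_top
  set Ref : Measure (Zsp d j) := (zLaw d j).withDensity (refDensity z τ) with hRef
  have hRefU : Ref Set.univ = 1 := by
    rw [hRef, withDensity_apply _ MeasurableSet.univ, Measure.restrict_univ]
    exact lintegral_refDensity z hτ
  have : IsProbabilityMeasure Ref := ⟨hRefU⟩
  have hfin : IsFiniteMeasure (θ • Ref) := by
    constructor
    simp only [Measure.smul_apply, smul_eq_mul, hRefU, mul_one]
    exact ENNReal.ofReal_lt_top
  obtain ⟨E, hEm, hE1, hE2⟩ := hahn_decomposition (blockLaw ρ j) (θ • Ref)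
  have hfar := measurableSet_farSet j z τ
  refine ⟨E ∩ (farSet j z τ)ᶜ, hEm.inter hfar.compl, ?_, ?_⟩
  · rw [← blockLaw_apply ρ (hEm.inter hfar.compl).compl]
    have hsub : (E ∩ (farSet j z τ)ᶜ)ᶜ ⊆ Eᶜ ∪ farSet j z τ := by
      intro x hx
      by_contra hc
      simp only [Set.mem_union, not_or, Set.mem_compl_iff, not_not] at hc
      exact hx ⟨hc.1, hc.2⟩
    refine (measure_mono hsub).trans ((measure_union_le _ _).trans ?_)
    have h1 : blockLaw ρ j Eᶜ ≤ θ := by
      refine (hE2 _ hEm.compl subset_rfl).trans ?_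
      simp only [Measure.smul_apply, smul_eq_mul]
      calc θ * Ref Eᶜ ≤ θ * 1 := by
            gcongr
            exact prob_le_one
        _ = θ := mul_one _
    have h2 : blockLaw ρ j (farSet j z τ) ≤ θ := by
      rw [blockLaw_apply ρ hfar]
      have hae : ∀ᵐ s ∂ρ, s ∈ closedBall z τ := by
        rw [ae_iff]
        exact hsupp
      calc ∫⁻ s, chan d j (farSet j z τ) s ∂ρ ≤ ∫⁻ _, θ ∂ρ :=
            lintegral_mono_ae (hae.mono fun s hs => chan_far_le hτ hs)
        _ = θ := by simp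
    calc _ ≤ θ + θ := add_le_add h1 h2
      _ = _ := by
        rw [hθ, ← ENNReal.ofReal_add (Real.exp_pos _).le (Real.exp_pos _).le]
        congr 1
        ring
  · intro A hA hAG
    have hAE : A ⊆ E := fun x hx => (hAG hx).1
    have hAF : ∀ p ∈ A, p ∉ farSet j z τ := fun p hp => (hAG hp).2
    rw [← blockLaw_apply ρ hA]
    have h1 : θ * Ref A ≤ blockLaw ρ j A := by
      have := hE1 A hA hAE
      simpa using this
    set β : ℝ := ((√(2 * Real.pi) * τ) ^ j)⁻¹ * Real.exp (-(3 * (j:ℝ))) with hβ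
    have hβ0 : 0 < β := by positivity
    have h2 : ENNReal.ofReal β * zLaw d j A ≤ Ref A := by
      rw [hRef, withDensity_apply _ hA]
      calc ENNReal.ofReal β * zLaw d j A = ∫⁻ _ in A, ENNReal.ofReal β ∂zLaw d j := by
            simp
        _ ≤ ∫⁻ p in A, refDensity z τ p ∂zLaw d j := by
            apply setLIntegral_mono (measurable_refDensity z τ)
            intro p hp
            exact refDensity_ge z hτ (hAF p hp)
    have h3 : ENNReal.ofReal ((√(2 * Real.pi) * τ) ^ j * Real.exp (4 * j)) * (θ * ENNReal.ofReal β) = 1 := by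
      rw [hθ, ← ENNReal.ofReal_mul (Real.exp_pos _).le, ← ENNReal.ofReal_mul (by positivity), hβ]
      have h4 : (√(2 * Real.pi) * τ) ^ j * Real.exp (4 * j) *
          (Real.exp (-(j:ℝ)) * (((√(2 * Real.pi) * τ) ^ j)⁻¹ * Real.exp (-(3 * (j:ℝ))))) = 1 := by
        have h5 : (√(2 * Real.pi) * τ) ^ j ≠ 0 := by positivity
        have h6 : Real.exp (4 * j) * Real.exp (-(j:ℝ)) * Real.exp (-(3 * (j:ℝ))) = 1 := by
          rw [← Real.exp_add, ← Real.exp_add]
          simp only [Real.exp_eq_one_iff]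
          ring
        calc _ = ((√(2 * Real.pi) * τ) ^ j * ((√(2 * Real.pi) * τ) ^ j)⁻¹)
              * (Real.exp (4 * j) * Real.exp (-(j:ℝ)) * Real.exp (-(3 * (j:ℝ)))) := by ring
          _ = 1 := by rw [mul_inv_cancel₀ h5, h6, one_mul]
      rw [h4]
      simp
    calc zLaw d j A = ENNReal.ofReal ((√(2 * Real.pi) * τ) ^ j * Real.exp (4 * j)) * (θ * ENNReal.ofReal β) * zLaw d j A := by
          rw [h3, one_mul]
      _ = ENNReal.ofReal ((√(2 * Real.pi) * τ) ^ j * Real.exp (4 * j)) * (θ * (ENNReal.ofReal β * zLaw d j A)) := by ring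
      _ ≤ ENNReal.ofReal ((√(2 * Real.pi) * τ) ^ j * Real.exp (4 * j)) * (θ * Ref A) := by gcongr
      _ ≤ ENNReal.ofReal ((√(2 * Real.pi) * τ) ^ j * Real.exp (4 * j)) * blockLaw ρ j A := by gcongr
      _ = _ := by ring

end Vale.Agent.Lib.P309
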