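import Vale.Agent.Lib.P309.Row
import Vale.Agent.Lib.P309.Chan

/-!
# The Hölder flatness bound
-/

open MeasureTheory ProbabilityTheory Metric Set
open scoped RealInnerProductSpace ENNReal

namespace Vale.Agent.Lib.P309

variable {d j : ℕ}

/-- The inverse of the box width `2 b`. -/
noncomputable def bI (b : ℝ) : ℝ≥0∞ := (ENNReal.ofReal (2 * b))⁻¹

/-- Blocks whose labels are within `b` of the exact labels of all points of `S`. -/
def boxZ (b : ℝ) (S : List (Vec d)) : Set (Zsp d j) :=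
  {z | ∀ s ∈ S, ∀ r, |z.2 r - ⟪z.1 r, s⟫| ≤ b}

/-- The normalized product of box kernels. -/
noncomputable def Gk (b : ℝ) (S : List (Vec d)) (z : Zsp d j) : ℝ≥0∞ :=
  bI b ^ (j * S.length) * Set.indicator (boxZ b S) (fun _ => (1 : ℝ≥0∞)) z

theorem continuous_residual (r : Fin j) :
    Continuous fun p : Vec d × Zsp d j => |p.2.2 r - ⟪p.2.1 r, p.1⟫| := by
  fun_prop

theorem measurableSet_boxOne_joint (b : ℝ) :
    MeasurableSet {p : Vec d × Zsp d j | ∀ r, |p.2.2 r - ⟪p.2.1 r, p.1⟫| ≤ b} := by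
  have : {p : Vec d × Zsp d j | ∀ r, |p.2.2 r - ⟪p.2.1 r, p.1⟫| ≤ b}
      = ⋂ r, {p | |p.2.2 r - ⟪p.2.1 r, p.1⟫| ≤ b} := by
    ext p; simp
  rw [this]
  exact MeasurableSet.iInter fun r =>
    measurableSet_le (continuous_residual r).measurable measurable_const

theorem measurableSet_boxZ (b : ℝ) (S : List (Vec d)) : MeasurableSet (boxZ (j := j) b S) := by
  induction S with
  | nil => simp [boxZ]
  | cons s S ih =>
    have h1 : boxZ (j := j) b (s :: S) = {z | ∀ r, |z.2 r - ⟪z.1 r, s⟫| ≤ b} ∩ boxZ b S := by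
      ext z; simp [boxZ]
    rw [h1]
    refine MeasurableSet.inter ?_ ih
    have := (measurableSet_boxOne_joint (d := d) (j := j) b)
    exact (measurable_prodMk_left (x := s)) this

theorem measurable_Gk (b : ℝ) (S : List (Vec d)) : Measurable (Gk (j := j) b S) := by
  unfold Gk
  exact (measurable_const.indicator (measurableSet_boxZ b S)).const_mul _

theorem measurable_Gk_one (b : ℝ) :
    Measurable fun p : Vec d × Zsp d j => Gk b [p.1] p.2 := by
  unfold Gk
  have : (fun p : Vec d × Zsp d j => bI b ^ (j * [p.1].length) *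
      Set.indicator (boxZ b [p.1]) (fun _ => (1 : ℝ≥0∞)) p.2)
      = fun p => bI b ^ (j * 1) * Set.indicator
        {p : Vec d × Zsp d j | ∀ r, |p.2.2 r - ⟪p.2.1 r, p.1⟫| ≤ b} (fun _ => (1 : ℝ≥0∞)) p := by
    ext p
    simp [Set.indicator, boxZ]
  rw [this]
  exact (measurable_const.indicator (measurableSet_boxOne_joint b)).const_mul _

theorem Gk_mul (b : ℝ) (s₀ s : Vec d) (S : List (Vec d)) (z : Zsp d j) :
    Gk b (s₀ :: S) z * Gk b [s] z = Gk b (s₀ :: s :: S) z := by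
  unfold Gk
  have h1 : Set.indicator (boxZ b (s₀ :: S)) (fun _ => (1 : ℝ≥0∞)) z
      * Set.indicator (boxZ b [s]) (fun _ => (1 : ℝ≥0∞)) z
      = Set.indicator (boxZ b (s₀ :: s :: S)) (fun _ => (1 : ℝ≥0∞)) z := by
    by_cases h : z ∈ boxZ b (s₀ :: s :: S)
    · have h2 : z ∈ boxZ b (s₀ :: S) := fun t ht => h t (by
        simp only [List.mem_cons] at ht ⊢
        tauto)
      have h3 : z ∈ boxZ b [s] := fun t ht => h t (by
        simp only [List.mem_cons, List.not_mem_nil, or_false] at ht ⊢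
        tauto)
      simp [h, h2, h3]
    · by_cases h2 : z ∈ boxZ b (s₀ :: S)
      · have h3 : z ∉ boxZ b [s] := by
          intro h3
          apply h
          intro t ht
          simp only [List.mem_cons] at ht
          rcases ht with rfl | rfl | ht
          · exact h2 _ (by simp)
          · exact h3 _ (by simp)
          · exact h2 _ (by simp [ht])
        simp [h, h3]
      · simp [h, h2]
  calc _ = (bI b ^ (j * (s₀ :: S).length) * bI b ^ (j * [s].length))
        * (Set.indicator (boxZ b (s₀ :: S)) (fun _ => (1 : ℝ≥0∞)) z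
          * Set.indicator (boxZ b [s]) (fun _ => (1 : ℝ≥0∞)) z) := by ring
    _ = _ := by
      rw [h1, ← pow_add]
      congr 2
      simp only [List.length_cons, List.length_nil]
      ring

/-- The reference measure of a box. -/
theorem zLaw_box_le {b : ℝ} (hb : 0 < b) (s₀ : Vec d) (S : List (Vec d)) :
    zLaw d j (boxZ b (s₀ :: S)) ≤ ENNReal.ofReal (2 * b) ^ j * gam d (boxC b s₀ S) ^ j := by
  unfold zLaw
  rw [Measure.prod_apply (measurableSet_boxZ b _)]
  have hC : MeasurableSet (Set.pi Set.univ fun _ : Fin j => boxC b s₀ S) :=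
    MeasurableSet.univ_pi fun _ => measurableSet_boxC b s₀ S
  have h1 : ∀ X : Rows d j, volume (Prod.mk X ⁻¹' boxZ b (s₀ :: S))
      ≤ Set.indicator (Set.pi Set.univ fun _ : Fin j => boxC b s₀ S)
          (fun _ => ENNReal.ofReal (2 * b) ^ j) X := by
    intro X
    by_cases hX : X ∈ Set.pi Set.univ fun _ : Fin j => boxC b s₀ S
    · rw [Set.indicator_of_mem hX]
      have hsub : Prod.mk X ⁻¹' boxZ b (s₀ :: S)
          ⊆ Set.Icc (fun r => ⟪X r, s₀⟫ - b) (fun r => ⟪X r, s₀⟫ + b) := by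
        intro y hy
        have := hy s₀ (by simp)
        constructor
        · intro r
          have h2 : |y r - ⟪X r, s₀⟫| ≤ b := this r
          have h3 := abs_le.1 h2
          show ⟪X r, s₀⟫ - b ≤ y r
          linarith [h3.1]
        · intro r
          have h2 : |y r - ⟪X r, s₀⟫| ≤ b := this r
          have h3 := abs_le.1 h2
          show y r ≤ ⟪X r, s₀⟫ + b
          linarith [h3.2]
      refine (measure_mono hsub).trans ?_
      rw [Real.volume_Icc_pi]
      have h5 : ∀ r ∈ (Finset.univ : Finset (Fin j)),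
          ENNReal.ofReal ((fun r => ⟪X r, s₀⟫ + b) r - (fun r => ⟪X r, s₀⟫ - b) r)
            = ENNReal.ofReal (2 * b) := by
        intro r _
        congr 1
        simp only
        ring
      rw [Finset.prod_congr rfl h5]
      simp
    · rw [Set.indicator_of_notMem hX]
      have hemp : Prod.mk X ⁻¹' boxZ b (s₀ :: S) = ∅ := by
        ext y
        simp only [Set.mem_preimage, Set.mem_empty_iff_false, iff_false]
        intro hy
        apply hX
        intro r _ t ht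
        have h2 : |y r - ⟪X r, s₀⟫| ≤ b := hy s₀ (by simp) r
        have h3 : |y r - ⟪X r, t⟫| ≤ b := hy t (by simp [ht]) r
        rw [inner_sub_right]
        have h4 := abs_le.1 h2
        have h5 := abs_le.1 h3
        rw [abs_le]
        constructor <;> linarith [h4.1, h4.2, h5.1, h5.2]
      rw [hemp]
      simp
  refine (lintegral_mono h1).trans ?_
  rw [lintegral_indicator hC, lintegral_const, Measure.restrict_apply MeasurableSet.univ,
    Set.univ_inter]
  apply le_of_eq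
  unfold rowLaw
  rw [Measure.pi_pi]
  simp

/-- `Kb` bounds the integral of the box kernels -/
noncomputable def Kb (b : ℝ) (s₀ : Vec d) (S : List (Vec d)) (j : ℕ) : ℝ≥0∞ :=
  bI b ^ (j * S.length) * gam d (boxC b s₀ S) ^ j

theorem bI_mul_self {b : ℝ} (hb : 0 < b) : bI b * ENNReal.ofReal (2 * b) = 1 := by
  unfold bI
  apply ENNReal.inv_mul_cancel _ ENNReal.ofReal_ne_top
  simp only [ne_eq, ENNReal.ofReal_eq_zero, not_le]
  linarith

theorem bI_mul_cGauss {b : ℝ} (hb : 0 < b) :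
    bI b * ENNReal.ofReal (4 * b / √(2 * Real.pi)) = cGauss := by
  have h : ENNReal.ofReal (4 * b / √(2 * Real.pi))
      = ENNReal.ofReal (2 * b) * cGauss := by
    unfold cGauss
    rw [← ENNReal.ofReal_mul (by positivity)]
    congr 1
    ring
  rw [h, ← mul_assoc, bI_mul_self hb, one_mul]

theorem integral_Gk_base {b : ℝ} (hb : 0 < b) (s₀ : Vec d) (S : List (Vec d)) :
    ∫⁻ z, Gk b (s₀ :: S) z ∂zLaw d j ≤ Kb b s₀ S j := by
  unfold Gk Kb
  rw [lintegral_const_mul _ (measurable_const.indicator (measurableSet_boxZ b _)),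
    lintegral_indicator (measurableSet_boxZ b _)]
  simp only [lintegral_const, one_mul, Measure.restrict_apply MeasurableSet.univ, Set.univ_inter]
  calc bI b ^ (j * (s₀ :: S).length) * zLaw d j (boxZ b (s₀ :: S))
      ≤ bI b ^ (j * (s₀ :: S).length) * (ENNReal.ofReal (2 * b) ^ j * gam d (boxC b s₀ S) ^ j) := by
        gcongr
        exact zLaw_box_le hb s₀ S
    _ = bI b ^ (j * S.length) * (bI b * ENNReal.ofReal (2 * b)) ^ j * gam d (boxC b s₀ S) ^ j := by
        simp only [List.length_cons, mul_add, mul_one, pow_add, mul_pow]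
        ring
    _ = _ := by
        rw [bI_mul_self hb, one_pow, mul_one]

theorem Kb_step {b : ℝ} (hb : 0 < b) (s₀ s : Vec d) (S : List (Vec d)) :
    Kb b s₀ (s :: S) j
      ≤ Kb b s₀ S j * (cGauss / ENNReal.ofReal (dperp (spanS s₀ S) s₀ s)) ^ j := by
  unfold Kb
  have h1 := row_step hb s₀ s S
  calc bI b ^ (j * (s :: S).length) * gam d (boxC b s₀ (s :: S)) ^ j
      ≤ bI b ^ (j * (s :: S).length) * (gam d (boxC b s₀ S) *
        (ENNReal.ofReal (4 * b / √(2 * Real.pi)) / ENNReal.ofReal (dperp (spanS s₀ S) s₀ s))) ^ j := by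
        gcongr
    _ = bI b ^ (j * S.length) * gam d (boxC b s₀ S) ^ j *
        (bI b * ENNReal.ofReal (4 * b / √(2 * Real.pi))
          / ENNReal.ofReal (dperp (spanS s₀ S) s₀ s)) ^ j := by
        simp only [List.length_cons, mul_add, mul_one, pow_add, mul_pow, div_eq_mul_inv]
        ring
    _ = _ := by rw [bI_mul_cGauss hb]

section

variable (ρ : Measure (Vec d)) (φ : Vec d → ℝ≥0∞)

/-- The mollified density. -/
noncomputable def Fk (b : ℝ) (z : Zsp d j) : ℝ≥0∞ := ∫⁻ s, φ s * Gk b [s] z ∂ρ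

variable [SFinite ρ]

theorem measurable_Fk (hφ : Measurable φ) (b : ℝ) : Measurable (Fk (j := j) ρ φ b) := by
  unfold Fk
  have h : Measurable fun p : Zsp d j × Vec d => φ p.2 * Gk b [p.2] p.1 :=
    (hφ.comp measurable_snd).mul ((measurable_Gk_one b).comp measurable_swap)
  exact h.lintegral_prod_right'

instance instSFiniteZLaw : SFinite (zLaw d j) := by
  unfold zLaw rowLaw
  infer_instance

instance instOuterRegularZLaw : (zLaw d j).OuterRegular := by
  unfold zLaw rowLaw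
  infer_instance

theorem measurable_Gk_in_s (hφ : Measurable φ) (b : ℝ) (z : Zsp d j) :
    Measurable fun s => φ s * Gk b [s] z :=
  hφ.mul ((measurable_Gk_one b).comp (measurable_id.prodMk measurable_const))

theorem measurable_Gk_cons_joint (b : ℝ) (s₀ : Vec d) (S : List (Vec d)) :
    Measurable fun p : Vec d × Zsp d j => Gk b (s₀ :: p.1 :: S) p.2 := by
  have : (fun p : Vec d × Zsp d j => Gk b (s₀ :: p.1 :: S) p.2)
      = fun p => Gk b (s₀ :: S) p.2 * Gk b [p.1] p.2 := by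
    ext p
    rw [Gk_mul]
  rw [this]
  exact ((measurable_Gk b _).comp measurable_snd).mul (measurable_Gk_one b)

/-- One step of the recursion by Tonelli. -/
theorem J_succ (hφ : Measurable φ) (b : ℝ) (s₀ : Vec d) (S : List (Vec d)) (m : ℕ) :
    ∫⁻ z, Gk b (s₀ :: S) z * Fk ρ φ b z ^ (m + 1) ∂zLaw d j
      = ∫⁻ s, φ s * ∫⁻ z, Gk b (s₀ :: s :: S) z * Fk ρ φ b z ^ m ∂zLaw d j ∂ρ := by
  have hF := measurable_Fk (j := j) ρ φ hφ b
  have h1 : ∀ z : Zsp d j, Gk b (s₀ :: S) z * Fk ρ φ b z ^ (m + 1)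
      = ∫⁻ s, φ s * (Gk b (s₀ :: s :: S) z * Fk ρ φ b z ^ m) ∂ρ := by
    intro z
    rw [pow_succ]
    have h2 : ∀ s, φ s * (Gk b (s₀ :: s :: S) z * Fk ρ φ b z ^ m)
        = (Gk b (s₀ :: S) z * Fk ρ φ b z ^ m) * (φ s * Gk b [s] z) := by
      intro s
      rw [← Gk_mul]
      ring
    simp_rw [h2]
    rw [lintegral_const_mul _ (measurable_Gk_in_s φ hφ b z)]
    simp only [Fk]
    ring
  simp_rw [h1]
  rw [lintegral_lintegral_swap]
  · congr 1
    ext s
    rw [lintegral_const_mul]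
    exact ((measurable_Gk_cons_joint b s₀ S).comp (measurable_const.prodMk measurable_id)).mul
      (hF.pow_const m)
  · refine Measurable.aemeasurable ?_
    exact (hφ.comp measurable_snd).mul
      (((measurable_Gk_cons_joint b s₀ S).comp measurable_swap).mul
        ((hF.comp measurable_fst).pow_const m))

/-- Top of the recursion, without base point. -/
theorem top_succ (hφ : Measurable φ) (b : ℝ) (m : ℕ) :
    ∫⁻ z, Fk ρ φ b z ^ (m + 1) ∂zLaw d j
      = ∫⁻ s, φ s * ∫⁻ z, Gk b [s] z * Fk ρ φ b z ^ m ∂zLaw d j ∂ρ := by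
  have hF := measurable_Fk (j := j) ρ φ hφ b
  have h1 : ∀ z : Zsp d j, Fk ρ φ b z ^ (m + 1)
      = ∫⁻ s, φ s * (Gk b [s] z * Fk ρ φ b z ^ m) ∂ρ := by
    intro z
    rw [pow_succ']
    have h2 : ∀ s, φ s * (Gk b [s] z * Fk ρ φ b z ^ m)
        = (φ s * Gk b [s] z) * Fk ρ φ b z ^ m := by
      intro s
      ring
    simp_rw [h2]
    rw [lintegral_mul_const _ (measurable_Gk_in_s φ hφ b z)]
    simp only [Fk]
  simp_rw [h1]
  rw [lintegral_lintegral_swap]
  · congr 1
    ext s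
    rw [lintegral_const_mul]
    exact ((measurable_Gk_one b).comp (measurable_const.prodMk measurable_id)).mul
      (hF.pow_const m)
  · refine Measurable.aemeasurable ?_
    exact (hφ.comp measurable_snd).mul
      (((measurable_Gk_one b).comp measurable_swap).mul
        ((hF.comp measurable_fst).pow_const m))

end

/-- Cauchy-Schwarz for the moment -/
theorem cs_moment (ρ : Measure (Vec d)) {φ g : Vec d → ℝ≥0∞} (hφ : Measurable φ) (hg : Measurable g)
    {Q : ℝ≥0∞} (hQ : ∫⁻ s, g s ^ 2 ∂ρ ≤ Q ^ 2) :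
    ∫⁻ s, φ s * g s ∂ρ ≤ (∫⁻ s, φ s ^ 2 ∂ρ) ^ (1 / 2 : ℝ) * Q := by
  have h := ENNReal.lintegral_mul_le_Lp_mul_Lq ρ (Real.HolderConjugate.two_two)
    hφ.aemeasurable hg.aemeasurable
  simp only [ENNReal.rpow_two, Pi.mul_apply] at h
  refine h.trans ?_
  gcongr
  have h2 : (∫⁻ s, g s ^ 2 ∂ρ) ^ (1 / 2 : ℝ) ≤ (Q ^ 2) ^ (1 / 2 : ℝ) := by gcongr
  refine h2.trans (le_of_eq ?_)
  rw [← ENNReal.rpow_natCast, ← ENNReal.rpow_mul]
  norm_num

section

variable (ρ : Measure (Vec d)) (φ : Vec d → ℝ≥0∞) [SFinite ρ]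

/-- The main recursive bound. -/
theorem J_bound {n : ℕ} (Q : ℝ≥0∞)
    (hQ : ∀ (s₀ : Vec d) (S : List (Vec d)), S.length + 1 < n →
      ∫⁻ s, (cGauss / ENNReal.ofReal (dperp (spanS s₀ S) s₀ s)) ^ (2 * j) ∂ρ ≤ Q ^ 2)
    (hφ : Measurable φ) {b : ℝ} (hb : 0 < b) (s₀ : Vec d) (m : ℕ) (S : List (Vec d))
    (hlen : S.length + m + 1 ≤ n) :
    ∫⁻ z, Gk b (s₀ :: S) z * Fk ρ φ b z ^ m ∂zLaw d j
      ≤ Kb b s₀ S j * ((∫⁻ s, φ s ^ 2 ∂ρ) ^ (1 / 2 : ℝ) * Q) ^ m := by
  induction m generalizing S with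
  | zero =>
    simp only [pow_zero, mul_one]
    exact integral_Gk_base hb s₀ S
  | succ m ih =>
    rw [J_succ ρ φ hφ b s₀ S m]
    set C := (∫⁻ s, φ s ^ 2 ∂ρ) ^ (1 / 2 : ℝ) * Q with hC
    have h1 : ∀ s, φ s * ∫⁻ z, Gk b (s₀ :: s :: S) z * Fk ρ φ b z ^ m ∂zLaw d j
        ≤ (Kb b s₀ S j * C ^ m) *
          (φ s * (cGauss / ENNReal.ofReal (dperp (spanS s₀ S) s₀ s)) ^ j) := by
      intro s
      have h2 := ih (s :: S) (by simp only [List.length_cons]; omega)
      have h3 := Kb_step (j := j) hb s₀ s S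
      calc φ s * ∫⁻ z, Gk b (s₀ :: s :: S) z * Fk ρ φ b z ^ m ∂zLaw d j
          ≤ φ s * (Kb b s₀ (s :: S) j * C ^ m) := by gcongr
        _ ≤ φ s * ((Kb b s₀ S j * (cGauss / ENNReal.ofReal (dperp (spanS s₀ S) s₀ s)) ^ j) * C ^ m) := by
            gcongr
        _ = _ := by ring
    refine (lintegral_mono h1).trans ?_
    have hg : Measurable fun s => (cGauss / ENNReal.ofReal (dperp (spanS s₀ S) s₀ s)) ^ j := by
      have : Measurable fun s => dperp (spanS s₀ S) s₀ s := (continuous_dperp _ _).measurable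
      exact (measurable_const.div (ENNReal.measurable_ofReal.comp this)).pow_const j
    have hm : Measurable fun s => φ s * (cGauss / ENNReal.ofReal (dperp (spanS s₀ S) s₀ s)) ^ j :=
      hφ.mul hg
    rw [lintegral_const_mul _ hm]
    have h4 := cs_moment ρ hφ hg (Q := Q) (by
      have := hQ s₀ S (by omega)
      simp_rw [← pow_mul]
      rw [mul_comm j 2]
      exact this)
    calc Kb b s₀ S j * C ^ m * ∫⁻ s, φ s * (cGauss / ENNReal.ofReal (dperp (spanS s₀ S) s₀ s)) ^ j ∂ρ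
        ≤ Kb b s₀ S j * C ^ m * C := by gcongr
      _ = _ := by rw [pow_succ]; ring

/-- The `n`-th moment of the mollified density. -/
theorem Fk_moment [IsProbabilityMeasure ρ] {n : ℕ} (hn : 1 ≤ n) (Q : ℝ≥0∞)
    (hQ : ∀ (s₀ : Vec d) (S : List (Vec d)), S.length + 1 < n →
      ∫⁻ s, (cGauss / ENNReal.ofReal (dperp (spanS s₀ S) s₀ s)) ^ (2 * j) ∂ρ ≤ Q ^ 2)
    (hφ : Measurable φ) {b : ℝ} (hb : 0 < b) :
    ∫⁻ z, Fk ρ φ b z ^ n ∂zLaw d j
      ≤ (∫⁻ s, φ s ^ 2 ∂ρ) ^ (1 / 2 : ℝ) * ((∫⁻ s, φ s ^ 2 ∂ρ) ^ (1 / 2 : ℝ) * Q) ^ (n - 1) := by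
  obtain ⟨m, rfl⟩ : ∃ m, n = m + 1 := ⟨n - 1, by omega⟩
  rw [top_succ ρ φ hφ b m]
  set C := (∫⁻ s, φ s ^ 2 ∂ρ) ^ (1 / 2 : ℝ) * Q with hC
  have h1 : ∀ s, φ s * ∫⁻ z, Gk b [s] z * Fk ρ φ b z ^ m ∂zLaw d j ≤ C ^ m * φ s := by
    intro s
    have h2 := J_bound ρ φ Q hQ hφ hb s m [] (by simp)
    have h3 : Kb b s ([] : List (Vec d)) j = 1 := by
      unfold Kb
      have : boxC b s ([] : List (Vec d)) = Set.univ := by
        ext x; simp [boxC]
      rw [this]
      simp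
    rw [h3, one_mul] at h2
    calc _ ≤ φ s * C ^ m := by gcongr
      _ = _ := by ring
  refine (lintegral_mono h1).trans ?_
  rw [lintegral_const_mul _ hφ]
  simp only [Nat.add_sub_cancel]
  rw [mul_comm]
  gcongr
  have h4 := cs_moment ρ hφ (measurable_const (a := (1:ℝ≥0∞))) (Q := 1) (by simp)
  simpa using h4

/-- Tonelli for the mollified density restricted to a set. -/
theorem Fk_indicator (hφ : Measurable φ) (b : ℝ) {U : Set (Zsp d j)} (hU : MeasurableSet U) :
    ∫⁻ z, Fk ρ φ b z * Set.indicator U (fun _ => (1:ℝ≥0∞)) z ∂zLaw d j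
      = ∫⁻ s, φ s * ∫⁻ z, Set.indicator U (fun _ => (1:ℝ≥0∞)) z * Gk b [s] z ∂zLaw d j ∂ρ := by
  have hI : Measurable (Set.indicator U (fun _ => (1:ℝ≥0∞))) := measurable_const.indicator hU
  have h1 : ∀ z : Zsp d j, Fk ρ φ b z * Set.indicator U (fun _ => (1:ℝ≥0∞)) z
      = ∫⁻ s, φ s * (Set.indicator U (fun _ => (1:ℝ≥0∞)) z * Gk b [s] z) ∂ρ := by
    intro z
    have h2 : ∀ s, φ s * (Set.indicator U (fun _ => (1:ℝ≥0∞)) z * Gk b [s] z)
        = (φ s * Gk b [s] z) * Set.indicator U (fun _ => (1:ℝ≥0∞)) z := by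
      intro s
      ring
    simp_rw [h2]
    rw [lintegral_mul_const _ (measurable_Gk_in_s φ hφ b z)]
    simp only [Fk]
  simp_rw [h1]
  rw [lintegral_lintegral_swap]
  · congr 1
    ext s
    rw [lintegral_const_mul]
    exact hI.mul ((measurable_Gk_one b).comp (measurable_const.prodMk measurable_id))
  · refine Measurable.aemeasurable ?_
    exact (hφ.comp measurable_snd).mul
      ((hI.comp measurable_fst).mul ((measurable_Gk_one b).comp measurable_swap))

/-- Hölder's inequality for the mollified density. -/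
theorem Fk_holder [IsProbabilityMeasure ρ] {n : ℕ} (hn : 2 ≤ n) (Q : ℝ≥0∞)
    (hQ : ∀ (s₀ : Vec d) (S : List (Vec d)), S.length + 1 < n →
      ∫⁻ s, (cGauss / ENNReal.ofReal (dperp (spanS s₀ S) s₀ s)) ^ (2 * j) ∂ρ ≤ Q ^ 2)
    (hφ : Measurable φ) {b : ℝ} (hb : 0 < b) {U : Set (Zsp d j)} (hU : MeasurableSet U) :
    ∫⁻ z, Fk ρ φ b z * Set.indicator U (fun _ => (1:ℝ≥0∞)) z ∂zLaw d j
      ≤ (∫⁻ s, φ s ^ 2 ∂ρ) ^ (1 / 2 : ℝ) * (Q * zLaw d j U) ^ (((n:ℝ) - 1) / n) := by
  have hn' : (2:ℝ) ≤ n := by exact_mod_cast hn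
  have hn0 : (0:ℝ) < n := by linarith
  have hn1 : (0:ℝ) < (n:ℝ) - 1 := by linarith
  have hconj : (n:ℝ).HolderConjugate ((n:ℝ) / ((n:ℝ) - 1)) := by
    refine (Real.holderConjugate_iff).2 ⟨by linarith, ?_⟩
    field_simp
    ring
  have hI : Measurable (Set.indicator U (fun _ => (1:ℝ≥0∞))) := measurable_const.indicator hU
  have h := ENNReal.lintegral_mul_le_Lp_mul_Lq (zLaw d j) hconj
    (measurable_Fk (j := j) ρ φ hφ b).aemeasurable hI.aemeasurable
  simp only [Pi.mul_apply] at h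
  refine h.trans ?_
  have hq : 0 < (n:ℝ) / ((n:ℝ) - 1) := by positivity
  have h1 : ∫⁻ z, Set.indicator U (fun _ => (1:ℝ≥0∞)) z ^ ((n:ℝ) / ((n:ℝ) - 1)) ∂zLaw d j
      = zLaw d j U := by
    have : ∀ z, Set.indicator U (fun _ => (1:ℝ≥0∞)) z ^ ((n:ℝ) / ((n:ℝ) - 1))
        = Set.indicator U (fun _ => (1:ℝ≥0∞)) z := by
      intro z
      by_cases hz : z ∈ U
      · simp [hz]
      · simp [hz, hq]
    simp_rw [this]
    rw [lintegral_indicator hU]
    simp
  rw [h1]
  set A := (∫⁻ s, φ s ^ 2 ∂ρ) ^ (1 / 2 : ℝ) with hA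
  have h2 : ∫⁻ z, Fk ρ φ b z ^ (n:ℝ) ∂zLaw d j ≤ A * (A * Q) ^ (n - 1) := by
    simp_rw [ENNReal.rpow_natCast]
    exact Fk_moment ρ φ (by omega) Q hQ hφ hb
  have h3 : (∫⁻ z, Fk ρ φ b z ^ (n:ℝ) ∂zLaw d j) ^ (1 / (n:ℝ))
      ≤ A * Q ^ (((n:ℝ) - 1) / n) := by
    refine (ENNReal.rpow_le_rpow h2 (by positivity)).trans (le_of_eq ?_)
    have h4 : A * (A * Q) ^ (n - 1) = A ^ n * Q ^ (n - 1) := by
      obtain ⟨m, rfl⟩ : ∃ m, n = m + 1 := ⟨n - 1, by omega⟩
      simp only [Nat.add_sub_cancel, mul_pow, pow_succ]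
      ring
    rw [h4, ENNReal.mul_rpow_of_nonneg _ _ (by positivity)]
    congr 1
    · rw [← ENNReal.rpow_natCast, ← ENNReal.rpow_mul]
      have : (n:ℝ) * (1 / n) = 1 := by field_simp
      rw [this, ENNReal.rpow_one]
    · rw [← ENNReal.rpow_natCast, ← ENNReal.rpow_mul]
      congr 1
      rw [Nat.cast_sub (by omega)]
      simp only [Nat.cast_one]
      ring
  have h5 : 1 / ((n:ℝ) / ((n:ℝ) - 1)) = ((n:ℝ) - 1) / n := by
    field_simp
  rw [h5]
  calc _ ≤ A * Q ^ (((n:ℝ) - 1) / n) * zLaw d j U ^ (((n:ℝ) - 1) / n) := by gcongr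
    _ = _ := by
      rw [mul_assoc, ENNReal.mul_rpow_of_nonneg _ _ (by positivity)]

/-- The sections of `Gk` have integral one when they are inside `U`. -/
theorem lintegral_section_eq_one {b : ℝ} (hb : 0 < b) {U : Set (Zsp d j)} (s : Vec d) (X : Rows d j)
    (hU : ∀ y : Fin j → ℝ, (∀ r, |y r - ⟪X r, s⟫| ≤ b) → (X, y) ∈ U) :
    ∫⁻ y, Set.indicator U (fun _ => (1:ℝ≥0∞)) (X, y) * Gk b [s] (X, y) = 1 := by
  have h1 : ∀ y : Fin j → ℝ, Set.indicator U (fun _ => (1:ℝ≥0∞)) (X, y) * Gk b [s] (X, y)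
      = bI b ^ (j * 1) * Set.indicator (Set.Icc (fun r => ⟪X r, s⟫ - b) (fun r => ⟪X r, s⟫ + b))
          (fun _ => (1:ℝ≥0∞)) y := by
    intro y
    have hiff : (X, y) ∈ boxZ (j := j) b [s] ↔ y ∈ Set.Icc (fun r => ⟪X r, s⟫ - b) (fun r => ⟪X r, s⟫ + b) := by
      simp only [boxZ, Set.mem_setOf_eq, List.mem_singleton, forall_eq, Set.mem_Icc, Pi.le_def, abs_le]
      constructor
      · intro h
        exact ⟨fun r => by linarith [(h r).1], fun r => by linarith [(h r).2]⟩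
      · intro h r
        exact ⟨by linarith [h.1 r], by linarith [h.2 r]⟩
    unfold Gk
    by_cases hy : y ∈ Set.Icc (fun r => ⟪X r, s⟫ - b) (fun r => ⟪X r, s⟫ + b)
    · have h2 : (X, y) ∈ U := hU y (by
        intro r
        rw [abs_le]
        exact ⟨by linarith [hy.1 r], by linarith [hy.2 r]⟩)
      simp [h2, hy, hiff.2 hy]
    · have h2 : (X, y) ∉ boxZ (j := j) b [s] := fun h => hy (hiff.1 h)
      simp [h2, hy]
  simp_rw [h1]
  rw [lintegral_const_mul _ (measurable_const.indicator measurableSet_Icc),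
    lintegral_indicator measurableSet_Icc]
  simp only [lintegral_const, one_mul, Measure.restrict_apply MeasurableSet.univ, Set.univ_inter]
  rw [Real.volume_Icc_pi]
  have h5 : ∀ r ∈ (Finset.univ : Finset (Fin j)),
      ENNReal.ofReal ((fun r => ⟪X r, s⟫ + b) r - (fun r => ⟪X r, s⟫ - b) r)
        = ENNReal.ofReal (2 * b) := by
    intro r _
    congr 1
    simp only
    ring
  rw [Finset.prod_congr rfl h5]
  simp only [Finset.prod_const, Finset.card_univ, Fintype.card_fin, mul_one]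
  rw [← mul_pow, bI_mul_self hb, one_pow]

/-- The flatness bound on open sets. -/
theorem holder_open [IsProbabilityMeasure ρ] {n : ℕ} (hn : 2 ≤ n) (Q : ℝ≥0∞)
    (hQ : ∀ (s₀ : Vec d) (S : List (Vec d)), S.length + 1 < n →
      ∫⁻ s, (cGauss / ENNReal.ofReal (dperp (spanS s₀ S) s₀ s)) ^ (2 * j) ∂ρ ≤ Q ^ 2)
    (hφ : Measurable φ) {U : Set (Zsp d j)} (hU : IsOpen U) :
    ∫⁻ s, φ s * chan d j U s ∂ρ
      ≤ (∫⁻ s, φ s ^ 2 ∂ρ) ^ (1 / 2 : ℝ) * (Q * zLaw d j U) ^ (((n:ℝ) - 1) / n) := by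
  have hUm : MeasurableSet U := hU.measurableSet
  have hI : Measurable (Set.indicator U (fun _ => (1:ℝ≥0∞))) := measurable_const.indicator hUm
  let bb : ℕ → ℝ := fun m => 1 / ((m:ℝ) + 1)
  have hbb : ∀ m, 0 < bb m := fun m => by positivity
  let P := ρ.prod (rowLaw d j)
  let g : ℕ → Vec d × Rows d j → ℝ≥0∞ := fun m p =>
    φ p.1 * ∫⁻ y, Set.indicator U (fun _ => (1:ℝ≥0∞)) (p.2, y) * Gk (bb m) [p.1] (p.2, y)
  have hgm : ∀ m, Measurable (g m) := by
    intro m
    refine (hφ.comp measurable_fst).mul ?_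
    have h1 : Measurable fun q : (Vec d × Rows d j) × (Fin j → ℝ) =>
        Set.indicator U (fun _ => (1:ℝ≥0∞)) (q.1.2, q.2) * Gk (bb m) [q.1.1] (q.1.2, q.2) := by
      refine (hI.comp ((measurable_snd.comp measurable_fst).prodMk measurable_snd)).mul ?_
      exact (measurable_Gk_one (bb m)).comp ((measurable_fst.comp measurable_fst).prodMk
        ((measurable_snd.comp measurable_fst).prodMk measurable_snd))
    exact h1.lintegral_prod_right'
  have hlhs : ∫⁻ s, φ s * chan d j U s ∂ρ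
      = ∫⁻ p, φ p.1 * Set.indicator ({p : Vec d × Rows d j | (p.2, labels p.2 p.1) ∈ U})
          (fun _ => (1:ℝ≥0∞)) p ∂P := by
    have hmeas : MeasurableSet {p : Vec d × Rows d j | (p.2, labels p.2 p.1) ∈ U} :=
      measurable_labels_joint hUm
    have hmeas2 : Measurable fun p : Vec d × Rows d j => φ p.1 * Set.indicator
        ({p : Vec d × Rows d j | (p.2, labels p.2 p.1) ∈ U}) (fun _ => (1:ℝ≥0∞)) p :=
      (hφ.comp measurable_fst).mul (measurable_const.indicator hmeas)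
    rw [show P = ρ.prod (rowLaw d j) from rfl, lintegral_prod _ hmeas2.aemeasurable]
    congr 1
    ext s
    symm
    show ∫⁻ X, φ s * Set.indicator {p : Vec d × Rows d j | (p.2, labels p.2 p.1) ∈ U}
      (fun _ => (1:ℝ≥0∞)) (s, X) ∂rowLaw d j = φ s * chan d j U s
    rw [lintegral_const_mul]
    · congr 1
      have hsec : MeasurableSet {X : Rows d j | (X, labels X s) ∈ U} :=
        (measurable_prodMk_left (x := s)) hmeas
      have : ∀ X : Rows d j, Set.indicator {p : Vec d × Rows d j | (p.2, labels p.2 p.1) ∈ U}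
          (fun _ => (1:ℝ≥0∞)) (s, X)
          = Set.indicator {X : Rows d j | (X, labels X s) ∈ U} (fun _ => (1:ℝ≥0∞)) X := by
        intro X
        simp only [Set.indicator, Set.mem_ofPred_eq]
      simp_rw [this]
      rw [lintegral_indicator hsec]
      simp [chan]
    · exact (measurable_const.indicator hmeas).comp (measurable_const.prodMk measurable_id)
  have hptw : ∀ p : Vec d × Rows d j,
      φ p.1 * Set.indicator ({p : Vec d × Rows d j | (p.2, labels p.2 p.1) ∈ U}) (fun _ => (1:ℝ≥0∞)) p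
        ≤ Filter.liminf (fun m => g m p) Filter.atTop := by
    intro p
    by_cases hp : (p.2, labels p.2 p.1) ∈ U
    · obtain ⟨δ, hδ, hball⟩ := Metric.isOpen_iff.1 hU _ hp
      have hev : ∀ᶠ m : ℕ in Filter.atTop, bb m < δ := by
        have h1 : Filter.Tendsto bb Filter.atTop (nhds 0) := tendsto_one_div_add_atTop_nhds_zero_nat
        exact h1.eventually (gt_mem_nhds hδ)
      apply Filter.le_liminf_of_le
      · isBoundedDefault
      filter_upwards [hev] with m hm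
      have h1 : ∫⁻ y, Set.indicator U (fun _ => (1:ℝ≥0∞)) (p.2, y) * Gk (bb m) [p.1] (p.2, y) = 1 := by
        apply lintegral_section_eq_one (hbb m)
        intro y hy
        apply hball
        rw [Metric.mem_ball, Prod.dist_eq]
        simp only [dist_self]
        rw [max_eq_right dist_nonneg]
        refine lt_of_le_of_lt ?_ hm
        rw [dist_pi_le_iff (hbb m).le]
        intro r
        rw [Real.dist_eq]
        exact hy r
      simp only [g, h1, mul_one]
      have h3 : Set.indicator ({p : Vec d × Rows d j | (p.2, labels p.2 p.1) ∈ U}) (fun _ => (1:ℝ≥0∞)) p ≤ 1 := by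
        simp only [Set.indicator]
        split_ifs <;> simp
      calc _ ≤ φ p.1 * 1 := by gcongr
        _ = φ p.1 := mul_one _
    · have : Set.indicator ({p : Vec d × Rows d j | (p.2, labels p.2 p.1) ∈ U}) (fun _ => (1:ℝ≥0∞)) p = 0 :=
        Set.indicator_of_notMem (show p ∉ {p : Vec d × Rows d j | (p.2, labels p.2 p.1) ∈ U} from hp) _
      rw [this, mul_zero]
      exact zero_le
  have hbound : ∀ m, ∫⁻ p, g m p ∂P
      ≤ (∫⁻ s, φ s ^ 2 ∂ρ) ^ (1 / 2 : ℝ) * (Q * zLaw d j U) ^ (((n:ℝ) - 1) / n) := by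
    intro m
    have h2 := Fk_holder ρ φ hn Q hQ hφ (hbb m) hUm
    rw [Fk_indicator ρ φ hφ (bb m) hUm] at h2
    refine le_trans (le_of_eq ?_) h2
    rw [show P = ρ.prod (rowLaw d j) from rfl, lintegral_prod _ (hgm m).aemeasurable]
    congr 1
    ext s
    simp only [g]
    rw [lintegral_const_mul]
    · congr 1
      unfold zLaw
      rw [lintegral_prod]
      exact (hI.mul (measurable_Gk_one (bb m) |>.comp
        (measurable_const.prodMk measurable_id))).aemeasurable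
    · have h1 : Measurable fun q : Rows d j × (Fin j → ℝ) =>
          Set.indicator U (fun _ => (1:ℝ≥0∞)) (q.1, q.2) * Gk (bb m) [s] (q.1, q.2) :=
        hI.mul (measurable_Gk_one (bb m) |>.comp (measurable_const.prodMk measurable_id))
      exact h1.lintegral_prod_right'
  rw [hlhs]
  calc _ ≤ ∫⁻ p, Filter.liminf (fun m => g m p) Filter.atTop ∂P := lintegral_mono hptw
    _ ≤ Filter.liminf (fun m => ∫⁻ p, g m p ∂P) Filter.atTop := lintegral_liminf_le hgm
    _ ≤ _ := by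
      refine Filter.liminf_le_of_le ?_ ?_
      · isBoundedDefault
      · intro b hb
        obtain ⟨m, hm⟩ := hb.exists
        exact hm.trans (hbound m)

/-- The flatness bound on measurable sets, for `φ` with finite second moment. -/
theorem holder_flat [IsProbabilityMeasure ρ] {n : ℕ} (hn : 2 ≤ n) (Q : ℝ≥0∞) (hQfin : Q ≠ ⊤)
    (hQ : ∀ (s₀ : Vec d) (S : List (Vec d)), S.length + 1 < n →
      ∫⁻ s, (cGauss / ENNReal.ofReal (dperp (spanS s₀ S) s₀ s)) ^ (2 * j) ∂ρ ≤ Q ^ 2)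
    (hφ : Measurable φ) (hφ2 : ∫⁻ s, φ s ^ 2 ∂ρ ≠ ⊤) {A : Set (Zsp d j)} (hA : MeasurableSet A) :
    ∫⁻ s, φ s * chan d j A s ∂ρ
      ≤ (∫⁻ s, φ s ^ 2 ∂ρ) ^ (1 / 2 : ℝ) * (Q * zLaw d j A) ^ (((n:ℝ) - 1) / n) := by
  have hn' : (2:ℝ) ≤ n := by exact_mod_cast hn
  have he : 0 ≤ ((n:ℝ) - 1) / n := by
    apply div_nonneg <;> linarith
  set X := (∫⁻ s, φ s ^ 2 ∂ρ) ^ (1 / 2 : ℝ) with hX
  have hXfin : X ≠ ⊤ := ENNReal.rpow_ne_top_of_nonneg (by norm_num) hφ2
  let f : ℝ≥0∞ → ℝ≥0∞ := fun t => X * (Q * t) ^ (((n:ℝ) - 1) / n)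
  have hfc : Continuous f :=
    (ENNReal.continuous_const_mul hXfin).comp
      ((ENNReal.continuous_rpow_const).comp (ENNReal.continuous_const_mul hQfin))
  have hopen : ∀ U, A ⊆ U → IsOpen U → ∫⁻ s, φ s * chan d j A s ∂ρ ≤ f (zLaw d j U) := by
    intro U hAU hU
    refine le_trans ?_ (holder_open ρ φ hn Q hQ hφ hU)
    gcongr
    exact chan_mono hAU _
  by_cases htop : zLaw d j A = ⊤
  · have h1 := hopen Set.univ (Set.subset_univ _) isOpen_univ
    have h2 : zLaw d j Set.univ = ⊤ := top_le_iff.1 (htop ▸ measure_mono (Set.subset_univ _))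
    rw [h2] at h1
    rw [htop]
    exact h1
  · have h1 : ∀ r, zLaw d j A < r → ∫⁻ s, φ s * chan d j A s ∂ρ ≤ f r := by
      intro r hr
      obtain ⟨U, hAU, hU, hUr⟩ := Set.exists_isOpen_lt_of_lt A r hr
      refine (hopen U hAU hU).trans ?_
      simp only [f]
      gcongr
    have h2 : Filter.Tendsto f (nhdsWithin (zLaw d j A) (Set.Ioi (zLaw d j A))) (nhds (f (zLaw d j A))) :=
      (hfc.tendsto _).mono_left nhdsWithin_le_nhds
    have : (nhdsWithin (zLaw d j A) (Set.Ioi (zLaw d j A))).NeBot :=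
      nhdsGT_neBot_of_exists_gt ⟨⊤, lt_top_iff_ne_top.2 htop⟩
    exact ge_of_tendsto h2 (Filter.mem_of_superset self_mem_nhdsWithin fun r hr => h1 r hr)

end

/-- Taking `φ` the channel itself. -/
theorem holder_flat_self (ρ : Measure (Vec d)) [IsProbabilityMeasure ρ] {n : ℕ} (hn : 2 ≤ n)
    (Q : ℝ≥0∞) (hQfin : Q ≠ ⊤)
    (hQ : ∀ (s₀ : Vec d) (S : List (Vec d)), S.length + 1 < n →
      ∫⁻ s, (cGauss / ENNReal.ofReal (dperp (spanS s₀ S) s₀ s)) ^ (2 * j) ∂ρ ≤ Q ^ 2)
    {A : Set (Zsp d j)} (hA : MeasurableSet A) :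
    ∫⁻ s, chan d j A s ^ 2 ∂ρ ≤ (Q * zLaw d j A) ^ (2 * (((n:ℝ) - 1) / n)) := by
  have hφ : Measurable (chan d j A) := measurable_chan hA
  have hle : ∫⁻ s, chan d j A s ^ 2 ∂ρ ≤ 1 := by
    calc ∫⁻ s, chan d j A s ^ 2 ∂ρ ≤ ∫⁻ _, 1 ∂ρ := by
          apply lintegral_mono
          intro s
          exact pow_le_one₀ zero_le (chan_le_one A s)
      _ = 1 := by simp
  have hfin : ∫⁻ s, chan d j A s ^ 2 ∂ρ ≠ ⊤ := ne_top_of_le_ne_top ENNReal.one_ne_top hle
  have h := holder_flat ρ (chan d j A) hn Q hQfin hQ hφ hfin hA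
  set Y := ∫⁻ s, chan d j A s ^ 2 ∂ρ with hY
  set W := (Q * zLaw d j A) ^ (((n:ℝ) - 1) / n) with hW
  have h1 : ∫⁻ s, chan d j A s * chan d j A s ∂ρ = Y := by
    simp_rw [hY, sq]
  rw [h1] at h
  set a := Y ^ (1 / 2 : ℝ) with ha
  have ha2 : a ^ 2 = Y := by
    rw [ha, ← ENNReal.rpow_natCast, ← ENNReal.rpow_mul]
    norm_num
  have hafin : a ≠ ⊤ := ENNReal.rpow_ne_top_of_nonneg (by norm_num) hfin
  have h2 : a ≤ W := by
    by_cases ha0 : a = 0
    · rw [ha0]; exact zero_le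
    · have h3 : a * a ≤ a * W := by
        rw [← sq, ha2]
        exact h
      exact (ENNReal.mul_le_mul_iff_right ha0 hafin).1 h3
  rw [← ha2, mul_comm (2:ℝ), ENNReal.rpow_mul, ENNReal.rpow_two]
  gcongr

end Vale.Agent.Lib.P309
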