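import Vale.Agent.Lib.P309.Moment
import Vale.Agent.Lib.P309.Holder
import Vale.Agent.Lib.P309.Good
import Vale.Agent.Lib.P309.Entropy

/-!
# The block gain: one block of rows applied to an alive component
-/

open MeasureTheory ProbabilityTheory Metric Set
open scoped RealInnerProductSpace ENNReal

namespace Vale.Agent.Lib.P309

variable {d : ℕ}

/-- The normalized law of a component. -/
noncomputable def rhoOf (μ : Measure (Vec d)) (w : Vec d → ℝ) : Measure (Vec d) :=
  ENNReal.ofReal (mass μ w)⁻¹ • μ.withDensity (fun s => ENNReal.ofReal (w s))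

section rho

variable {μ : Measure (Vec d)} {w : Vec d → ℝ}

theorem lintegral_rhoOf (hw : Measurable w) {g : Vec d → ℝ≥0∞} (hg : Measurable g) :
    ∫⁻ s, g s ∂rhoOf μ w = ENNReal.ofReal (mass μ w)⁻¹ * ∫⁻ s, ENNReal.ofReal (w s) * g s ∂μ := by
  unfold rhoOf
  rw [lintegral_smul_measure, lintegral_withDensity_eq_lintegral_mul _ hw.ennreal_ofReal hg]
  rfl

theorem lintegral_rhoOf_real [IsFiniteMeasure μ] (hw : Measurable w) (hw0 : ∀ s, 0 ≤ w s) (hw1 : ∀ s, w s ≤ 1)
    {g : Vec d → ℝ≥0∞} (hg : Measurable g) (hg1 : ∀ s, g s ≤ 1) :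
    ∫⁻ s, g s ∂rhoOf μ w
      = ENNReal.ofReal ((mass μ w)⁻¹ * ∫ s, w s * (g s).toReal ∂μ) := by
  rw [lintegral_rhoOf hw hg]
  have hgf : ∀ s, g s ≠ ⊤ := fun s => ne_top_of_le_ne_top ENNReal.one_ne_top (hg1 s)
  have hgle : ∀ s, (g s).toReal ≤ 1 := fun s =>
    ENNReal.toReal_le_of_le_ofReal zero_le_one (by simpa using hg1 s)
  have h1 : ∀ s, ENNReal.ofReal (w s) * g s = ENNReal.ofReal (w s * (g s).toReal) := by
    intro s
    rw [ENNReal.ofReal_mul (hw0 s), ENNReal.ofReal_toReal (hgf s)]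
  simp_rw [h1]
  have hint : Integrable (fun s => w s * (g s).toReal) μ := by
    refine Integrable.of_bound (C := 1) (hw.mul hg.ennreal_toReal).aestronglyMeasurable
      (Filter.Eventually.of_forall ?_)
    intro s
    rw [Real.norm_eq_abs, abs_of_nonneg (mul_nonneg (hw0 s) ENNReal.toReal_nonneg)]
    exact mul_le_one₀ (hw1 s) ENNReal.toReal_nonneg (hgle s)
  rw [← ofReal_integral_eq_lintegral_ofReal hint (Filter.Eventually.of_forall fun s =>
    mul_nonneg (hw0 s) ENNReal.toReal_nonneg)]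
  by_cases hm : 0 ≤ (mass μ w)⁻¹
  · rw [ENNReal.ofReal_mul hm]
  · have : ¬ 0 ≤ mass μ w := by
      intro h
      exact hm (inv_nonneg.2 h)
    exfalso
    exact this (integral_nonneg hw0)

theorem isProbabilityMeasure_rhoOf [IsFiniteMeasure μ] (hw : Measurable w) (hw0 : ∀ s, 0 ≤ w s)
    (hw1 : ∀ s, w s ≤ 1) (hπ : 0 < mass μ w) : IsProbabilityMeasure (rhoOf μ w) := by
  constructor
  have h := lintegral_rhoOf_real (μ := μ) hw hw0 hw1 (g := fun _ => 1) measurable_const (fun _ => le_rfl)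
  simp only [lintegral_const, ENNReal.toReal_one, mul_one, one_mul] at h
  rw [h]
  have : ∫ s, w s ∂μ = mass μ w := rfl
  rw [this, inv_mul_cancel₀ hπ.ne']
  simp

theorem rhoOf_apply [IsFiniteMeasure μ] (hw : Measurable w) (hw0 : ∀ s, 0 ≤ w s) (hw1 : ∀ s, w s ≤ 1)
    {S : Set (Vec d)} (hS : MeasurableSet S) :
    rhoOf μ w S = ENNReal.ofReal ((mass μ w)⁻¹ * ∫ s in S, w s ∂μ) := by
  have h := lintegral_rhoOf_real (μ := μ) hw hw0 hw1 (g := Set.indicator S fun _ => 1)
    (measurable_const.indicator hS) (fun s => by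
      simp only [Set.indicator]
      split_ifs <;> simp)
  rw [lintegral_indicator hS] at h
  simp only [lintegral_const, one_mul, Measure.restrict_apply MeasurableSet.univ, Set.univ_inter] at h
  rw [h]
  congr 2
  rw [← integral_indicator hS]
  congr 1
  ext s
  by_cases hs : s ∈ S <;> simp [hs]

end rho

theorem sum_chan_inter_mass {μ : Measure (Vec d)} [IsFiniteMeasure μ] {j : ℕ} {σ : Type} [Fintype σ]
    {w : Vec d → ℝ} (hw : Measurable w) (hw0 : ∀ s, 0 ≤ w s) (hw1 : ∀ s, w s ≤ 1)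
    (f : Zsp d j → σ) (hf : ∀ a, MeasurableSet (f ⁻¹' {a})) {G : Set (Zsp d j)} (hG : MeasurableSet G) :
    ∑ a, mass μ (fun s => w s * (chan d j (f ⁻¹' {a} ∩ G) s).toReal)
      = mass μ w - ∫ s, w s * (chan d j Gᶜ s).toReal ∂μ := by
  have hint : ∀ {A : Set (Zsp d j)}, MeasurableSet A →
      Integrable (fun s => w s * (chan d j A s).toReal) μ := by
    intro A hA
    refine Integrable.of_bound (C := 1) (hw.mul (measurable_chan hA).ennreal_toReal).aestronglyMeasurable
      (Filter.Eventually.of_forall ?_)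
    intro s
    rw [Real.norm_eq_abs, abs_of_nonneg (mul_nonneg (hw0 s) ENNReal.toReal_nonneg)]
    exact mul_le_one₀ (hw1 s) ENNReal.toReal_nonneg
      (ENNReal.toReal_le_of_le_ofReal zero_le_one (by simpa using chan_le_one A s))
  have hwi : Integrable w μ := by
    refine Integrable.of_bound (C := 1) hw.aestronglyMeasurable (Filter.Eventually.of_forall ?_)
    intro s
    rw [Real.norm_eq_abs, abs_of_nonneg (hw0 s)]
    exact hw1 s
  simp only [mass]
  rw [← integral_finsetSum _ (fun a _ => hint ((hf a).inter hG)), ← integral_sub hwi (hint hG.compl)]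
  congr 1
  ext s
  have := sum_chan_inter f hf hG s
  rw [← Finset.mul_sum]
  have h2 : ∑ a, (chan d j (f ⁻¹' {a} ∩ G) s).toReal = 1 - (chan d j Gᶜ s).toReal := by linarith
  rw [h2]
  ring

/-- `block_gain`: one block of `j` rows applied to an alive component. -/
theorem block_gain {μ : Measure (Vec d)} (hμ : Prior μ) {j ℓ₀ : ℕ} (hp : GoodParams d j ℓ₀)
    {σ : Type} [Fintype σ] (hσ : Nonempty σ) (f : Zsp d j → σ) (hf : ∀ a, MeasurableSet (f ⁻¹' {a}))
    (c : Comp d) (hc : c.Alive μ j) :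
    ∃ G : Set (Zsp d j), MeasurableSet G ∧
      mass μ c.w * (1 - 2 * Real.exp (-(j:ℝ))) ≤
        ∑ a, mass μ (fun s => c.w s * (chan d j (f ⁻¹' {a} ∩ G) s).toReal) ∧
      ∑ a, Pot μ j (fun s => c.w s * (chan d j (f ⁻¹' {a} ∩ G) s).toReal) c.D
        ≤ Pot μ j c.w c.D + mass μ c.w * gainC j ℓ₀ (Real.log (Fintype.card σ)) := by
  have := hμ.prob
  obtain ⟨hj2, hd, hG⟩ := hp
  have hj1 : 1 ≤ j := by omega
  have hj0 : (0:ℝ) < j := by exact_mod_cast hj1
  have hw := hc.meas
  have hw0 := hc.nonneg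
  have hw1 := hc.le_one
  have hπ := hc.pos
  set π' := mass μ c.w with hπ'
  set w := c.w with hwdef
  set τ := rad c.D with hτdef
  have hτ : 0 < τ := by
    rw [hτdef]
    unfold rad
    positivity
  set ρ := rhoOf μ w with hρdef
  have : IsProbabilityMeasure ρ := isProbabilityMeasure_rhoOf hw hw0 hw1 hπ
  -- support
  have hsupp : ρ (closedBall c.z τ)ᶜ = 0 := by
    rw [hρdef, rhoOf_apply hw hw0 hw1 measurableSet_closedBall.compl]
    have : ∫ s in (closedBall c.z τ)ᶜ, w s ∂μ = 0 := by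
      apply setIntegral_eq_zero_of_forall_eq_zero
      intro s hs
      by_contra hne
      exact hs (hc.supp s hne)
    rw [this]
    simp
  -- regularity
  have hreg : ∀ (ℓ : ℕ) (k : Fin d → ℤ), ρ (cellSet d (c.D + ℓ) k) ≤ 2 ^ (d + 2) / 2 ^ (8 * j * ℓ) := by
    intro ℓ k
    rw [hρdef, rhoOf_apply hw hw0 hw1 (measurableSet_cellSet (c.D + ℓ) k)]
    have h1 := hc.reg ℓ k
    have h2 : (mass μ w)⁻¹ * ∫ s in cellSet d (c.D + ℓ) k, w s ∂μ
        ≤ (2:ℝ) ^ (d + 2) / (2:ℝ) ^ (8 * j * ℓ) := by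
      rw [inv_mul_le_iff₀ hπ]
      calc _ ≤ _ := h1
        _ = _ := by ring
    refine (ENNReal.ofReal_le_ofReal h2).trans (le_of_eq ?_)
    rw [ENNReal.ofReal_div_of_pos (by positivity), ENNReal.ofReal_pow (by norm_num),
      ENNReal.ofReal_pow (by norm_num)]
    simp
  -- the moment constant
  set Q : ℝ≥0∞ := (cGauss / ENNReal.ofReal τ) ^ j * 2 ^ (j * (ℓ₀ + 1) + 1) with hQdef
  have hcτ : cGauss / ENNReal.ofReal τ = ENNReal.ofReal (2 / √(2 * Real.pi) / τ) := by
    unfold cGauss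
    rw [ENNReal.ofReal_div_of_pos hτ]
  have hQfin : Q ≠ ⊤ := by
    rw [hQdef, hcτ]
    exact ENNReal.mul_ne_top (ENNReal.pow_ne_top ENNReal.ofReal_ne_top)
      (ENNReal.pow_ne_top (by simp))
  have hQsq : Q ^ 2 = (cGauss / ENNReal.ofReal τ) ^ (2 * j) * 2 ^ (2 * j * (ℓ₀ + 1) + 2) := by
    rw [hQdef, mul_pow, ← pow_mul, ← pow_mul]
    congr 2
    · ring
    · ring
  have hQ : ∀ (s₀ : Vec d) (S : List (Vec d)), S.length + 1 < j →
      ∫⁻ s, (cGauss / ENNReal.ofReal (dperp (spanS s₀ S) s₀ s)) ^ (2 * j) ∂ρ ≤ Q ^ 2 := by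
    intro s₀ S hS
    rw [hQsq]
    exact moment_bound ρ hj1 hsupp hreg hG (spanS s₀ S)
      (lt_of_le_of_lt (finrank_spanS_le s₀ S) (by omega)) s₀
  -- the good set
  obtain ⟨G, hGm, hGc, hGA⟩ := exists_good_set ρ hj1 hτ hsupp (j := j)
  refine ⟨G, hGm, ?_, ?_⟩
  · -- mass
    rw [sum_chan_inter_mass hw hw0 hw1 f hf hGm]
    rw [hρdef, lintegral_rhoOf_real hw hw0 hw1 (measurable_chan hGm.compl) (chan_le_one _)] at hGc
    have h2 : (mass μ w)⁻¹ * ∫ s, w s * (chan d j Gᶜ s).toReal ∂μ ≤ 2 * Real.exp (-(j:ℝ)) :=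
      (ENNReal.ofReal_le_ofReal_iff (by positivity)).1 hGc
    rw [inv_mul_le_iff₀ hπ] at h2
    linarith
  · -- potential
    set Γ : ℝ := 2 ^ (j * (ℓ₀ + 2) + 1) * Real.exp (4 * j) with hΓdef
    have hΓ0 : 0 < Γ := by positivity
    have hΓ1 : 1 ≤ Γ := by
      rw [hΓdef]
      have h1 : (1:ℝ) ≤ 2 ^ (j * (ℓ₀ + 2) + 1) := one_le_pow₀ (by norm_num)
      have h2 : (1:ℝ) ≤ Real.exp (4 * j) := Real.one_le_exp (by positivity)
      nlinarith
    have hsq2π : 0 < √(2 * Real.pi) := by positivity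
    have hkey : Q * ENNReal.ofReal ((√(2 * Real.pi) * τ) ^ j * Real.exp (4 * j)) = ENNReal.ofReal Γ := by
      rw [hQdef, hcτ]
      have h2 : (2:ℝ≥0∞) ^ (j * (ℓ₀ + 1) + 1) = ENNReal.ofReal (2 ^ (j * (ℓ₀ + 1) + 1)) := by
        rw [ENNReal.ofReal_pow (by norm_num)]
        simp
      rw [h2, ← ENNReal.ofReal_pow (by positivity), ← ENNReal.ofReal_mul (by positivity),
        ← ENNReal.ofReal_mul (by positivity)]
      congr 1
      rw [hΓdef]
      have h3 : (2 / √(2 * Real.pi) / τ) ^ j * (√(2 * Real.pi) * τ) ^ j = 2 ^ j := by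
        rw [← mul_pow]
        congr 1
        field_simp
      calc _ = ((2 / √(2 * Real.pi) / τ) ^ j * (√(2 * Real.pi) * τ) ^ j)
            * 2 ^ (j * (ℓ₀ + 1) + 1) * Real.exp (4 * j) := by ring
        _ = 2 ^ j * 2 ^ (j * (ℓ₀ + 1) + 1) * Real.exp (4 * j) := by rw [h3]
        _ = _ := by
          rw [← pow_add]
          congr 2
          ring
    have hj' : (2:ℝ) ≤ j := by exact_mod_cast hj2
    have he : 0 ≤ 2 * (((j:ℝ) - 1) / j) := by
      apply mul_nonneg (by norm_num)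
      apply div_nonneg <;> linarith
    have hflat : ∀ a, ∫ s, w s * (chan d j (f ⁻¹' {a} ∩ G) s).toReal ^ 2 ∂μ ≤
        mass μ w * (Γ * (mass μ (fun s => w s * (chan d j (f ⁻¹' {a} ∩ G) s).toReal) / mass μ w))
          ^ (2 * (((j:ℝ) - 1) / j)) := by
      intro a
      set A := f ⁻¹' {a} ∩ G with hAdef
      have hA : MeasurableSet A := (hf a).inter hGm
      have hAG : A ⊆ G := Set.inter_subset_right
      have H1 := holder_flat_self ρ hj2 Q hQfin hQ hA
      have H2 := hGA A hA hAG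
      have hchan := measurable_chan hA
      have hI1 : ∫⁻ s, chan d j A s ∂ρ
          = ENNReal.ofReal ((mass μ w)⁻¹ * mass μ (fun s => w s * (chan d j A s).toReal)) :=
        lintegral_rhoOf_real hw hw0 hw1 hchan (chan_le_one _)
      have hI2 : ∫⁻ s, chan d j A s ^ 2 ∂ρ
          = ENNReal.ofReal ((mass μ w)⁻¹ * ∫ s, w s * (chan d j A s).toReal ^ 2 ∂μ) := by
        have h3 := lintegral_rhoOf_real (μ := μ) hw hw0 hw1 (g := fun s => chan d j A s ^ 2)
          (hchan.pow_const 2) (fun s => pow_le_one₀ zero_le (chan_le_one A s))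
        rw [← hρdef] at h3
        rw [h3]
        simp only [ENNReal.toReal_pow]
      have H3 : Q * zLaw d j A ≤ ENNReal.ofReal
          (Γ * ((mass μ w)⁻¹ * mass μ (fun s => w s * (chan d j A s).toReal))) := by
        calc Q * zLaw d j A
            ≤ Q * ((∫⁻ s, chan d j A s ∂ρ) * ENNReal.ofReal ((√(2 * Real.pi) * τ) ^ j * Real.exp (4 * j))) := by
              gcongr
          _ = (Q * ENNReal.ofReal ((√(2 * Real.pi) * τ) ^ j * Real.exp (4 * j)))
              * ∫⁻ s, chan d j A s ∂ρ := by ring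
          _ = _ := by
              rw [hkey, hI1, ← ENNReal.ofReal_mul hΓ0.le]
      have hnn : 0 ≤ (mass μ w)⁻¹ * mass μ (fun s => w s * (chan d j A s).toReal) := by
        apply mul_nonneg (inv_nonneg.2 hπ.le)
        exact integral_nonneg fun s => mul_nonneg (hw0 s) ENNReal.toReal_nonneg
      have H4 : ∫⁻ s, chan d j A s ^ 2 ∂ρ ≤ ENNReal.ofReal
          ((Γ * ((mass μ w)⁻¹ * mass μ (fun s => w s * (chan d j A s).toReal))) ^ (2 * (((j:ℝ) - 1) / j))) := by
        refine H1.trans ?_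
        rw [← ENNReal.ofReal_rpow_of_nonneg (by positivity) he]
        exact ENNReal.rpow_le_rpow H3 he
      rw [hI2, ENNReal.ofReal_le_ofReal_iff (by positivity), inv_mul_le_iff₀ hπ] at H4
      have h7 : mass μ (fun s => w s * (chan d j A s).toReal) / mass μ w
          = (mass μ w)⁻¹ * mass μ (fun s => w s * (chan d j A s).toReal) := by
        rw [div_eq_inv_mul]
      rw [h7]
      exact H4
    have hbSub : (⟨fun s => w s * (chan d j Gᶜ s).toReal, c.D, c.z⟩ : Comp d).Sub μ := by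
      refine ⟨hw.mul (measurable_chan hGm.compl).ennreal_toReal, fun s => mul_nonneg (hw0 s) ENNReal.toReal_nonneg, ?_, ?_⟩
      · intro s
        exact mul_le_one₀ (hw1 s) ENNReal.toReal_nonneg
          (ENNReal.toReal_le_of_le_ofReal zero_le_one (by simpa using chan_le_one _ s))
      · intro s hs
        exact hc.supp s (left_ne_zero_of_mul hs)
    have hdead := pot_nonneg hμ hd _ hbSub
    have hfinal := gain_abstract (μ := μ) hσ hw hw0 hw1 hπ (h := fun a s => (chan d j (f ⁻¹' {a} ∩ G) s).toReal)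
      (hb := fun s => (chan d j Gᶜ s).toReal)
      (fun a => (measurable_chan ((hf a).inter hGm)).ennreal_toReal)
      (measurable_chan hGm.compl).ennreal_toReal
      (fun a s => ENNReal.toReal_nonneg) (fun s => ENNReal.toReal_nonneg)
      (fun s => sum_chan_inter f hf hGm s) hΓ1 hj1 j c.D hflat hdead
    refine hfinal.trans (le_of_eq ?_)
    congr 2
    unfold gainC
    have hlog : Real.log Γ = ((j * (ℓ₀ + 2) + 1 : ℕ) : ℝ) * Real.log 2 + 4 * j := by
      rw [hΓdef, Real.log_mul (by positivity) (by positivity), Real.log_pow, Real.log_exp]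
    rw [hlog]

end Vale.Agent.Lib.P309
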