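import Vale.Agent.Lib.P309.Basic

/-!
# Lattice cells
-/

open MeasureTheory ProbabilityTheory Metric Set
open scoped RealInnerProductSpace ENNReal

namespace Vale.Agent.Lib.P309

variable {d : ℕ}

lemma gridA_sq_ge (d : ℕ) : d ≤ gridA d ^ 2 := by
  have := Nat.lt_succ_sqrt d
  rw [gridA, pow_two]
  exact this.le

lemma gridA_sq_le {d : ℕ} (hd : 1 ≤ d) : gridA d ^ 2 ≤ 4 * d := by
  have h1 : 1 ≤ Nat.sqrt d := Nat.sqrt_pos.2 hd
  have h2 : Nat.sqrt d * Nat.sqrt d ≤ d := Nat.sqrt_le d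
  rw [gridA]
  nlinarith

lemma gridA_pos (d : ℕ) : 0 < gridA d := Nat.succ_pos _

theorem measurable_cellIdx (D : ℕ) : Measurable (cellIdx d D) := by
  refine measurable_pi_iff.2 fun i => ?_
  refine Measurable.floor ?_
  have h : Measurable fun s : Vec d => s i := (EuclideanSpace.proj (𝕜 := ℝ) i).continuous.measurable
  exact h.mul_const _

theorem measurableSet_cellSet (D : ℕ) (k : Fin d → ℤ) : MeasurableSet (cellSet d D k) :=
  measurable_cellIdx D (measurableSet_singleton k)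

/-- Two points in one cell at depth `D` are at distance at most `2^(-D)`. -/
theorem dist_le_of_cellIdx_eq {D : ℕ} {s t : Vec d} (h : cellIdx d D s = cellIdx d D t) :
    dist s t ≤ rad D := by
  have hZ : (0:ℝ) < (2:ℝ) ^ D * (gridA d : ℝ) := by
    have : (0:ℝ) < gridA d := by exact_mod_cast gridA_pos d
    positivity
  set Z : ℝ := (2:ℝ) ^ D * (gridA d : ℝ) with hZdef
  have hcoord : ∀ i, (s i - t i) ^ 2 ≤ (1 / Z) ^ 2 := by
    intro i
    have h1 : ⌊s i * Z⌋ = ⌊t i * Z⌋ := congrFun h i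
    have h2 := Int.abs_sub_lt_one_of_floor_eq_floor h1
    have h3 : |s i - t i| * Z < 1 := by
      calc |s i - t i| * Z = |s i - t i| * |Z| := by rw [abs_of_pos hZ]
        _ = |(s i - t i) * Z| := (abs_mul _ _).symm
        _ = |s i * Z - t i * Z| := by rw [sub_mul]
        _ < 1 := h2
    have h4 : |s i - t i| ≤ 1 / Z := by
      rw [le_div_iff₀ hZ]
      exact h3.le
    calc (s i - t i) ^ 2 = |s i - t i| ^ 2 := (sq_abs _).symm
      _ ≤ (1 / Z) ^ 2 := by gcongr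
  rw [EuclideanSpace.dist_eq]
  have hrad : 0 ≤ rad D := by rw [rad]; positivity
  apply Real.sqrt_le_iff.2 ⟨hrad, ?_⟩
  have hsum : ∑ i : Fin d, dist (s i) (t i) ^ 2 ≤ d * (1 / Z) ^ 2 := by
    calc ∑ i : Fin d, dist (s i) (t i) ^ 2 ≤ ∑ _i : Fin d, (1 / Z) ^ 2 := by
          refine Finset.sum_le_sum fun i _ => ?_
          rw [Real.dist_eq, sq_abs]
          exact hcoord i
      _ = d * (1 / Z) ^ 2 := by simp
  refine hsum.trans ?_
  have hA : (d:ℝ) ≤ (gridA d : ℝ) ^ 2 := by exact_mod_cast gridA_sq_ge d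
  have hA0 : (0:ℝ) < gridA d := by exact_mod_cast gridA_pos d
  have e : rad D = 1 / (2:ℝ) ^ D := by rw [rad, inv_pow, one_div]
  rw [e, hZdef]
  have e2 : (1 / ((2:ℝ) ^ D * (gridA d : ℝ))) ^ 2 =
      (1 / (2:ℝ) ^ D) ^ 2 * (1 / ((gridA d : ℝ)) ^ 2) := by
    field_simp
  rw [e2]
  have h5 : (d:ℝ) * (1 / ((gridA d : ℝ)) ^ 2) ≤ 1 := by
    rw [mul_one_div, div_le_one (by positivity)]
    exact hA
  calc (d:ℝ) * ((1 / (2:ℝ) ^ D) ^ 2 * (1 / ((gridA d : ℝ)) ^ 2))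
      = (1 / (2:ℝ) ^ D) ^ 2 * ((d:ℝ) * (1 / ((gridA d : ℝ)) ^ 2)) := by ring
    _ ≤ (1 / (2:ℝ) ^ D) ^ 2 * 1 := by gcongr
    _ = _ := mul_one _

/-- Cells are nested. -/
theorem cellIdx_eq_of_le {D D' : ℕ} (hD : D ≤ D') {s t : Vec d}
    (h : cellIdx d D' s = cellIdx d D' t) : cellIdx d D s = cellIdx d D t := by
  obtain ⟨e, rfl⟩ := Nat.exists_eq_add_of_le hD
  funext i
  have h1 : ⌊s i * ((2:ℝ) ^ (D + e) * (gridA d : ℝ))⌋ = ⌊t i * ((2:ℝ) ^ (D + e) * (gridA d : ℝ))⌋ :=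
    congrFun h i
  have key : ∀ x : ℝ, ⌊x * ((2:ℝ) ^ D * (gridA d : ℝ))⌋ =
      ⌊x * ((2:ℝ) ^ (D + e) * (gridA d : ℝ))⌋ / ((2 ^ e : ℕ) : ℤ) := by
    intro x
    rw [← Int.floor_div_natCast]
    congr 1
    push_cast
    rw [pow_add]
    field_simp
  show ⌊s i * ((2:ℝ) ^ D * (gridA d : ℝ))⌋ = ⌊t i * ((2:ℝ) ^ D * (gridA d : ℝ))⌋
  rw [key, key, h1]

/-- A geometric bound for sums over integers with an injective weight index. -/
lemma sum_le_two_of_inj (S : Finset ℤ) (f : ℤ → ℝ) (g : ℤ → ℕ)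
    (hf : ∀ m ∈ S, f m ≤ (1 / 2 : ℝ) ^ g m) (hg : Set.InjOn g S) : ∑ m ∈ S, f m ≤ 2 := by
  classical
  have h1 : ∑ m ∈ S, f m ≤ ∑ m ∈ S, (1 / 2 : ℝ) ^ g m := Finset.sum_le_sum hf
  have h2 : ∑ m ∈ S, (1 / 2 : ℝ) ^ g m = ∑ a ∈ S.image g, (1 / 2 : ℝ) ^ a :=
    (Finset.sum_image hg).symm
  obtain ⟨N, hN⟩ : ∃ N, S.image g ⊆ Finset.range N := by
    refine ⟨(S.image g).sup id + 1, fun a ha => ?_⟩
    have := Finset.le_sup (f := id) ha
    exact Finset.mem_range.2 (Nat.lt_succ_of_le this)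
  have h3 : ∑ a ∈ S.image g, (1 / 2 : ℝ) ^ a ≤ ∑ a ∈ Finset.range N, (1 / 2 : ℝ) ^ a :=
    Finset.sum_le_sum_of_subset_of_nonneg hN fun _ _ _ => by positivity
  have h4 := sum_geometric_two_le N
  linarith

lemma half_rpow_le {y : ℝ} {a : ℕ} (h0 : (a:ℝ) ≤ |y|) :
    (1 / 2 : ℝ) ^ (y ^ 2) ≤ (1 / 2 : ℝ) ^ a := by
  have e : (1 / 2 : ℝ) ^ a = (1 / 2 : ℝ) ^ (a : ℝ) := (Real.rpow_natCast _ _).symm
  rw [e]
  apply Real.rpow_le_rpow_of_exponent_ge (by norm_num) (by norm_num)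
  rcases Nat.eq_zero_or_pos a with rfl | ha
  · simpa using sq_nonneg y
  · have h1 : (1:ℝ) ≤ a := by exact_mod_cast ha
    have h2 : (a:ℝ) ^ 2 ≤ y ^ 2 := by
      rw [← sq_abs y]
      exact pow_le_pow_left₀ (by positivity) h0 2
    nlinarith

/-- One-dimensional Gaussian weights over the integers sum to at most `4`. -/
lemma sum_half_rpow_le (x : ℝ) (S : Finset ℤ) :
    ∑ m ∈ S, (1 / 2 : ℝ) ^ (((m:ℝ) - x) ^ 2) ≤ 4 := by
  classical
  set c := ⌈x⌉ with hc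
  have h1 := sum_le_two_of_inj (S.filter fun m => c ≤ m) (fun m => (1 / 2 : ℝ) ^ (((m:ℝ) - x) ^ 2))
    (fun m => (m - c).toNat) (by
      intro m hm
      have hm' := (Finset.mem_filter.1 hm).2
      apply half_rpow_le
      have h2 : (((m - c).toNat : ℕ) : ℤ) = m - c := Int.toNat_of_nonneg (by omega)
      have h3 : (((m - c).toNat : ℕ) : ℝ) = (m:ℝ) - c := by exact_mod_cast h2
      rw [h3]
      have h4 : x ≤ c := Int.le_ceil x
      have h5 : (c:ℝ) ≤ m := by exact_mod_cast hm'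
      rw [abs_of_nonneg (by linarith)]
      linarith) (by
      intro m hm m' hm' he
      have h6 := (Finset.mem_filter.1 hm).2
      have h7 := (Finset.mem_filter.1 hm').2
      simp only at he
      omega)
  have h2 := sum_le_two_of_inj (S.filter fun m => ¬ c ≤ m) (fun m => (1 / 2 : ℝ) ^ (((m:ℝ) - x) ^ 2))
    (fun m => (c - 1 - m).toNat) (by
      intro m hm
      have hm' := (Finset.mem_filter.1 hm).2
      apply half_rpow_le
      have h2 : (((c - 1 - m).toNat : ℕ) : ℤ) = c - 1 - m := Int.toNat_of_nonneg (by omega)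
      have h3 : (((c - 1 - m).toNat : ℕ) : ℝ) = (c:ℝ) - 1 - m := by exact_mod_cast h2
      rw [h3]
      have h4 : (c:ℝ) < x + 1 := Int.ceil_lt_add_one x
      have h5 : (m:ℝ) + 1 ≤ c := by exact_mod_cast (by omega : m + 1 ≤ c)
      rw [abs_of_nonpos (by linarith)]
      linarith) (by
      intro m hm m' hm' he
      have h6 := (Finset.mem_filter.1 hm).2
      have h7 := (Finset.mem_filter.1 hm').2
      simp only at he
      omega)
  have h3 := Finset.sum_filter_add_sum_filter_not S (fun m => c ≤ m)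
    (fun m => (1 / 2 : ℝ) ^ (((m:ℝ) - x) ^ 2))
  linarith

/-- The count of integer points near a point, by Gaussian weights. -/
lemma card_integer_ball_le (x : Fin d → ℝ) (B : Finset (Fin d → ℤ)) (L : ℕ)
    (hB : ∀ k ∈ B, ∑ i, ((k i : ℝ) - x i) ^ 2 ≤ L) (Box : Fin d → Finset ℤ)
    (hBox : ∀ k ∈ B, ∀ i, k i ∈ Box i) :
    (B.card : ℝ) ≤ 2 ^ L * 4 ^ d := by
  classical
  have hhalf : (0:ℝ) < 1 / 2 := by norm_num
  have hterm : ∀ k ∈ B, (1:ℝ) ≤ 2 ^ L * ∏ i, (1 / 2 : ℝ) ^ (((k i : ℝ) - x i) ^ 2) := by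
    intro k hk
    rw [← Real.rpow_sum_of_pos hhalf]
    have h1 : (1 / 2 : ℝ) ^ (L:ℝ) ≤ (1 / 2 : ℝ) ^ (∑ i, ((k i : ℝ) - x i) ^ 2) :=
      Real.rpow_le_rpow_of_exponent_ge (by norm_num) (by norm_num) (hB k hk)
    have h2 : (2:ℝ) ^ L * (1 / 2 : ℝ) ^ (L:ℝ) = 1 := by
      rw [Real.rpow_natCast, ← mul_pow]
      norm_num
    calc (1:ℝ) = (2:ℝ) ^ L * (1 / 2 : ℝ) ^ (L:ℝ) := h2.symm
      _ ≤ _ := by gcongr
  have hsum : (B.card : ℝ) ≤ ∑ k ∈ B, 2 ^ L * ∏ i, (1 / 2 : ℝ) ^ (((k i : ℝ) - x i) ^ 2) := by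
    rw [Finset.card_eq_sum_ones]
    push_cast
    exact Finset.sum_le_sum hterm
  have hsub : B ⊆ Fintype.piFinset Box := fun k hk => Fintype.mem_piFinset.2 (hBox k hk)
  have hprod : ∑ k ∈ Fintype.piFinset Box, ∏ i, (1 / 2 : ℝ) ^ (((k i : ℝ) - x i) ^ 2) ≤ 4 ^ d := by
    rw [← Finset.prod_univ_sum (fun i => Box i)
      (fun i (m : ℤ) => (1 / 2 : ℝ) ^ (((m : ℝ) - x i) ^ 2))]
    calc ∏ i, ∑ m ∈ Box i, (1 / 2 : ℝ) ^ (((m : ℝ) - x i) ^ 2) ≤ ∏ _i : Fin d, (4:ℝ) :=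
          Finset.prod_le_prod (fun i _ => Finset.sum_nonneg fun _ _ => by positivity)
            fun i _ => sum_half_rpow_le _ _
      _ = 4 ^ d := by simp
  calc (B.card : ℝ) ≤ ∑ k ∈ B, 2 ^ L * ∏ i, (1 / 2 : ℝ) ^ (((k i : ℝ) - x i) ^ 2) := hsum
    _ = 2 ^ L * ∑ k ∈ B, ∏ i, (1 / 2 : ℝ) ^ (((k i : ℝ) - x i) ^ 2) := by rw [Finset.mul_sum]
    _ ≤ 2 ^ L * ∑ k ∈ Fintype.piFinset Box, ∏ i, (1 / 2 : ℝ) ^ (((k i : ℝ) - x i) ^ 2) := by
        gcongr
    _ ≤ 2 ^ L * 4 ^ d := by gcongr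

/-- The distance bound of the cell index of a point of the ball from the scaled center. -/
lemma cell_near {D : ℕ} {c s : Vec d} (hs : s ∈ closedBall c (2 * rad D)) :
    ∑ i, ((cellIdx d D s i : ℝ) - c i * ((2:ℝ) ^ D * (gridA d : ℝ))) ^ 2 ≤ ((34 * d : ℕ) : ℝ) := by
  rcases Nat.eq_zero_or_pos d with rfl | hd
  · simp
  set Z : ℝ := (2:ℝ) ^ D * (gridA d : ℝ) with hZ
  have hrad : (2:ℝ) ^ D * rad D = 1 := by
    rw [rad, inv_pow]
    exact mul_inv_cancel₀ (by positivity)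
  have hd2 : ∑ i : Fin d, (s i - c i) ^ 2 ≤ (2 * rad D) ^ 2 := by
    have h1 : dist s c ≤ 2 * rad D := mem_closedBall.1 hs
    rw [EuclideanSpace.dist_eq] at h1
    have h0 : 0 ≤ 2 * rad D := by rw [rad]; positivity
    have h2 := (Real.sqrt_le_iff.1 h1).2
    refine le_trans (le_of_eq ?_) h2
    refine Finset.sum_congr rfl fun i _ => ?_
    rw [Real.dist_eq, sq_abs]
  have hterm : ∀ i, ((cellIdx d D s i : ℝ) - c i * Z) ^ 2 ≤ 2 + 2 * (Z ^ 2 * (s i - c i) ^ 2) := by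
    intro i
    have h1 : ((cellIdx d D s i : ℤ) : ℝ) ≤ s i * Z := Int.floor_le _
    have h2 : s i * Z < (cellIdx d D s i : ℝ) + 1 := Int.lt_floor_add_one _
    set a : ℝ := (cellIdx d D s i : ℝ) - s i * Z with ha
    have h3 : a ^ 2 ≤ 1 := by
      have h4 : a ≤ 0 := by rw [ha]; linarith
      have h5 : -1 ≤ a := by rw [ha]; linarith
      nlinarith
    have e : (cellIdx d D s i : ℝ) - c i * Z = a + Z * (s i - c i) := by rw [ha]; ring
    rw [e]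
    nlinarith [sq_nonneg (a - Z * (s i - c i))]
  have hsum : ∑ i, ((cellIdx d D s i : ℝ) - c i * Z) ^ 2 ≤
      2 * d + 2 * (Z ^ 2 * ∑ i : Fin d, (s i - c i) ^ 2) := by
    calc ∑ i, ((cellIdx d D s i : ℝ) - c i * Z) ^ 2
        ≤ ∑ i : Fin d, (2 + 2 * (Z ^ 2 * (s i - c i) ^ 2)) :=
          Finset.sum_le_sum fun i _ => hterm i
      _ = 2 * d + 2 * (Z ^ 2 * ∑ i : Fin d, (s i - c i) ^ 2) := by
          rw [Finset.sum_add_distrib, Finset.mul_sum, Finset.mul_sum]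
          simp [mul_comm]
  refine hsum.trans ?_
  have hZ2 : Z ^ 2 * (2 * rad D) ^ 2 = 4 * ((gridA d : ℝ) ^ 2) := by
    have : Z * (2 * rad D) = 2 * (gridA d : ℝ) := by
      rw [hZ]
      calc (2:ℝ) ^ D * (gridA d : ℝ) * (2 * rad D) = ((2:ℝ) ^ D * rad D) * (2 * (gridA d : ℝ)) := by
            ring
        _ = _ := by rw [hrad, one_mul]
    rw [← mul_pow, this]
    ring
  have hA : ((gridA d : ℝ)) ^ 2 ≤ 4 * d := by exact_mod_cast gridA_sq_le hd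
  have h5 : Z ^ 2 * ∑ i : Fin d, (s i - c i) ^ 2 ≤ Z ^ 2 * (2 * rad D) ^ 2 :=
    mul_le_mul_of_nonneg_left hd2 (by positivity)
  push_cast
  linarith

/-- A ball of radius `2 * 2^(-D)` meets at most `(2^36)^d` cells of depth `D`. -/
theorem exists_cells_cover (D : ℕ) (c : Vec d) :
    ∃ F : Finset (Fin d → ℤ), F.card ≤ (2 ^ 36) ^ d ∧
      ∀ s ∈ closedBall c (2 * rad D), cellIdx d D s ∈ F := by
  classical
  set x : Fin d → ℝ := fun i => c i * ((2:ℝ) ^ D * (gridA d : ℝ)) with hx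
  set L := 34 * d with hL
  -- the box containing all candidates
  set Box : Fin d → Finset ℤ := fun i =>
    Finset.Icc (⌊x i⌋ - (L + 1 : ℕ)) (⌊x i⌋ + (L + 2 : ℕ)) with hBox
  set F := (Fintype.piFinset Box).filter fun k => ∑ i, ((k i : ℝ) - x i) ^ 2 ≤ (L : ℝ) with hF
  have hnear : ∀ (k : Fin d → ℤ), ∑ i, ((k i : ℝ) - x i) ^ 2 ≤ (L : ℝ) → ∀ i, k i ∈ Box i := by
    intro k hk i
    have h1 : ((k i : ℝ) - x i) ^ 2 ≤ (L : ℝ) :=
      le_trans (Finset.single_le_sum (f := fun i => ((k i : ℝ) - x i) ^ 2)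
        (fun _ _ => sq_nonneg _) (Finset.mem_univ i)) hk
    have h2 : |(k i : ℝ) - x i| ≤ L + 1 := by
      have h3 : |(k i : ℝ) - x i| ^ 2 ≤ (L : ℝ) := by rwa [sq_abs]
      have h4 : (0:ℝ) ≤ L := by positivity
      by_contra hc
      push Not at hc
      have h5 : ((L:ℝ) + 1) ^ 2 < |(k i : ℝ) - x i| ^ 2 :=
        pow_lt_pow_left₀ hc (by positivity) (by norm_num)
      nlinarith
    obtain ⟨h6, h7⟩ := abs_le.1 h2
    have h8 : (⌊x i⌋ : ℝ) ≤ x i := Int.floor_le _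
    have h9 : x i < (⌊x i⌋ : ℝ) + 1 := Int.lt_floor_add_one _
    refine Finset.mem_Icc.2 ⟨?_, ?_⟩
    · have : ((⌊x i⌋ - ((L + 1 : ℕ) : ℤ) : ℤ) : ℝ) ≤ (k i : ℝ) := by
        push_cast
        linarith
      exact_mod_cast this
    · have : (k i : ℝ) ≤ ((⌊x i⌋ + ((L + 2 : ℕ) : ℤ) : ℤ) : ℝ) := by
        push_cast
        linarith
      exact_mod_cast this
  refine ⟨F, ?_, ?_⟩
  · have h1 := card_integer_ball_le x F L (fun k hk => (Finset.mem_filter.1 hk).2) Box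
      (fun k hk => Fintype.mem_piFinset.1 (Finset.mem_filter.1 hk).1)
    have h2 : ((2:ℝ) ^ L * 4 ^ d) = (((2 ^ 36) ^ d : ℕ) : ℝ) := by
      rw [hL, pow_mul]
      push_cast
      rw [← mul_pow]
      norm_num
    rw [h2] at h1
    exact_mod_cast h1
  · intro s hs
    have h1 := cell_near hs
    exact Finset.mem_filter.2 ⟨Fintype.mem_piFinset.2 (hnear _ h1), h1⟩

/-- The cells of depth `D` that meet a bounded set are finitely many. -/
theorem finite_cells_of_bounded (D : ℕ) {B : Set (Vec d)} (hB : Bornology.IsBounded B) :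
    (cellIdx d D '' B).Finite := by
  classical
  obtain ⟨R, hR⟩ := hB.subset_closedBall 0
  set Z : ℝ := (2:ℝ) ^ D * (gridA d : ℝ) with hZ
  have hZ0 : 0 < Z := by
    have : (0:ℝ) < gridA d := by exact_mod_cast gridA_pos d
    positivity
  set M : ℕ := ⌈|R| * Z⌉₊ + 1 with hM
  have hsub : cellIdx d D '' B ⊆ Set.pi Set.univ fun _ => Set.Icc (-(M : ℤ)) M := by
    rintro _ ⟨s, hs, rfl⟩ i _
    have h1 : ‖s‖ ≤ R := by
      have := hR hs
      simpa using this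
    have h2 : |s i| ≤ ‖s‖ := by
      have := PiLp.norm_apply_le (p := 2) s i
      simpa using this
    have h3 : |s i * Z| ≤ |R| * Z := by
      rw [abs_mul, abs_of_pos hZ0]
      exact mul_le_mul_of_nonneg_right (h2.trans (h1.trans (le_abs_self R))) hZ0.le
    have h4 : |R| * Z ≤ ⌈|R| * Z⌉₊ := Nat.le_ceil _
    have h5 : (M : ℝ) = ⌈|R| * Z⌉₊ + 1 := by rw [hM]; push_cast; ring
    obtain ⟨h6, h7⟩ := abs_le.1 h3
    constructor
    · show (-(M : ℤ)) ≤ ⌊s i * Z⌋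
      apply Int.le_floor.2
      push_cast
      linarith
    · show ⌊s i * Z⌋ ≤ (M : ℤ)
      apply Int.floor_le_iff.2
      push_cast
      linarith
  refine Set.Finite.subset (Set.Finite.pi fun _ => Set.finite_Icc _ _) hsub

end Vale.Agent.Lib.P309
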