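import Vale.Agent.Lib.P309.Cells
import Vale.Agent.Lib.P309.Entropy

/-!
# Peeling: decomposing a sub-density into regular components
-/

open MeasureTheory ProbabilityTheory Metric Set
open scoped RealInnerProductSpace ENNReal

namespace Vale.Agent.Lib.P309

variable {d : ℕ}

/-- The ball bound at depth `D`. -/
noncomputable def omD (d D : ℕ) : ℝ := 2 * (4 * rad D) ^ (d - 1)

theorem rad_pos' (D : ℕ) : 0 < rad D := by
  unfold rad
  positivity

theorem omD_pos (d D : ℕ) : 0 < omD d D := by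
  unfold omD
  have := rad_pos' D
  positivity

theorem omD_add (d D l : ℕ) : omD d (D + l) * 2 ^ ((d - 1) * l) = omD d D := by
  unfold omD rad
  have h : (4 * ((2:ℝ)⁻¹ ^ (D + l))) * 2 ^ l = 4 * (2:ℝ)⁻¹ ^ D := by
    rw [pow_add]
    have : ((2:ℝ)⁻¹) ^ l * 2 ^ l = 1 := by
      rw [← mul_pow]
      norm_num
    calc 4 * ((2:ℝ)⁻¹ ^ D * (2:ℝ)⁻¹ ^ l) * 2 ^ l
        = 4 * (2:ℝ)⁻¹ ^ D * ((2:ℝ)⁻¹ ^ l * 2 ^ l) := by ring
      _ = 4 * (2:ℝ)⁻¹ ^ D := by rw [this, mul_one]
  calc 2 * (4 * (2:ℝ)⁻¹ ^ (D + l)) ^ (d - 1) * 2 ^ ((d - 1) * l)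
      = 2 * ((4 * (2:ℝ)⁻¹ ^ (D + l)) * 2 ^ l) ^ (d - 1) := by
        rw [mul_pow ((4 * (2:ℝ)⁻¹ ^ (D + l))), ← pow_mul, mul_comm l (d - 1), mul_assoc]
    _ = 2 * (4 * (2:ℝ)⁻¹ ^ D) ^ (d - 1) := by rw [h]

/-- Restriction of a function to a set, in product form. -/
noncomputable def piece (Q : Set (Vec d)) (W : Vec d → ℝ) : Vec d → ℝ :=
  fun s => W s * Q.indicator (fun _ => (1:ℝ)) s

theorem measurable_piece {Q : Set (Vec d)} (hQ : MeasurableSet Q) {W : Vec d → ℝ}
    (hW : Measurable W) : Measurable (piece Q W) :=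
  hW.mul (measurable_const.indicator hQ)

theorem indicator_one_nonneg (Q : Set (Vec d)) (s : Vec d) :
    0 ≤ Q.indicator (fun _ => (1:ℝ)) s :=
  Set.indicator_nonneg (fun _ _ => zero_le_one) s

theorem indicator_one_le (Q : Set (Vec d)) (s : Vec d) :
    Q.indicator (fun _ => (1:ℝ)) s ≤ 1 := by
  by_cases h : s ∈ Q <;> simp [h]

theorem piece_nonneg (Q : Set (Vec d)) {W : Vec d → ℝ} (hW0 : ∀ s, 0 ≤ W s) (s : Vec d) :
    0 ≤ piece Q W s :=
  mul_nonneg (hW0 s) (indicator_one_nonneg Q s)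

theorem piece_le_one (Q : Set (Vec d)) {W : Vec d → ℝ} (hW0 : ∀ s, 0 ≤ W s)
    (hW1 : ∀ s, W s ≤ 1) (s : Vec d) : piece Q W s ≤ 1 := by
  have h1 := indicator_one_le Q s
  have h2 := indicator_one_nonneg Q s
  unfold piece
  nlinarith [hW0 s, hW1 s]

theorem integrable_of_bdd {μ : Measure (Vec d)} [IsProbabilityMeasure μ] {W : Vec d → ℝ}
    (hW : Measurable W) (hW0 : ∀ s, 0 ≤ W s) (hW1 : ∀ s, W s ≤ 1) : Integrable W μ := by
  refine Integrable.of_bound (C := 1) hW.aestronglyMeasurable (Filter.Eventually.of_forall ?_)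
  intro s
  rw [Real.norm_eq_abs, abs_of_nonneg (hW0 s)]
  exact hW1 s

theorem mass_nonneg {μ : Measure (Vec d)} {W : Vec d → ℝ} (hW0 : ∀ s, 0 ≤ W s) :
    0 ≤ mass μ W := integral_nonneg hW0

theorem mass_piece {μ : Measure (Vec d)} {Q : Set (Vec d)} (hQ : MeasurableSet Q)
    (W : Vec d → ℝ) : mass μ (piece Q W) = ∫ s in Q, W s ∂μ := by
  unfold mass piece
  rw [← integral_indicator hQ]
  congr 1
  funext s
  by_cases h : s ∈ Q <;> simp [h]

theorem mass_piece_add {μ : Measure (Vec d)} [IsProbabilityMeasure μ] {W : Vec d → ℝ}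
    (hW : Measurable W) (hW0 : ∀ s, 0 ≤ W s) (hW1 : ∀ s, W s ≤ 1)
    {Q : Set (Vec d)} (hQ : MeasurableSet Q) :
    mass μ (piece Q W) + mass μ (piece Qᶜ W) = mass μ W := by
  have h1 : Integrable (piece Q W) μ :=
    integrable_of_bdd (measurable_piece hQ hW) (piece_nonneg Q hW0) (piece_le_one Q hW0 hW1)
  have h2 : Integrable (piece Qᶜ W) μ :=
    integrable_of_bdd (measurable_piece hQ.compl hW) (piece_nonneg Qᶜ hW0)
      (piece_le_one Qᶜ hW0 hW1)
  unfold mass
  rw [← integral_add h1 h2]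
  congr 1
  funext s
  unfold piece
  by_cases h : s ∈ Q <;> simp [h]

theorem ind_log_eq (Q : Set (Vec d)) (W : Vec d → ℝ) (s : Vec d) :
    W s * Q.indicator (fun _ => (1:ℝ)) s * Real.log (Q.indicator (fun _ => (1:ℝ)) s) = 0 := by
  by_cases h : s ∈ Q <;> simp [h]

/-- The chain rule for a two-set partition. -/
theorem pot_split {μ : Measure (Vec d)} [IsProbabilityMeasure μ] {W : Vec d → ℝ}
    (hW : Measurable W) (hW0 : ∀ s, 0 ≤ W s) (hW1 : ∀ s, W s ≤ 1)
    (hπ : 0 < mass μ W) {Q : Set (Vec d)} (hQ : MeasurableSet Q) (j D l : ℕ) :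
    Pot μ j (piece Q W) (D + l) + Pot μ j (piece Qᶜ W) D
      = Pot μ j W D
        - mass μ (piece Q W) * Real.log (mass μ (piece Q W) / mass μ W)
        - mass μ (piece Q W) * (8 * j * l * Real.log 2)
        - mass μ (piece Qᶜ W) * Real.log (mass μ (piece Qᶜ W) / mass μ W) := by
  have key := pot_chain (μ := μ) (ι := Bool) (w := W) hW hW0 hW1 hπ
    (h := fun b => cond b (Q.indicator (fun _ => (1:ℝ))) (Qᶜ.indicator (fun _ => (1:ℝ))))
    (by
      intro b
      cases b
      · exact measurable_const.indicator hQ.compl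
      · exact measurable_const.indicator hQ)
    (by
      intro b s
      cases b
      · exact indicator_one_nonneg _ s
      · exact indicator_one_nonneg _ s)
    (by
      intro s
      by_cases h : s ∈ Q <;> simp [h])
    j (fun b => cond b (D + l) D) D
  simp only [Fintype.sum_bool, cond_true, cond_false] at key
  have h1 : (∫ s, W s * Q.indicator (fun _ => (1:ℝ)) s
      * Real.log (Q.indicator (fun _ => (1:ℝ)) s) ∂μ) = 0 := by
    simp [ind_log_eq]
  have h2 : (∫ s, W s * Qᶜ.indicator (fun _ => (1:ℝ)) s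
      * Real.log (Qᶜ.indicator (fun _ => (1:ℝ)) s) ∂μ) = 0 := by
    simp [ind_log_eq]
  rw [h1, h2] at key
  have h3 : ((D + l : ℕ) : ℝ) - (D : ℝ) = l := by push_cast; ring
  rw [h3] at key
  have h4 : ((D : ℕ) : ℝ) - (D : ℝ) = 0 := by ring
  rw [h4] at key
  unfold piece
  rw [key]
  ring

/-- The potential drop when a heavy set is split off. -/
theorem pot_split_le {μ : Measure (Vec d)} [IsProbabilityMeasure μ] {W : Vec d → ℝ}
    (hW : Measurable W) (hW0 : ∀ s, 0 ≤ W s) (hW1 : ∀ s, W s ≤ 1)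
    {Q : Set (Vec d)} (hQ : MeasurableSet Q) (j D l : ℕ) {π₀ : ℝ} (hπ₀ : 0 < π₀)
    (hle : mass μ W ≤ π₀)
    (hheavy : π₀ * 4 / 2 ^ (8 * j * l) < mass μ (piece Q W)) :
    Pot μ j (piece Q W) (D + l) + Pot μ j (piece Qᶜ W) D
      ≤ Pot μ j W D - (1 / 3) * mass μ (piece Q W) := by
  set q := mass μ (piece Q W) with hq
  set r := mass μ (piece Qᶜ W) with hr
  set p := mass μ W with hp
  have hadd : q + r = p := mass_piece_add hW hW0 hW1 hQ
  have hr0 : 0 ≤ r := mass_nonneg (piece_nonneg Qᶜ hW0)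
  have hthr : 0 < π₀ * 4 / 2 ^ (8 * j * l) := by positivity
  have hq0 : 0 < q := lt_trans hthr hheavy
  have hp0 : 0 < p := by linarith
  have hsplit := pot_split (μ := μ) hW hW0 hW1 hp0 hQ j D l
  rw [hsplit]
  -- the two estimates
  have hlog2 : (0.6931 : ℝ) < Real.log 2 := by
    have := Real.log_two_gt_d9
    norm_num at this ⊢
    linarith
  have h1 : 2 * Real.log 2 ≤ Real.log (q / p) + 8 * j * l * Real.log 2 := by
    have h2 : (4:ℝ) / 2 ^ (8 * j * l) ≤ q / p := by
      rw [div_le_div_iff₀ (by positivity) hp0]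
      have h3 : π₀ * 4 < q * 2 ^ (8 * j * l) := by
        rwa [div_lt_iff₀ (by positivity)] at hheavy
      nlinarith
    have h4 : Real.log ((4:ℝ) / 2 ^ (8 * j * l)) ≤ Real.log (q / p) :=
      Real.log_le_log (by positivity) h2
    have h5 : Real.log ((4:ℝ) / 2 ^ (8 * j * l))
        = 2 * Real.log 2 - 8 * j * l * Real.log 2 := by
      rw [Real.log_div (by norm_num) (by positivity), Real.log_pow]
      have : Real.log 4 = 2 * Real.log 2 := by
        rw [show (4:ℝ) = 2 ^ 2 by norm_num, Real.log_pow]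
        norm_num
      rw [this]
      push_cast
      ring
    linarith
  have h6 : r * Real.log (r / p) ≥ r - p := by
    rcases hr0.eq_or_lt with h0 | h0
    · rw [← h0]
      simp
      linarith
    · have h7 : 1 - (r / p)⁻¹ ≤ Real.log (r / p) :=
        Real.one_sub_inv_le_log_of_pos (by positivity)
      have h8 : r * (1 - (r / p)⁻¹) = r - p := by
        field_simp
      nlinarith
  have h9 : q * (2 * Real.log 2) ≤ q * (Real.log (q / p) + 8 * j * l * Real.log 2) :=
    mul_le_mul_of_nonneg_left h1 hq0.le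
  nlinarith

/-- The conclusion of the peeling statement. -/
def PeelConcl (μ : Measure (Vec d)) (j : ℕ) (c : Comp d) : Prop :=
  ∃ L : List (Comp d), (∀ c' ∈ L, c'.Alive μ j) ∧
    (∀ s, (L.map (fun c' => c'.w s)).sum ≤ c.w s) ∧
    (L.map (fun c' => Pot μ j c'.w c'.D)).sum
      + deadWeight d * (mass μ c.w - (L.map (fun c' => mass μ c'.w)).sum) ≤ Pot μ j c.w c.D

theorem two_pow_sub_two (hd : 2 ≤ d) : (4:ℝ) * deadWeight d = 2 ^ d := by
  unfold deadWeight
  obtain ⟨e, rfl⟩ : ∃ e, d = e + 2 := ⟨d - 2, by omega⟩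
  simp only [Nat.add_sub_cancel]
  rw [pow_add]
  ring

/-- No heavy cell: the remainder is alive or negligible. -/
theorem peel_base {μ : Measure (Vec d)} (hμ : Prior μ) {j : ℕ} (hd : 8 * j + 4 ≤ d)
    {π₀ : ℝ} (hπ₀ : 0 < π₀) {D : ℕ} {z : Vec d} {W : Vec d → ℝ}
    (hc : (Comp.mk W D z).Sub μ) (hle : mass μ W ≤ π₀)
    (hno : ∀ l k, 1 ≤ l → ∫ s in cellSet d (D + l) k, W s ∂μ ≤ π₀ * 4 / 2 ^ (8 * j * l)) :
    ∃ L : List (Comp d), (∀ c' ∈ L, c'.Alive μ j) ∧
      (∀ s, (L.map (fun c' => c'.w s)).sum ≤ W s) ∧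
      (L.map (fun c' => Pot μ j c'.w c'.D)).sum
        + deadWeight d * (mass μ W - (L.map (fun c' => mass μ c'.w)).sum)
        ≤ Pot μ j W D + (1 / 3) * (π₀ - mass μ W) := by
  have := hμ.prob
  have hW : Measurable W := hc.meas
  have hW0 : ∀ s, 0 ≤ W s := hc.nonneg
  have hW1 : ∀ s, W s ≤ 1 := hc.le_one
  have hm0 : 0 ≤ mass μ W := mass_nonneg hW0
  by_cases hbig : π₀ ≤ mass μ W * 2 ^ d
  · have hpos : 0 < mass μ W := by
      rcases hm0.eq_or_lt with h | h
      · rw [← h] at hbig
        simp at hbig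
        linarith
      · exact h
    refine ⟨[⟨W, D, z⟩], ?_, ?_, ?_⟩
    · intro c' hc'
      rw [List.mem_singleton] at hc'
      subst hc'
      refine { toSub := hc, pos := hpos, reg := ?_ }
      intro l k
      show ∫ s in cellSet d (D + l) k, W s ∂μ ≤ mass μ W * (2:ℝ) ^ (d + 2) / (2:ℝ) ^ (8 * j * l)
      rcases Nat.eq_zero_or_pos l with rfl | hl
      · have h1 : ∫ s in cellSet d (D + 0) k, W s ∂μ ≤ mass μ W :=
          setIntegral_le_integral (integrable_of_bdd hW hW0 hW1)
            (Filter.Eventually.of_forall hW0)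
        have h2 : mass μ W ≤ mass μ W * (2:ℝ) ^ (d + 2) / (2:ℝ) ^ (8 * j * 0) := by
          simp only [mul_zero, pow_zero, div_one]
          have : (1:ℝ) ≤ 2 ^ (d + 2) := one_le_pow₀ (by norm_num)
          nlinarith
        exact h1.trans h2
      · refine (hno l k hl).trans ?_
        rw [pow_add]
        apply div_le_div_of_nonneg_right _ (by positivity)
        nlinarith
    · intro s
      simp
    · simp
      linarith
  · push Not at hbig
    refine ⟨[], by simp, ?_, ?_⟩
    · intro s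
      simpa using hW0 s
    · simp only [List.map_nil, List.sum_nil, sub_zero, zero_add]
      have h0 := pot_nonneg hμ hd ⟨W, D, z⟩ hc
      simp only at h0
      have h4 := two_pow_sub_two (d := d) (by omega)
      have h5 : (16:ℝ) ≤ 2 ^ d := by
        calc (16:ℝ) = 2 ^ 4 := by norm_num
          _ ≤ 2 ^ d := pow_le_pow_right₀ (by norm_num) (by omega)
      have hdw : 0 ≤ deadWeight d := by unfold deadWeight; positivity
      have h6 : 4 * (deadWeight d * mass μ W) < π₀ := by
        calc 4 * (deadWeight d * mass μ W) = mass μ W * (4 * deadWeight d) := by ring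
          _ = mass μ W * 2 ^ d := by rw [h4]
          _ < π₀ := hbig
      have h7 : 16 * mass μ W ≤ π₀ := by nlinarith
      nlinarith

/-- The loop at fixed depth: heavy cells are split off one at a time. -/
theorem peel_inner {μ : Measure (Vec d)} (hμ : Prior μ) {j : ℕ} (hd : 8 * j + 4 ≤ d) {ζ : ℕ}
    (IH : ∀ ζ' < ζ, ∀ c : Comp d, c.Sub μ → omD d c.D ≤ mass μ c.w * 2 ^ ζ' → PeelConcl μ j c)
    {π₀ : ℝ} (hπ₀ : 0 < π₀) {D : ℕ} {z : Vec d} (hΩ : omD d D ≤ π₀ * 2 ^ ζ) (n : ℕ) :
    ∀ W : Vec d → ℝ, (Comp.mk W D z).Sub μ → mass μ W ≤ π₀ →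
      mass μ W ≤ n * (π₀ / 2 ^ (8 * j * ζ)) →
      ∃ L : List (Comp d), (∀ c' ∈ L, c'.Alive μ j) ∧
        (∀ s, (L.map (fun c' => c'.w s)).sum ≤ W s) ∧
        (L.map (fun c' => Pot μ j c'.w c'.D)).sum
          + deadWeight d * (mass μ W - (L.map (fun c' => mass μ c'.w)).sum)
          ≤ Pot μ j W D + (1 / 3) * (π₀ - mass μ W) := by
  have := hμ.prob
  induction n with
  | zero =>
    intro W hc hle hn
    refine peel_base hμ hd hπ₀ hc hle ?_
    intro l k _
    have h1 : ∫ s in cellSet d (D + l) k, W s ∂μ ≤ mass μ W :=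
      setIntegral_le_integral (integrable_of_bdd hc.meas hc.nonneg hc.le_one)
        (Filter.Eventually.of_forall hc.nonneg)
    simp only [Nat.cast_zero, zero_mul] at hn
    have h2 : (0:ℝ) ≤ π₀ * 4 / 2 ^ (8 * j * l) := by positivity
    linarith
  | succ n ih =>
    intro W hc hle hn
    have hW : Measurable W := hc.meas
    have hW0 : ∀ s, 0 ≤ W s := hc.nonneg
    have hW1 : ∀ s, W s ≤ 1 := hc.le_one
    by_cases hheavy : ∀ l k, 1 ≤ l → ∫ s in cellSet d (D + l) k, W s ∂μ ≤ π₀ * 4 / 2 ^ (8 * j * l)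
    · exact peel_base hμ hd hπ₀ hc hle hheavy
    · push Not at hheavy
      obtain ⟨l, k, hl, hQheavy⟩ := hheavy
      set Q := cellSet d (D + l) k with hQdef
      have hQ : MeasurableSet Q := measurableSet_cellSet (D + l) k
      have hqeq : mass μ (piece Q W) = ∫ s in Q, W s ∂μ := mass_piece hQ W
      rw [← hqeq] at hQheavy
      set q := mass μ (piece Q W) with hq
      have hthr : 0 < π₀ * 4 / 2 ^ (8 * j * l) := by positivity
      have hq0 : 0 < q := lt_trans hthr hQheavy
      -- the cell is nonempty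
      have hne : Q.Nonempty := by
        by_contra hemp
        rw [Set.not_nonempty_iff_eq_empty] at hemp
        rw [hqeq, hemp] at hq0
        simp at hq0
      obtain ⟨z', hz'⟩ := hne
      -- the cell lies in a ball
      have hcellball : Q ⊆ closedBall z' (rad (D + l)) := by
        intro s hs
        rw [mem_closedBall]
        exact dist_le_of_cellIdx_eq (hs.trans hz'.symm)
      have hqle : q ≤ omD d (D + l) := by
        have hμreal : μ.real (closedBall z' (rad (D + l))) ≤ omD d (D + l) := by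
          have h1 := hμ.ball z' (rad (D + l)) (rad_pos' _)
          have h2 : 0 ≤ omD d (D + l) := (omD_pos _ _).le
          unfold Measure.real
          exact ENNReal.toReal_le_of_le_ofReal h2 h1
        rw [hqeq]
        calc ∫ s in Q, W s ∂μ ≤ ∫ _ in Q, (1:ℝ) ∂μ := by
              apply setIntegral_mono_on
              · exact (integrable_of_bdd hW hW0 hW1).integrableOn
              · exact integrable_const _
              · exact hQ
              · intro s _
                exact hW1 s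
          _ = μ.real Q := by simp
          _ ≤ μ.real (closedBall z' (rad (D + l))) := measureReal_mono hcellball
          _ ≤ omD d (D + l) := hμreal
      -- depth bound
      have hpow0 : (0:ℝ) < 2 ^ (8 * j * l) := by positivity
      have hq1 : π₀ * 4 < q * 2 ^ (8 * j * l) := by
        rwa [div_lt_iff₀ hpow0] at hQheavy
      have hom := omD_add d D l
      have hd1 : 8 * j + 3 ≤ d - 1 := by omega
      have hexp : 2 + (d - 1) * l < ζ + 8 * j * l := by
        have h1 : π₀ * 4 * 2 ^ ((d - 1) * l) < π₀ * (2 ^ ζ * 2 ^ (8 * j * l)) := by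
          have h2 : q * 2 ^ ((d - 1) * l) ≤ π₀ * 2 ^ ζ := by
            calc q * 2 ^ ((d - 1) * l) ≤ omD d (D + l) * 2 ^ ((d - 1) * l) :=
                  mul_le_mul_of_nonneg_right hqle (by positivity)
              _ = omD d D := hom
              _ ≤ π₀ * 2 ^ ζ := hΩ
          calc π₀ * 4 * 2 ^ ((d - 1) * l)
              < q * 2 ^ (8 * j * l) * 2 ^ ((d - 1) * l) :=
                mul_lt_mul_of_pos_right hq1 (by positivity)
            _ = (q * 2 ^ ((d - 1) * l)) * 2 ^ (8 * j * l) := by ring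
            _ ≤ (π₀ * 2 ^ ζ) * 2 ^ (8 * j * l) :=
                mul_le_mul_of_nonneg_right h2 hpow0.le
            _ = π₀ * (2 ^ ζ * 2 ^ (8 * j * l)) := by ring
        have h3 : (4:ℝ) * 2 ^ ((d - 1) * l) < 2 ^ ζ * 2 ^ (8 * j * l) := by
          have h1' : π₀ * (4 * 2 ^ ((d - 1) * l)) < π₀ * (2 ^ ζ * 2 ^ (8 * j * l)) := by
            rw [← mul_assoc]
            exact h1
          exact lt_of_mul_lt_mul_left h1' hπ₀.le
        have h4 : (2:ℝ) ^ (2 + (d - 1) * l) < 2 ^ (ζ + 8 * j * l) := by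
          rw [pow_add, pow_add]
          norm_num
          exact h3
        exact (pow_lt_pow_iff_right₀ (by norm_num : (1:ℝ) < 2)).1 h4
      have hl3 : (d - 1) * l ≥ (8 * j + 3) * l := Nat.mul_le_mul_right l hd1
      have hlζ : l < ζ := by
        have : (8 * j + 3) * l = 8 * j * l + 3 * l := by ring
        omega
      -- mass decrement
      have hδ : π₀ / 2 ^ (8 * j * ζ) ≤ π₀ * 4 / 2 ^ (8 * j * l) := by
        have h1 : (2:ℝ) ^ (8 * j * l) ≤ 2 ^ (8 * j * ζ) :=
          pow_le_pow_right₀ (by norm_num) (Nat.mul_le_mul_left _ hlζ.le)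
        calc π₀ / 2 ^ (8 * j * ζ) ≤ π₀ / 2 ^ (8 * j * l) :=
              div_le_div_of_nonneg_left hπ₀.le hpow0 h1
          _ ≤ π₀ * 4 / 2 ^ (8 * j * l) := by
              apply div_le_div_of_nonneg_right _ hpow0.le
              linarith
      -- recursion on the heavy cell
      set ζ' := ζ + 8 * j * l - (d - 1) * l - 2 with hζ'
      have hζ'lt : ζ' < ζ := by
        have : (8 * j + 3) * l = 8 * j * l + 3 * l := by ring
        omega
      have hcQ : (Comp.mk (piece Q W) (D + l) z').Sub μ :=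
        { meas := measurable_piece hQ hW
          nonneg := piece_nonneg Q hW0
          le_one := piece_le_one Q hW0 hW1
          supp := by
            intro s hs
            apply hcellball
            by_contra hsQ
            apply hs
            show W s * Q.indicator (fun _ => (1:ℝ)) s = 0
            simp [hsQ] }
      have hΩQ : omD d (D + l) ≤ q * 2 ^ ζ' := by
        have hexp2 : ζ' + (d - 1) * l + 2 = ζ + 8 * j * l := by omega
        have h1 : (2:ℝ) ^ ζ' * 2 ^ ((d - 1) * l) * 4 = 2 ^ ζ * 2 ^ (8 * j * l) := by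
          have := congrArg (fun n : ℕ => (2:ℝ) ^ n) hexp2
          simp only [pow_add] at this
          norm_num at this
          exact this
        have h2 : 0 < (2:ℝ) ^ ((d - 1) * l) := by positivity
        have h3 : omD d (D + l) * 2 ^ ((d - 1) * l) ≤ q * 2 ^ ζ' * 2 ^ ((d - 1) * l) := by
          rw [hom]
          have h4 : π₀ * 2 ^ ζ * 4 ≤ q * 2 ^ ζ' * 2 ^ ((d - 1) * l) * 4 := by
            calc π₀ * 2 ^ ζ * 4 = (π₀ * 4) * 2 ^ ζ := by ring
              _ ≤ (q * 2 ^ (8 * j * l)) * 2 ^ ζ :=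
                  mul_le_mul_of_nonneg_right hq1.le (by positivity)
              _ = q * (2 ^ ζ * 2 ^ (8 * j * l)) := by ring
              _ = q * ((2:ℝ) ^ ζ' * 2 ^ ((d - 1) * l) * 4) := by rw [h1]
              _ = q * 2 ^ ζ' * 2 ^ ((d - 1) * l) * 4 := by ring
          linarith
        exact le_of_mul_le_mul_right h3 h2
      obtain ⟨LQ, hLQ1, hLQ2, hLQ3⟩ := IH ζ' hζ'lt ⟨piece Q W, D + l, z'⟩ hcQ hΩQ
      simp only at hLQ2 hLQ3
      -- recursion on the remainder
      have hadd : q + mass μ (piece Qᶜ W) = mass μ W := mass_piece_add hW hW0 hW1 hQ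
      have hcR : (Comp.mk (piece Qᶜ W) D z).Sub μ :=
        { meas := measurable_piece hQ.compl hW
          nonneg := piece_nonneg Qᶜ hW0
          le_one := piece_le_one Qᶜ hW0 hW1
          supp := by
            intro s hs
            apply hc.supp
            intro h0
            apply hs
            show W s * Qᶜ.indicator (fun _ => (1:ℝ)) s = 0
            simp only at h0
            rw [h0, zero_mul] }
      have hrle : mass μ (piece Qᶜ W) ≤ π₀ := by linarith
      have hrn : mass μ (piece Qᶜ W) ≤ n * (π₀ / 2 ^ (8 * j * ζ)) := by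
        push_cast at hn
        nlinarith
      obtain ⟨LR, hLR1, hLR2, hLR3⟩ := ih (piece Qᶜ W) hcR hrle hrn
      have hsplit := pot_split_le (μ := μ) hW hW0 hW1 hQ j D l hπ₀ hle hQheavy
      refine ⟨LQ ++ LR, ?_, ?_, ?_⟩
      · intro c' hc'
        rcases List.mem_append.1 hc' with h | h
        · exact hLQ1 c' h
        · exact hLR1 c' h
      · intro s
        simp only [List.map_append, List.sum_append]
        have h1 := hLQ2 s
        have h2 := hLR2 s
        have h3 : piece Q W s + piece Qᶜ W s = W s := by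
          unfold piece
          by_cases h : s ∈ Q <;> simp [h]
        linarith
      · simp only [List.map_append, List.sum_append]
        set SQ := (LQ.map (fun c' => Pot μ j c'.w c'.D)).sum
        set SR := (LR.map (fun c' => Pot μ j c'.w c'.D)).sum
        set MQ := (LQ.map (fun c' => mass μ c'.w)).sum
        set MR := (LR.map (fun c' => mass μ c'.w)).sum
        have hcomb : deadWeight d * (mass μ W - (MQ + MR))
            = deadWeight d * (q - MQ) + deadWeight d * (mass μ (piece Qᶜ W) - MR) := by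
          rw [← hadd]
          ring
        rw [hcomb]
        linarith

/-- Peeling with a quantitative parameter, by strong induction. -/
theorem peel_aux {μ : Measure (Vec d)} (hμ : Prior μ) {j : ℕ} (hd : 8 * j + 4 ≤ d) (ζ : ℕ) :
    ∀ c : Comp d, c.Sub μ → omD d c.D ≤ mass μ c.w * 2 ^ ζ → PeelConcl μ j c := by
  induction ζ using Nat.strong_induction_on with
  | _ ζ IH =>
    intro c hc hΩ
    have hpos : 0 < mass μ c.w := by
      have h1 := omD_pos d c.D
      have h2 : 0 < mass μ c.w * 2 ^ ζ := lt_of_lt_of_le h1 hΩ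
      exact (pos_iff_pos_of_mul_pos h2).2 (by positivity)
    obtain ⟨n, hn⟩ := exists_nat_ge (mass μ c.w / (mass μ c.w / 2 ^ (8 * j * ζ)))
    have hδ : 0 < mass μ c.w / 2 ^ (8 * j * ζ) := by positivity
    have hn' : mass μ c.w ≤ n * (mass μ c.w / 2 ^ (8 * j * ζ)) := by
      rwa [div_le_iff₀ hδ] at hn
    have hc' : (Comp.mk c.w c.D c.z).Sub μ := hc
    obtain ⟨L, h1, h2, h3⟩ := peel_inner hμ hd IH hpos hΩ n c.w hc' le_rfl hn'
    refine ⟨L, h1, h2, ?_⟩
    simpa using h3

/-- `peel`: decomposition of a sub-density into alive components -/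
theorem peel {μ : Measure (Vec d)} (hμ : Prior μ) {j : ℕ} (hd : 8 * j + 4 ≤ d) (hj : 1 ≤ j)
    (c : Comp d) (hc : c.Sub μ) :
    ∃ L : List (Comp d), (∀ c' ∈ L, c'.Alive μ j) ∧
      (∀ s, (L.map (fun c' => c'.w s)).sum ≤ c.w s) ∧
      (L.map (fun c' => Pot μ j c'.w c'.D)).sum
        + deadWeight d * (mass μ c.w - (L.map (fun c' => mass μ c'.w)).sum) ≤ Pot μ j c.w c.D := by
  have hm0 : 0 ≤ mass μ c.w := mass_nonneg hc.nonneg
  rcases hm0.eq_or_lt with h0 | hpos
  · refine ⟨[], by simp, ?_, ?_⟩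
    · intro s
      simpa using hc.nonneg s
    · simp only [List.map_nil, List.sum_nil, sub_zero, zero_add]
      rw [← h0, mul_zero]
      exact pot_nonneg hμ hd c hc
  · obtain ⟨ζ, hζ⟩ := pow_unbounded_of_one_lt (omD d c.D / mass μ c.w) (by norm_num : (1:ℝ) < 2)
    have h1 : omD d c.D ≤ mass μ c.w * 2 ^ ζ := by
      rw [div_lt_iff₀ hpos] at hζ
      linarith
    exact peel_aux hμ hd ζ c hc h1

end Vale.Agent.Lib.P309
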