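import Vale.Agent.Lib.P309.Block
import Vale.Agent.Lib.P309.Peel

open MeasureTheory ProbabilityTheory Metric Set
open scoped RealInnerProductSpace ENNReal

namespace Vale.Agent.Lib.P309

variable {d : ℕ}

/-! ### generic list sums -/

theorem list_sum_map_flatMap {α β : Type*} (L : List α) (g : α → List β) (F : β → ℝ) :
    ((L.flatMap g).map F).sum = (L.map fun a => ((g a).map F).sum).sum := by
  induction L with
  | nil => simp
  | cons a L ih => simp [List.flatMap_cons, List.sum_append, ih]

theorem list_sum_le_sum {α : Type*} {L : List α} {F G : α → ℝ} (h : ∀ a ∈ L, F a ≤ G a) :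
    (L.map F).sum ≤ (L.map G).sum := by
  exact List.sum_le_sum h

theorem list_sum_finset {α ι : Type*} (L : List α) (s : Finset ι) (F : α → ι → ℝ) :
    (L.map fun a => ∑ i ∈ s, F a i).sum = ∑ i ∈ s, (L.map fun a => F a i).sum := by
  induction L with
  | nil => simp
  | cons a L ih => simp [ih, Finset.sum_add_distrib]

theorem list_sum_mul_const {α : Type*} (L : List α) (F : α → ℝ) (r : ℝ) :
    (L.map fun a => F a * r).sum = (L.map F).sum * r := by
  induction L with
  | nil => simp
  | cons a L ih => simp [ih, add_mul]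

theorem list_sum_add {α : Type*} (L : List α) (F G : α → ℝ) :
    (L.map fun a => F a + G a).sum = (L.map F).sum + (L.map G).sum := by
  induction L with
  | nil => simp
  | cons a L ih => simp [ih]; ring

theorem list_sum_const_mul {α : Type*} (L : List α) (F : α → ℝ) (r : ℝ) :
    (L.map fun a => r * F a).sum = r * (L.map F).sum := by
  induction L with
  | nil => simp
  | cons a L ih => simp [ih, mul_add]

theorem list_sum_combo {α : Type*} (L : List α) (a m b : α → ℝ) (A θ : ℝ) :
    (L.map fun c => a c + A * (m c * (1 - θ) - b c)).sum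
      = (L.map a).sum + A * ((L.map m).sum * (1 - θ) - (L.map b).sum) := by
  induction L with
  | nil => simp
  | cons x L ih => simp [ih]; ring

theorem list_sum_sub {α : Type*} (L : List α) (F G : α → ℝ) :
    (L.map fun a => F a - G a).sum = (L.map F).sum - (L.map G).sum := by
  induction L with
  | nil => simp
  | cons a L ih => simp [ih]; ring

theorem list_sum_nonneg {α : Type*} {L : List α} {F : α → ℝ} (h : ∀ a ∈ L, 0 ≤ F a) :
    0 ≤ (L.map F).sum := by
  apply List.sum_nonneg
  intro x hx
  obtain ⟨a, ha, rfl⟩ := List.mem_map.1 hx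
  exact h a ha

/-! ### integrability of sub-densities -/

theorem Comp.Sub.integrable {c : Comp d} {μ : Measure (Vec d)} [IsFiniteMeasure μ] (h : c.Sub μ) :
    Integrable c.w μ := by
  refine Integrable.of_bound (C := 1) h.meas.aestronglyMeasurable (Filter.Eventually.of_forall ?_)
  intro s
  rw [Real.norm_eq_abs, abs_of_nonneg (h.nonneg s)]
  exact h.le_one s

theorem list_mass_eq {μ : Measure (Vec d)} [IsFiniteMeasure μ] {L : List (Comp d)}
    (h : ∀ c ∈ L, c.Sub μ) :
    (L.map fun c => mass μ c.w).sum = ∫ s, (L.map fun c => c.w s).sum ∂μ := by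
  induction L with
  | nil => simp
  | cons a L ih =>
    have h1 : Integrable a.w μ := (h a (by simp)).integrable
    have h2 : Integrable (fun s => (L.map fun c => c.w s).sum) μ := by
      clear ih
      induction L with
      | nil => simp
      | cons b L ih2 =>
        simp only [List.map_cons, List.sum_cons]
        exact (h b (by simp)).integrable.add (ih2 (fun c hc => h c (by
          simp only [List.mem_cons] at hc ⊢
          tauto)))
    simp only [List.map_cons, List.sum_cons]
    rw [integral_add h1 h2, ih (fun c hc => h c (List.mem_cons_of_mem _ hc))]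
    rfl

section chain

variable {σ : Type} [Fintype σ] [DecidableEq σ] {j : ℕ}

/-- Law of the state after `e` blocks, given the signal. -/
noncomputable def uLaw (init : σ) (f : ℕ → σ → Zsp d j → σ) : ℕ → σ → Vec d → ℝ
  | 0, m, _ => if m = init then 1 else 0
  | e + 1, a, s => ∑ m, uLaw init f e m s * (chan d j (f e m ⁻¹' {a}) s).toReal

theorem uLaw_nonneg (init : σ) (f : ℕ → σ → Zsp d j → σ) (e : ℕ) (m : σ) (s : Vec d) :
    0 ≤ uLaw init f e m s := by
  induction e generalizing m with
  | zero =>
    simp only [uLaw]
    split_ifs <;> norm_num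
  | succ e ih =>
    simp only [uLaw]
    exact Finset.sum_nonneg fun b _ => mul_nonneg (ih b) ENNReal.toReal_nonneg

theorem uLaw_sum (init : σ) (f : ℕ → σ → Zsp d j → σ) (hf : ∀ e m a, MeasurableSet (f e m ⁻¹' {a}))
    (e : ℕ) (s : Vec d) : ∑ m, uLaw init f e m s = 1 := by
  induction e with
  | zero => simp [uLaw]
  | succ e ih =>
    simp only [uLaw]
    rw [Finset.sum_comm]
    simp_rw [← Finset.mul_sum]
    simp_rw [sum_chan _ (hf e _)]
    simpa using ih

noncomputable def potL (μ : Measure (Vec d)) (j : ℕ) (L : List (σ × Comp d)) : ℝ :=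
  (L.map fun c => Pot μ j c.2.w c.2.D).sum

noncomputable def massL (μ : Measure (Vec d)) (L : List (σ × Comp d)) : ℝ :=
  (L.map fun c => mass μ c.2.w).sum

theorem deadWeight_nonneg (d : ℕ) : 0 ≤ deadWeight d := by
  unfold deadWeight; positivity

theorem massL_le_one {μ : Measure (Vec d)} (hμ : Prior μ)
    (init : σ) (f : ℕ → σ → Zsp d j → σ) (hf : ∀ e m a, MeasurableSet (f e m ⁻¹' {a})) (e : ℕ)
    {L : List (σ × Comp d)} (hL : ∀ c ∈ L, c.2.Sub μ)
    (hdom : ∀ m s, (L.map (fun c => if c.1 = m then c.2.w s else 0)).sum ≤ uLaw init f e m s) :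
    massL μ L ≤ 1 := by
  have := hμ.prob
  have h1 : massL μ L = ∫ s, ((L.map Prod.snd).map fun c => c.w s).sum ∂μ := by
    have := list_mass_eq (μ := μ) (L := L.map Prod.snd) (by
      intro c hc
      obtain ⟨a, ha, rfl⟩ := List.mem_map.1 hc
      exact hL a ha)
    simpa [massL, List.map_map, Function.comp_def] using this
  rw [h1]
  have h2 : ∀ s, ((L.map Prod.snd).map fun c => c.w s).sum ≤ 1 := by
    intro s
    have h3 : ((L.map Prod.snd).map fun c => c.w s).sum
        = ∑ m, (L.map (fun c => if c.1 = m then c.2.w s else 0)).sum := by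
      rw [← list_sum_finset]
      simp [List.map_map, Function.comp_def]
    rw [h3, ← uLaw_sum init f hf e s]
    exact Finset.sum_le_sum fun m _ => hdom m s
  calc ∫ s, ((L.map Prod.snd).map fun c => c.w s).sum ∂μ ≤ ∫ _, (1:ℝ) ∂μ := by
        apply integral_mono_of_nonneg
        · exact Filter.Eventually.of_forall fun s => list_sum_nonneg (fun c hc => by
            obtain ⟨a, ha, rfl⟩ := List.mem_map.1 hc
            exact (hL a ha).nonneg s)
        · exact integrable_const _
        · exact Filter.Eventually.of_forall h2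
    _ = 1 := by simp

/-- The root component: the whole prior at depth zero. -/
noncomputable def rootComp (d : ℕ) : Comp d where
  w := fun s => Set.indicator (closedBall (0 : Vec d) 1) (fun _ => (1:ℝ)) s
  D := 0
  z := 0

theorem rootComp_sub {μ : Measure (Vec d)} : (rootComp d).Sub μ where
  meas := measurable_const.indicator measurableSet_closedBall
  nonneg := fun s => Set.indicator_nonneg (fun _ _ => zero_le_one) s
  le_one := fun s => by
    simp only [rootComp, Set.indicator]
    split_ifs <;> norm_num
  supp := fun s hs => by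
    simp only [rootComp, rad, pow_zero] at hs ⊢
    by_contra h
    exact hs (Set.indicator_of_notMem h _)

theorem rootComp_mass {μ : Measure (Vec d)} (hμ : Prior μ) : mass μ (rootComp d).w = 1 := by
  have := hμ.prob
  have h1 : μ (closedBall (0 : Vec d) 1) = 1 := by
    have := prob_compl_eq_one_sub (μ := μ) (s := closedBall (0 : Vec d) 1) measurableSet_closedBall
    rw [hμ.norm_le] at this
    have h2 := prob_le_one (μ := μ) (s := closedBall (0 : Vec d) 1)
    have h3 : (1 : ℝ≥0∞) ≤ μ (closedBall (0 : Vec d) 1) := by
      rw [eq_comm, tsub_eq_zero_iff_le] at this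
      exact this
    exact le_antisymm h2 h3
  simp only [mass, rootComp]
  rw [integral_indicator measurableSet_closedBall]
  simp [Measure.real, h1]

theorem rootComp_pot {μ : Measure (Vec d)} (hμ : Prior μ) (j : ℕ) :
    Pot μ j (rootComp d).w (rootComp d).D = bC d := by
  have h1 : ∀ s, (rootComp d).w s * Real.log ((rootComp d).w s) = 0 := by
    intro s
    simp only [rootComp, Set.indicator]
    split_ifs <;> simp
  simp only [Pot, rootComp_mass hμ, h1]
  simp [rootComp]

/-- main invariant -/
theorem chain_main {μ : Measure (Vec d)} (hμ : Prior μ) {ℓ₀ : ℕ} (hp : GoodParams d j ℓ₀)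
    (init : σ) (f : ℕ → σ → Zsp d j → σ) (hf : ∀ e m a, MeasurableSet (f e m ⁻¹' {a})) (e : ℕ) :
    ∃ (L : List (σ × Comp d)) (x : ℝ), (∀ c ∈ L, c.2.Alive μ j) ∧
      (∀ m s, (L.map (fun c => if c.1 = m then c.2.w s else 0)).sum ≤ uLaw init f e m s) ∧
      0 ≤ x ∧
      potL μ j L + deadWeight d * x ≤ bC d + e * gainC j ℓ₀ (Real.log (Fintype.card σ)) ∧
      1 - massL μ L ≤ x + e * (2 * Real.exp (-(j:ℝ))) := by
  have := hμ.prob
  have hd : 8 * j + 4 ≤ d := hp.2.1
  have hj : 1 ≤ j := by have := hp.1; omega
  have hsumle : ∀ (L' : List (Comp d)) (c : Comp d), (∀ c' ∈ L', c'.Sub μ) → c.Sub μ →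
      (∀ s, (L'.map (fun c' => c'.w s)).sum ≤ c.w s) →
      (L'.map fun c' => mass μ c'.w).sum ≤ mass μ c.w := by
    intro L' c h1 h2 h3
    rw [list_mass_eq h1]
    apply integral_mono_of_nonneg
    · exact Filter.Eventually.of_forall fun s => list_sum_nonneg (fun c hc => (h1 c hc).nonneg s)
    · exact h2.integrable
    · exact Filter.Eventually.of_forall h3
  induction e with
  | zero =>
    obtain ⟨L, hL1, hL2, hL3⟩ := peel hμ hd hj (rootComp d) rootComp_sub
    refine ⟨L.map (fun c => (init, c)), mass μ (rootComp d).w - (L.map (fun c' => mass μ c'.w)).sum,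
      ?_, ?_, ?_, ?_, ?_⟩
    · intro c hc
      obtain ⟨c', hc', rfl⟩ := List.mem_map.1 hc
      exact hL1 c' hc'
    · intro m s
      simp only [List.map_map, Function.comp_def, uLaw]
      by_cases hm : init = m
      · subst hm
        simp only [if_true]
        have := hL2 s
        refine this.trans ?_
        exact (rootComp_sub (μ := μ)).le_one s
      · have : ∀ c : Comp d, (if init = m then c.w s else 0) = 0 := fun c => if_neg hm
        simp [hm, Ne.symm hm]
    · exact sub_nonneg.2 (hsumle L _ (fun c hc => (hL1 c hc).toSub) rootComp_sub hL2)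
    · simp only [potL, List.map_map, Function.comp_def]
      rw [rootComp_pot hμ] at hL3
      simpa using hL3
    · simp only [massL, List.map_map, Function.comp_def]
      rw [rootComp_mass hμ]
      simp
  | succ e ih =>
    obtain ⟨L, x, hL1, hL2, hx0, hL3, hL4⟩ := ih
    have hsub : ∀ c ∈ L, c.2.Sub μ := fun c hc => (hL1 c hc).toSub
    classical
    -- the good sets
    have hσ : Nonempty σ := ⟨init⟩
    have hG : ∀ c : σ × Comp d, ∃ G : Set (Zsp d j), c ∈ L → (MeasurableSet G ∧
        mass μ c.2.w * (1 - 2 * Real.exp (-(j:ℝ))) ≤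
          ∑ a, mass μ (fun s => c.2.w s * (chan d j (f e c.1 ⁻¹' {a} ∩ G) s).toReal) ∧
        ∑ a, Pot μ j (fun s => c.2.w s * (chan d j (f e c.1 ⁻¹' {a} ∩ G) s).toReal) c.2.D
          ≤ Pot μ j c.2.w c.2.D + mass μ c.2.w * gainC j ℓ₀ (Real.log (Fintype.card σ))) := by
      intro c
      by_cases hc : c ∈ L
      · obtain ⟨G, hG⟩ := block_gain hμ hp hσ (f e c.1) (hf e c.1) c.2 (hL1 c hc)
        exact ⟨G, fun _ => hG⟩
      · exact ⟨univ, fun h => absurd h hc⟩
    choose G hG using hG
    -- the children
    let child : σ × Comp d → σ → Comp d := fun c a =>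
      ⟨fun s => c.2.w s * (chan d j (f e c.1 ⁻¹' {a} ∩ G c) s).toReal, c.2.D, c.2.z⟩
    have hchild : ∀ c ∈ L, ∀ a, (child c a).Sub μ := by
      intro c hc a
      obtain ⟨hG1, -, -⟩ := hG c hc
      have hA : MeasurableSet (f e c.1 ⁻¹' {a} ∩ G c) := (hf e c.1 a).inter hG1
      have hle : ∀ s, (chan d j (f e c.1 ⁻¹' {a} ∩ G c) s).toReal ≤ 1 := fun s =>
        ENNReal.toReal_le_of_le_ofReal zero_le_one (by simpa using chan_le_one _ s)
      refine ⟨?_, ?_, ?_, ?_⟩
      · exact (hsub c hc).meas.mul (measurable_chan hA).ennreal_toReal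
      · exact fun s => mul_nonneg ((hsub c hc).nonneg s) ENNReal.toReal_nonneg
      · intro s
        exact mul_le_one₀ ((hsub c hc).le_one s) ENNReal.toReal_nonneg (hle s)
      · intro s hs
        exact (hsub c hc).supp s (left_ne_zero_of_mul hs)
    have hpeel : ∀ (c : σ × Comp d) (a : σ), ∃ L' : List (Comp d), c ∈ L → ((∀ c' ∈ L', c'.Alive μ j) ∧
        (∀ s, (L'.map (fun c' => c'.w s)).sum ≤ (child c a).w s) ∧
        (L'.map (fun c' => Pot μ j c'.w c'.D)).sum
          + deadWeight d * (mass μ (child c a).w - (L'.map (fun c' => mass μ c'.w)).sum)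
            ≤ Pot μ j (child c a).w (child c a).D) := by
      intro c a
      by_cases hc : c ∈ L
      · obtain ⟨L', hL'⟩ := peel hμ hd hj (child c a) (hchild c hc a)
        exact ⟨L', fun _ => hL'⟩
      · exact ⟨[], fun h => absurd h hc⟩
    choose P hP using hpeel
    let univL : List σ := Finset.univ.toList
    let gc : σ × Comp d → List (σ × Comp d) := fun c =>
      univL.flatMap fun a => (P c a).map fun c' => (a, c')
    have e1 : ∀ c, ((gc c).map fun c' => Pot μ j c'.2.w c'.2.D).sum
        = ∑ a, ((P c a).map fun c' => Pot μ j c'.w c'.D).sum := by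
      intro c
      simp only [gc]
      rw [list_sum_map_flatMap]
      simp only [List.map_map, Function.comp_def, univL]
      exact Finset.sum_map_toList _ _
    have e2 : ∀ c, ((gc c).map fun c' => mass μ c'.2.w).sum
        = ∑ a, ((P c a).map fun c' => mass μ c'.w).sum := by
      intro c
      simp only [gc]
      rw [list_sum_map_flatMap]
      simp only [List.map_map, Function.comp_def, univL]
      exact Finset.sum_map_toList _ _
    -- the new peel-dead mass
    let xc : σ × Comp d → ℝ := fun c =>
      ∑ a, (mass μ (child c a).w - ((P c a).map fun c' => mass μ c'.w).sum)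
    have hxc0 : ∀ c ∈ L, 0 ≤ xc c := by
      intro c hc
      refine Finset.sum_nonneg fun a _ => sub_nonneg.2 ?_
      exact hsumle _ _ (fun c' hc' => ((hP c a hc).1 c' hc').toSub) (hchild c hc a) (hP c a hc).2.1
    refine ⟨L.flatMap gc, x + (L.map xc).sum, ?_, ?_, ?_, ?_, ?_⟩
    · intro c' hc'
      simp only [List.mem_flatMap, gc, List.mem_map] at hc'
      obtain ⟨c, hc, a, -, c'', hc'', rfl⟩ := hc'
      exact (hP c a hc).1 c'' hc''
    · intro m s
      rw [list_sum_map_flatMap]
      simp only [uLaw]
      have h1 : ∀ c ∈ L, ((gc c).map (fun c' => if c'.1 = m then c'.2.w s else 0)).sum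
          ≤ c.2.w s * (chan d j (f e c.1 ⁻¹' {m}) s).toReal := by
        intro c hc
        simp only [gc]
        rw [list_sum_map_flatMap]
        simp only [List.map_map, Function.comp_def, univL]
        rw [Finset.sum_map_toList]
        rw [Finset.sum_eq_single m]
        · simp only [if_true]
          refine ((hP c m hc).2.1 s).trans ?_
          simp only [child]
          apply mul_le_mul_of_nonneg_left _ ((hsub c hc).nonneg s)
          apply ENNReal.toReal_mono
          · exact ne_top_of_le_ne_top ENNReal.one_ne_top (chan_le_one _ s)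
          · exact chan_mono Set.inter_subset_left s
        · intro b _ hb
          simp [hb]
        · simp
      refine (list_sum_le_sum h1).trans ?_
      have h2 : (L.map fun c => c.2.w s * (chan d j (f e c.1 ⁻¹' {m}) s).toReal).sum
          = ∑ b, (L.map fun c => if c.1 = b then c.2.w s else 0).sum
              * (chan d j (f e b ⁻¹' {m}) s).toReal := by
        simp_rw [← list_sum_mul_const]
        rw [← list_sum_finset]
        congr 1
        apply List.map_congr_left
        intro c _
        rw [Finset.sum_eq_single c.1]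
        · simp
        · intro b _ hb
          simp [Ne.symm hb]
        · simp
      rw [h2]
      exact Finset.sum_le_sum fun b _ =>
        mul_le_mul_of_nonneg_right (hL2 b s) ENNReal.toReal_nonneg
    · exact add_nonneg hx0 (list_sum_nonneg hxc0)
    · -- potential
      set A := deadWeight d with hA
      set Δ := gainC j ℓ₀ (Real.log (Fintype.card σ)) with hΔ
      have hmass1 : massL μ L ≤ 1 := massL_le_one hμ init f hf e hsub hL2
      have hA0 : 0 ≤ A := deadWeight_nonneg d
      have hgain0 : 0 ≤ Δ := by
        rw [hΔ]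
        unfold gainC
        have hcard : 0 ≤ Real.log (Fintype.card σ) := by
          apply Real.log_nonneg
          exact_mod_cast Fintype.card_pos_iff.2 hσ
        have hlog2 : 0 ≤ Real.log 2 := by positivity
        positivity
      -- per component bound
      have h1 : ∀ c ∈ L, ((gc c).map fun c' => Pot μ j c'.2.w c'.2.D).sum + A * xc c
          ≤ Pot μ j c.2.w c.2.D + mass μ c.2.w * Δ := by
        intro c hc
        obtain ⟨-, hG2, hG3⟩ := hG c hc
        rw [e1]
        have e3 : ∑ a, (((P c a).map fun c' => Pot μ j c'.w c'.D).sum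
            + A * (mass μ (child c a).w - ((P c a).map fun c' => mass μ c'.w).sum))
            ≤ ∑ a, Pot μ j (child c a).w (child c a).D :=
          Finset.sum_le_sum fun a _ => (hP c a hc).2.2
        rw [Finset.sum_add_distrib, ← Finset.mul_sum] at e3
        exact e3.trans hG3
      have h2 := list_sum_le_sum h1
      have h2' : potL μ j (L.flatMap gc) + A * (L.map xc).sum ≤ potL μ j L + massL μ L * Δ := by
        have e5 := h2
        rw [list_sum_add, list_sum_add, list_sum_mul_const, list_sum_const_mul] at e5
        rw [← list_sum_map_flatMap (L := L) (g := gc)] at e5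
        exact e5
      push_cast
      have h4 : massL μ L * Δ ≤ Δ := by nlinarith
      nlinarith
    · -- mass
      set ϑ := 2 * Real.exp (-(j:ℝ)) with hϑ
      have hϑ0 : 0 ≤ ϑ := by positivity
      have hmass1 : massL μ L ≤ 1 := massL_le_one hμ init f hf e hsub hL2
      have h1 : ∀ c ∈ L, mass μ c.2.w * (1 - ϑ) - xc c ≤ ((gc c).map fun c' => mass μ c'.2.w).sum := by
        intro c hc
        obtain ⟨-, hG2, -⟩ := hG c hc
        rw [e2]
        simp only [xc]
        rw [Finset.sum_sub_distrib]
        have : mass μ c.2.w * (1 - ϑ) ≤ ∑ a, mass μ (child c a).w := hG2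
        linarith
      have h2 := list_sum_le_sum h1
      rw [list_sum_sub, list_sum_mul_const, ← list_sum_map_flatMap (L := L) (g := gc)] at h2
      change massL μ L * (1 - ϑ) - (L.map xc).sum ≤ massL μ (L.flatMap gc) at h2
      push_cast
      nlinarith

/-- The generic integral of a list sum. -/
theorem list_integral {α : Type*} {μ : Measure (Vec d)} {L : List α} {F : α → Vec d → ℝ}
    (h : ∀ a ∈ L, Integrable (F a) μ) :
    Integrable (fun s => (L.map fun a => F a s).sum) μ ∧
      ∫ s, (L.map fun a => F a s).sum ∂μ = (L.map fun a => ∫ s, F a s ∂μ).sum := by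
  induction L with
  | nil => simp
  | cons a L ih =>
    obtain ⟨h1, h2⟩ := ih (fun c hc => h c (List.mem_cons_of_mem _ hc))
    have h3 := h a (by simp)
    simp only [List.map_cons, List.sum_cons]
    exact ⟨h3.add h1, by rw [integral_add h3 h1, h2]⟩

/-- The final bound: a learner whose success is at least two thirds forces large potential. -/
theorem chain_bound {μ : Measure (Vec d)} (hμ : Prior μ) {ℓ₀ : ℕ} (hp : GoodParams d j ℓ₀)
    (init : σ) (f : ℕ → σ → Zsp d j → σ) (hf : ∀ e m a, MeasurableSet (f e m ⁻¹' {a})) (J : ℕ)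
    (out : σ → Vec d) {ε : ℝ} (hε : 0 < ε) (hε' : ε < 1 / 8)
    (hsucc : 2 / 3 ≤ ∫ s, ∑ m, uLaw init f J m s * Set.indicator (closedBall (out m) ε) (fun _ => (1:ℝ)) s ∂μ)
    (hδ : J * (2 * Real.exp (-(j:ℝ)))
      + (bC d + J * gainC j ℓ₀ (Real.log (Fintype.card σ))) / deadWeight d ≤ 1 / 12) :
    (((d:ℝ) - 1 - 8 * j) * Real.log (1 / (4 * ε)) / 2 - 2) / 4
      ≤ bC d + J * gainC j ℓ₀ (Real.log (Fintype.card σ)) := by
  have := hμ.prob
  have hd : 8 * j + 4 ≤ d := hp.2.1
  obtain ⟨L, x, hL1, hL2, hx0, hL3, hL4⟩ := chain_main hμ hp init f hf J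
  have hsub : ∀ c ∈ L, c.2.Sub μ := fun c hc => (hL1 c hc).toSub
  set K := ((d:ℝ) - 1 - 8 * j) * Real.log (1 / (4 * ε)) / 2 - 2 with hK
  set R := bC d + J * gainC j ℓ₀ (Real.log (Fintype.card σ)) with hR
  have hA : 0 < deadWeight d := by unfold deadWeight; positivity
  have hpot0 : 0 ≤ potL μ j L := list_sum_nonneg fun c hc => pot_nonneg hμ hd c.2 (hsub c hc)
  have hR0 : 0 ≤ R := by
    have : 0 ≤ deadWeight d * x := mul_nonneg hA.le hx0
    linarith
  by_cases hK0 : K ≤ 0
  · have : K / 4 ≤ 0 := by linarith
    linarith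
  push Not at hK0
  -- the dead mass is small
  have hx : x ≤ R / deadWeight d := by
    rw [le_div_iff₀ hA]
    nlinarith
  have hdead : 1 - massL μ L ≤ 1 / 12 := by
    have := hδ
    linarith
  -- per component
  have hcomp : ∀ c ∈ L, ∫ s in closedBall (out c.1) ε, c.2.w s ∂μ
      ≤ mass μ c.2.w / 2 + Pot μ j c.2.w c.2.D / (2 * K) := by
    intro c hc
    have hS := hsub c hc
    have hle : ∫ s in closedBall (out c.1) ε, c.2.w s ∂μ ≤ mass μ c.2.w := by
      apply setIntegral_le_integral hS.integrable
      exact Filter.Eventually.of_forall hS.nonneg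
    by_cases hbig : mass μ c.2.w ≤ 2 * ∫ s in closedBall (out c.1) ε, c.2.w s ∂μ
    · have h1 := pot_big hμ hd c.2 hS (out c.1) hε hε' hbig
      have h2 : mass μ c.2.w / 2 ≤ Pot μ j c.2.w c.2.D / (2 * K) := by
        rw [le_div_iff₀ (by positivity)]
        nlinarith
      linarith
    · push Not at hbig
      have h1 := pot_nonneg hμ hd c.2 hS
      have h2 : 0 ≤ Pot μ j c.2.w c.2.D / (2 * K) := by positivity
      linarith
  have hsum : (L.map fun c => ∫ s in closedBall (out c.1) ε, c.2.w s ∂μ).sum
      ≤ massL μ L / 2 + potL μ j L / (2 * K) := by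
    have := list_sum_le_sum hcomp
    rw [list_sum_add] at this
    have h3 : (L.map fun c => mass μ c.2.w / 2).sum = massL μ L / 2 := by
      simp only [div_eq_mul_inv, massL]
      exact list_sum_mul_const _ _ _
    have h4 : (L.map fun c => Pot μ j c.2.w c.2.D / (2 * K)).sum = potL μ j L / (2 * K) := by
      simp only [div_eq_mul_inv, potL]
      exact list_sum_mul_const _ _ _
    rw [h3, h4] at this
    exact this
  -- pointwise domination
  classical
  have hptw : ∀ s, ∑ m, uLaw init f J m s * Set.indicator (closedBall (out m) ε) (fun _ => (1:ℝ)) s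
      ≤ (L.map fun c => Set.indicator (closedBall (out c.1) ε) c.2.w s).sum + 1
        - (L.map fun c => c.2.w s).sum := by
    intro s
    have h1 : (L.map fun c => c.2.w s).sum = ∑ m, (L.map (fun c => if c.1 = m then c.2.w s else 0)).sum := by
      rw [← list_sum_finset]
      congr 1
      apply List.map_congr_left
      intro c _
      simp
    have h2 : (L.map fun c => Set.indicator (closedBall (out c.1) ε) c.2.w s).sum
        = ∑ m, (L.map (fun c => if c.1 = m then c.2.w s else 0)).sum
            * Set.indicator (closedBall (out m) ε) (fun _ => (1:ℝ)) s := by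
      simp_rw [← list_sum_mul_const]
      rw [← list_sum_finset]
      congr 1
      apply List.map_congr_left
      intro c _
      rw [Finset.sum_eq_single c.1]
      · simp only [if_true]
        simp only [Set.indicator]
        split_ifs <;> simp
      · intro b _ hb
        simp [Ne.symm hb]
      · simp
    rw [h1, h2]
    have h3 := uLaw_sum init f hf J s
    have key : ∑ m, uLaw init f J m s * Set.indicator (closedBall (out m) ε) (fun _ => (1:ℝ)) s
        ≤ ∑ m, ((L.map (fun c => if c.1 = m then c.2.w s else 0)).sum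
            * Set.indicator (closedBall (out m) ε) (fun _ => (1:ℝ)) s
          + (uLaw init f J m s - (L.map (fun c => if c.1 = m then c.2.w s else 0)).sum)) := by
      apply Finset.sum_le_sum
      intro m _
      have hv := hL2 m s
      have hi0 : 0 ≤ Set.indicator (closedBall (out m) ε) (fun _ => (1:ℝ)) s :=
        Set.indicator_nonneg (fun _ _ => zero_le_one) s
      have hi1 : Set.indicator (closedBall (out m) ε) (fun _ => (1:ℝ)) s ≤ 1 := by
        simp only [Set.indicator]
        split_ifs <;> norm_num
      nlinarith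
    rw [Finset.sum_add_distrib, Finset.sum_sub_distrib, h3] at key
    linarith
  -- integrate
  have hint1 : ∀ c ∈ L, Integrable (Set.indicator (closedBall (out c.1) ε) c.2.w) μ := fun c hc =>
    (hsub c hc).integrable.indicator measurableSet_closedBall
  have hint2 : ∀ c ∈ L, Integrable c.2.w μ := fun c hc => (hsub c hc).integrable
  obtain ⟨hI1, hI2⟩ := list_integral hint1
  obtain ⟨hI3, hI4⟩ := list_integral hint2
  have hmain : 2 / 3 ≤ massL μ L / 2 + potL μ j L / (2 * K) + 1 - massL μ L := by
    refine hsucc.trans ?_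
    have h5 : ∫ s, ∑ m, uLaw init f J m s * Set.indicator (closedBall (out m) ε) (fun _ => (1:ℝ)) s ∂μ
        ≤ ∫ s, ((L.map fun c => Set.indicator (closedBall (out c.1) ε) c.2.w s).sum + 1
          - (L.map fun c => c.2.w s).sum) ∂μ := by
      apply integral_mono_of_nonneg
      · refine Filter.Eventually.of_forall fun s => Finset.sum_nonneg fun m _ => ?_
        exact mul_nonneg (uLaw_nonneg init f J m s) (Set.indicator_nonneg (fun _ _ => zero_le_one) s)
      · exact (hI1.add (integrable_const _)).sub hI3
      · exact Filter.Eventually.of_forall hptw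
    refine h5.trans ?_
    have hI5 : Integrable (fun s => (L.map fun c => Set.indicator (closedBall (out c.1) ε) c.2.w s).sum + 1) μ :=
      hI1.add (integrable_const _)
    rw [integral_sub hI5 hI3]
    have hI6 : ∫ s, ((L.map fun c => Set.indicator (closedBall (out c.1) ε) c.2.w s).sum + 1) ∂μ
        = ∫ s, (L.map fun c => Set.indicator (closedBall (out c.1) ε) c.2.w s).sum ∂μ + 1 := by
      rw [integral_add hI1 (integrable_const _)]
      simp
    rw [hI6, hI2, hI4]
    simp only [integral_indicator measurableSet_closedBall]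
    have : (L.map fun a => ∫ s, a.2.w s ∂μ).sum = massL μ L := rfl
    rw [this]
    linarith
  have hfinal : K / 4 ≤ potL μ j L := by
    have h7 : 1 / 6 * (2 * K) + (massL μ L / 2 - 1 / 2) * (2 * K) ≤ potL μ j L := by
      have : (1 / 6 + (massL μ L / 2 - 1 / 2)) ≤ potL μ j L / (2 * K) := by linarith
      rw [le_div_iff₀ (by positivity)] at this
      linarith
    nlinarith
  have : deadWeight d * x ≥ 0 := by positivity
  linarith

end chain

end Vale.Agent.Lib.P309
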