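import Mathlib

/-!
# Statement-level definitions for P309: bounded-memory learners for noiseless Gaussian regression
-/

open MeasureTheory ProbabilityTheory
open scoped RealInnerProductSpace ENNReal

namespace Vale.Agent.Lib.P309

/-- Euclidean `d`-space. -/
abbrev Vec (d : ℕ) := EuclideanSpace ℝ (Fin d)

/-- The law of the signal: `g / ‖g‖` with `g` a standard Gaussian vector,
that is the uniform probability measure on the unit sphere. -/
noncomputable def signalLaw (d : ℕ) : Measure (Vec d) :=
  (stdGaussian (Vec d)).map fun g => (‖g‖⁻¹ : ℝ) • g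

/-- A randomized learner on `d`-dimensional rows with horizon `T` and state set `Fin K`.
All randomness is a single seed `ω : Ω`, available to every rule (this contains the case of fresh
randomness at every step, by taking `Ω` a product space) and not counted as memory.
At index `t`, in state `m`, on the pair `(x, y)`, the new state is `step t m x y ω`, and
`stop t m x y ω = true` means that no further sample is read. -/
structure Learner (d T K : ℕ) (Ω : Type) [MeasurableSpace Ω] where
  init : Ω → Fin K
  step : Fin T → Fin K → Vec d → ℝ → Ω → Fin K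
  stop : Fin T → Fin K → Vec d → ℝ → Ω → Bool
  output : Fin K → Ω → Vec d
  output_unit : ∀ m ω, ‖output m ω‖ = 1
  measurable_init : Measurable init
  measurable_step : ∀ t m, Measurable fun p : Vec d × ℝ × Ω => step t m p.1 p.2.1 p.2.2
  measurable_stop : ∀ t m, Measurable fun p : Vec d × ℝ × Ω => stop t m p.1 p.2.1 p.2.2
  measurable_output : ∀ m, Measurable (output m)

variable {d T K : ℕ} {Ω : Type} [MeasurableSpace Ω]

/-- The state and the halted flag after the indices below `t` have been treated,
on seed `ω`, rows `X` and signal `s` (labels are the exact `⟪x, s⟫`). -/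
noncomputable def Learner.run (L : Learner d T K Ω) (ω : Ω) (X : Fin T → Vec d) (s : Vec d) :
    ℕ → Fin K × Bool
  | 0 => (L.init ω, false)
  | t + 1 =>
    if h : t < T ∧ (L.run ω X s t).2 = false then
      (L.step ⟨t, h.1⟩ (L.run ω X s t).1 (X ⟨t, h.1⟩) ⟪X ⟨t, h.1⟩, s⟫ ω,
        L.stop ⟨t, h.1⟩ (L.run ω X s t).1 (X ⟨t, h.1⟩) ⟪X ⟨t, h.1⟩, s⟫ ω)
    else L.run ω X s t

/-- The learner's output on seed `ω`, rows `X` and signal `s`. -/
noncomputable def Learner.answer (L : Learner d T K Ω) (ω : Ω) (X : Fin T → Vec d) (s : Vec d) :
    Vec d :=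
  L.output (L.run ω X s T).1 ω

/-- The learner succeeds at accuracy `ε`: with probability at least `2/3`, over the seed,
the standard Gaussian rows and the signal, independent, the angle between output and signal
is at most `ε`. -/
def Learner.Succeeds (L : Learner d T K Ω) (ν : Measure Ω) (ε : ℝ) : Prop :=
  (2 / 3 : ℝ≥0∞) ≤
    (ν.prod ((Measure.pi fun _ : Fin T => stdGaussian (Vec d)).prod (signalLaw d)))
      {p | Real.arccos ⟪L.answer p.1 p.2.1 p.2.2, p.2.2⟫ ≤ ε}

end Vale.Agent.Lib.P309
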