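import Vale.Agent.Lib.P309.Basic

/-!
# Gaussian lemmas
-/

open MeasureTheory ProbabilityTheory Metric Set
open scoped RealInnerProductSpace ENNReal

namespace Vale.Agent.Lib.P309

variable {d : ℕ}

/-- A unit direction of a standard Gaussian is a standard real Gaussian. -/
theorem gam_map_inner {e : Vec d} (he : ‖e‖ = 1) :
    (gam d).map (fun x => ⟪x, e⟫) = gaussianReal 0 1 := by
  have h := IsGaussian.map_eq_gaussianReal (μ := gam d) (innerSL ℝ e)
  have h1 : (⇑(innerSL ℝ e) : Vec d → ℝ) = fun x => ⟪x, e⟫ := by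
    funext x
    simp [innerSL_apply_apply, real_inner_comm]
  rw [h1] at h
  rw [h]
  congr 1
  · have := integral_strongDual_stdGaussian (E := Vec d) (innerSL ℝ e)
    rw [h1] at this
    exact this
  · have := variance_dual_stdGaussian (E := Vec d) (innerSL ℝ e)
    rw [h1] at this
    rw [this]
    simp [he]

theorem measurable_resample (e : Vec d) :
    Measurable (fun p : Vec d × ℝ => p.1 + (p.2 - ⟪p.1, e⟫) • e) := by
  fun_prop

theorem map_resample {e : Vec d} (he : ‖e‖ = 1) :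
    ((gam d).prod (gaussianReal 0 1)).map (fun p : Vec d × ℝ => p.1 + (p.2 - ⟪p.1, e⟫) • e)
      = gam d := by
  have hm := measurable_resample e
  apply Measure.ext_of_charFun
  ext t
  rw [charFun_stdGaussian, charFun_apply, integral_map hm.aemeasurable
    (by fun_prop)]
  have key : ∀ p : Vec d × ℝ,
      Complex.exp (((⟪p.1 + (p.2 - ⟪p.1, e⟫) • e, t⟫ : ℝ) : ℂ) * Complex.I)
        = Complex.exp (((⟪p.1, t - ⟪t, e⟫ • e⟫ : ℝ) : ℂ) * Complex.I)
          * Complex.exp (((⟪t, e⟫ : ℝ) : ℂ) * (p.2 : ℂ) * Complex.I) := by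
    intro p
    rw [← Complex.exp_add]
    congr 1
    have : ⟪p.1 + (p.2 - ⟪p.1, e⟫) • e, t⟫
        = ⟪p.1, t - ⟪t, e⟫ • e⟫ + ⟪t, e⟫ * p.2 := by
      rw [inner_add_left, inner_smul_left, inner_sub_right, inner_smul_right]
      simp only [conj_trivial]
      rw [real_inner_comm t e]
      ring
    rw [this]
    push_cast
    ring
  simp_rw [key]
  rw [integral_prod_mul (μ := gam d) (ν := gaussianReal 0 1)
    (fun x : Vec d => Complex.exp (((⟪x, t - ⟪t, e⟫ • e⟫ : ℝ) : ℂ) * Complex.I))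
    (fun g : ℝ => Complex.exp (((⟪t, e⟫ : ℝ) : ℂ) * (g : ℂ) * Complex.I))]
  rw [← charFun_apply, ← charFun_apply_real, charFun_stdGaussian, charFun_gaussianReal,
    ← Complex.exp_add]
  congr 1
  have hn : ‖t - ⟪t, e⟫ • e‖ ^ 2 = ‖t‖ ^ 2 - ⟪t, e⟫ ^ 2 := by
    rw [norm_sub_sq_real, inner_smul_right, norm_smul, mul_pow, he, Real.norm_eq_abs, sq_abs]
    ring
  have hn' : ((‖t - ⟪t, e⟫ • e‖ : ℝ) : ℂ) ^ 2 = ((‖t‖ : ℝ) : ℂ) ^ 2 - ((⟪t, e⟫ : ℝ) : ℂ) ^ 2 := by
    exact_mod_cast hn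
  rw [hn']
  push_cast
  ring

/-- Resampling the component along a unit vector preserves the standard Gaussian. -/
theorem lintegral_gam_resample {e : Vec d} (he : ‖e‖ = 1) {F : Vec d → ℝ≥0∞} (hF : Measurable F) :
    ∫⁻ x, F x ∂gam d = ∫⁻ x, ∫⁻ g, F (x + (g - ⟪x, e⟫) • e) ∂gaussianReal 0 1 ∂gam d := by
  conv_lhs => rw [← map_resample he]
  rw [lintegral_map hF (measurable_resample e), lintegral_prod]
  exact (hF.comp (measurable_resample e)).aemeasurable

/-- The real Gaussian density is at most `1/√(2π)`. -/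
theorem gaussian_Icc_le (a b : ℝ) :
    gaussianReal 0 1 (Set.Icc a b) ≤ ENNReal.ofReal ((b - a) / √(2 * Real.pi)) := by
  rw [gaussianReal_apply 0 (one_ne_zero)]
  have h1 : ∀ x ∈ Set.Icc a b, gaussianPDF 0 1 x ≤ ENNReal.ofReal (1 / √(2 * Real.pi)) := by
    intro x _
    unfold gaussianPDF
    apply ENNReal.ofReal_le_ofReal
    unfold gaussianPDFReal
    simp only [NNReal.coe_one, mul_one, one_div]
    have h0 : 0 ≤ (√(2 * Real.pi))⁻¹ := by positivity
    have h2 : Real.exp (-(x - 0) ^ 2 / 2) ≤ 1 := by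
      apply Real.exp_le_one_iff.mpr
      have := sq_nonneg (x - 0)
      linarith
    nlinarith
  calc ∫⁻ x in Set.Icc a b, gaussianPDF 0 1 x
      ≤ ∫⁻ _ in Set.Icc a b, ENNReal.ofReal (1 / √(2 * Real.pi)) :=
        setLIntegral_mono (by fun_prop) h1
    _ = ENNReal.ofReal (1 / √(2 * Real.pi)) * ENNReal.ofReal (b - a) := by
        rw [setLIntegral_const, Real.volume_Icc]
    _ = ENNReal.ofReal ((b - a) / √(2 * Real.pi)) := by
        rw [← ENNReal.ofReal_mul (by positivity)]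
        congr 1
        ring

/-- Laplace transform of the square of a real Gaussian. -/
theorem lintegral_exp_sq {t : ℝ} (ht : t < 1 / 2) :
    ∫⁻ g, ENNReal.ofReal (Real.exp (t * g ^ 2)) ∂gaussianReal 0 1
      = ENNReal.ofReal (√(1 / (1 - 2 * t))) := by
  rw [gaussianReal_of_var_ne_zero 0 one_ne_zero, lintegral_withDensity_eq_lintegral_mul _
    (by fun_prop) (by fun_prop)]
  have hb : 0 < 1 / 2 - t := by linarith
  have h1 : ∀ x : ℝ, ((gaussianPDF 0 1) * fun g => ENNReal.ofReal (Real.exp (t * g ^ 2))) x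
      = ENNReal.ofReal ((√(2 * Real.pi))⁻¹ * Real.exp (-(1 / 2 - t) * x ^ 2)) := by
    intro x
    simp only [Pi.mul_apply, gaussianPDF]
    rw [← ENNReal.ofReal_mul (gaussianPDFReal_nonneg _ _ _)]
    congr 1
    unfold gaussianPDFReal
    simp only [NNReal.coe_one, mul_one, sub_zero]
    rw [mul_assoc, ← Real.exp_add]
    congr 2
    ring
  simp_rw [h1]
  rw [← ofReal_integral_eq_lintegral_ofReal]
  · congr 1
    rw [integral_const_mul, integral_gaussian]
    have h2 : Real.pi / (1 / 2 - t) = (2 * Real.pi) * (1 / (1 - 2 * t)) := by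
      field_simp
    rw [h2, Real.sqrt_mul (x := 2 * Real.pi) (by positivity) (1 / (1 - 2 * t))]
    have : √(2 * Real.pi) ≠ 0 := by positivity
    rw [inv_mul_cancel_left₀ this]
  · exact (integrable_exp_neg_mul_sq hb).const_mul _
  · filter_upwards with x
    positivity

/-- Exponential moment of a squared direction. -/
theorem lintegral_exp_inner_sq_le {v : Vec d} {τ : ℝ} (hτ : 0 < τ) (hv : ‖v‖ ≤ τ) :
    ∫⁻ x, ENNReal.ofReal (Real.exp (⟪x, v⟫ ^ 2 / (4 * τ ^ 2))) ∂gam d ≤ ENNReal.ofReal (√2) := by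
  by_cases hv0 : v = 0
  · subst hv0
    simp only [inner_zero_right]
    simp only [ne_eq, OfNat.ofNat_ne_zero, not_false_eq_true, zero_pow, zero_div, Real.exp_zero,
      ENNReal.ofReal_one, lintegral_const, measure_univ, mul_one]
    rw [← ENNReal.ofReal_one]
    apply ENNReal.ofReal_le_ofReal
    exact Real.one_le_sqrt.mpr (by norm_num)
  · have hn : 0 < ‖v‖ := norm_pos_iff.mpr hv0
    set e : Vec d := ‖v‖⁻¹ • v with he
    have he1 : ‖e‖ = 1 := by
      rw [he, norm_smul, norm_inv, norm_norm]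
      field_simp
    have hv2 : v = ‖v‖ • e := by
      rw [he, smul_smul]
      field_simp
      simp
    have hle : ∀ x : Vec d, ENNReal.ofReal (Real.exp (⟪x, v⟫ ^ 2 / (4 * τ ^ 2)))
        ≤ ENNReal.ofReal (Real.exp ((1 / 4) * ⟪x, e⟫ ^ 2)) := by
      intro x
      apply ENNReal.ofReal_le_ofReal
      apply Real.exp_le_exp.mpr
      have h1 : ⟪x, v⟫ = ‖v‖ * ⟪x, e⟫ := by
        conv_lhs => rw [hv2]
        rw [inner_smul_right]
      rw [h1, div_le_iff₀ (by positivity)]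
      have h3 : ‖v‖ ^ 2 ≤ τ ^ 2 := by
        apply pow_le_pow_left₀ hn.le hv
      have h4 := sq_nonneg (⟪x, e⟫)
      nlinarith
    calc ∫⁻ x, ENNReal.ofReal (Real.exp (⟪x, v⟫ ^ 2 / (4 * τ ^ 2))) ∂gam d
        ≤ ∫⁻ x, ENNReal.ofReal (Real.exp ((1 / 4) * ⟪x, e⟫ ^ 2)) ∂gam d := lintegral_mono hle
      _ = ∫⁻ g, ENNReal.ofReal (Real.exp ((1 / 4) * g ^ 2)) ∂((gam d).map (fun x => ⟪x, e⟫)) := by
          rw [lintegral_map (by fun_prop) (by fun_prop)]
      _ = ENNReal.ofReal (√2) := by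
          rw [gam_map_inner he1, lintegral_exp_sq (by norm_num)]
          congr 2
          norm_num


/-- Laplace transform of the squared norm. -/
theorem lintegral_exp_neg_norm_sq {t : ℝ} (ht : 0 ≤ t) :
    ∫⁻ x, ENNReal.ofReal (Real.exp (-t * ‖x‖ ^ 2)) ∂gam d
      = ENNReal.ofReal (√(1 / (1 + 2 * t))) ^ d := by
  have hI : ∀ i : Fin d, Integrable (fun g : ℝ => Real.exp ((-t) * g ^ 2)) (gaussianReal 0 1) := by
    intro i
    have hbd : ∀ᵐ g ∂gaussianReal 0 1, ‖Real.exp ((-t) * g ^ 2)‖ ≤ 1 := by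
      filter_upwards with g
      rw [Real.norm_eq_abs, abs_of_pos (Real.exp_pos _)]
      apply Real.exp_le_one_iff.mpr
      have := sq_nonneg g
      nlinarith
    exact Integrable.of_bound (by fun_prop) 1 hbd
  have hone : ∫ g, Real.exp ((-t) * g ^ 2) ∂gaussianReal 0 1 = √(1 / (1 + 2 * t)) := by
    have h1 := lintegral_exp_sq (t := -t) (by linarith)
    have h2 : (1:ℝ) - 2 * -t = 1 + 2 * t := by ring
    rw [h2] at h1
    rw [integral_eq_lintegral_of_nonneg_ae (by filter_upwards with g; positivity) (by fun_prop), h1,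
      ENNReal.toReal_ofReal (by positivity)]
  have hmap : ∀ x : Fin d → ℝ, Real.exp (-t * ‖(WithLp.toLp 2 x : Vec d)‖ ^ 2)
      = ∏ i, Real.exp ((-t) * (x i) ^ 2) := by
    intro x
    rw [EuclideanSpace.real_norm_sq_eq, ← Real.exp_sum, Finset.mul_sum]
  rw [gam, ← map_pi_eq_stdGaussian, lintegral_map (by fun_prop) (by fun_prop)]
  simp_rw [hmap]
  rw [← ofReal_integral_eq_lintegral_ofReal]
  · rw [integral_fintype_prod_eq_prod (𝕜 := ℝ) (fun (_ : Fin d) (g : ℝ) => Real.exp ((-t) * g ^ 2))]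
    simp only [hone, Finset.prod_const, Finset.card_univ, Fintype.card_fin]
    rw [ENNReal.ofReal_pow (by positivity)]
  · exact Integrable.fintype_prod (𝕜 := ℝ) (f := fun (_ : Fin d) (g : ℝ) => Real.exp ((-t) * g ^ 2)) hI
  · filter_upwards with x
    positivity

/-- Pythagoras for the resampled point. -/
theorem norm_resample_sq {e : Vec d} (he : ‖e‖ = 1) (x : Vec d) (g : ℝ) :
    ‖x + (g - ⟪x, e⟫) • e‖ ^ 2 = ‖x - ⟪x, e⟫ • e‖ ^ 2 + g ^ 2 := by
  have h : x + (g - ⟪x, e⟫) • e = (x - ⟪x, e⟫ • e) + g • e := by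
    rw [sub_smul]; abel
  have ho : ⟪x - ⟪x, e⟫ • e, g • e⟫ = 0 := by
    rw [inner_smul_right, inner_sub_left, inner_smul_left, real_inner_self_eq_norm_sq, he]
    simp
  rw [h, norm_add_sq_real, ho, norm_smul, he, Real.norm_eq_abs, mul_one, sq_abs]
  ring

theorem inner_resample {e : Vec d} (he : ‖e‖ = 1) (x : Vec d) (g : ℝ) :
    ⟪x + (g - ⟪x, e⟫) • e, e⟫ = g := by
  rw [inner_add_left, inner_smul_left, real_inner_self_eq_norm_sq, he]
  simp

theorem perp_resample {e : Vec d} (he : ‖e‖ = 1) (x : Vec d) (g : ℝ) :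
    (x + (g - ⟪x, e⟫) • e) - ⟪x + (g - ⟪x, e⟫) • e, e⟫ • e = x - ⟪x, e⟫ • e := by
  rw [inner_resample he, sub_smul]
  abel

/-- The perpendicular component has `d - 1` factors. -/
theorem lintegral_exp_perp {e : Vec d} (he : ‖e‖ = 1) {t : ℝ} (ht : 0 ≤ t) :
    (∫⁻ x, ENNReal.ofReal (Real.exp (-t * ‖x - ⟪x, e⟫ • e‖ ^ 2)) ∂gam d)
        * ENNReal.ofReal (√(1 / (1 + 2 * t)))
      = ENNReal.ofReal (√(1 / (1 + 2 * t))) ^ d := by
  have h1 : (1:ℝ) - 2 * -t = 1 + 2 * t := by ring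
  have hone : ∫⁻ g, ENNReal.ofReal (Real.exp (-t * g ^ 2)) ∂gaussianReal 0 1
      = ENNReal.ofReal (√(1 / (1 + 2 * t))) := by
    have := lintegral_exp_sq (t := -t) (by linarith)
    rwa [h1] at this
  rw [← lintegral_exp_neg_norm_sq ht]
  rw [lintegral_gam_resample he (F := fun x => ENNReal.ofReal (Real.exp (-t * ‖x‖ ^ 2)))
    (by fun_prop)]
  rw [← lintegral_mul_const' _ _ (by simp)]
  congr 1
  funext x
  rw [← hone, ← lintegral_const_mul' _ _ (by simp)]
  congr 1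
  funext g
  rw [norm_resample_sq he, ← ENNReal.ofReal_mul (Real.exp_pos _).le, ← Real.exp_add]
  congr 2
  ring

theorem exists_unit (hd : 1 ≤ d) : ∃ e : Vec d, ‖e‖ = 1 :=
  ⟨EuclideanSpace.single ⟨0, hd⟩ (1:ℝ), by simp⟩

theorem lintegral_exp_perp' (hd : 1 ≤ d) {e : Vec d} (he : ‖e‖ = 1) {t : ℝ} (ht : 0 ≤ t) :
    (∫⁻ x, ENNReal.ofReal (Real.exp (-t * ‖x - ⟪x, e⟫ • e‖ ^ 2)) ∂gam d)
      = ENNReal.ofReal (√(1 / (1 + 2 * t))) ^ (d - 1) := by
  have h := lintegral_exp_perp he ht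
  have hpos : 0 < √(1 / (1 + 2 * t)) := by positivity
  have hne : ENNReal.ofReal (√(1 / (1 + 2 * t))) ≠ 0 := by
    simpa using hpos
  have htop : ENNReal.ofReal (√(1 / (1 + 2 * t))) ≠ ∞ := ENNReal.ofReal_ne_top
  obtain ⟨k, rfl⟩ : ∃ k, d = k + 1 := ⟨d - 1, by omega⟩
  rw [pow_succ] at h
  simpa using (ENNReal.mul_left_inj hne htop).mp h

/-- The Chernoff bound for a thin double cone around a unit vector. -/
theorem gam_cone_le (hd : 1 ≤ d) {e : Vec d} (he : ‖e‖ = 1) {ρ : ℝ} (hρ : 0 < ρ) :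
    gam d {x | ‖x - ⟪x, e⟫ • e‖ ^ 2 ≤ ρ ^ 2 * ⟪x, e⟫ ^ 2}
      ≤ ENNReal.ofReal (√2) * ENNReal.ofReal (√2 * ρ) ^ (d - 1) := by
  set t : ℝ := 1 / (4 * ρ ^ 2) with ht
  have htpos : 0 < t := by positivity
  have htρ : t * ρ ^ 2 = 1 / 4 := by
    rw [ht]; field_simp
  let G : Vec d → ℝ≥0∞ := fun x =>
    ENNReal.ofReal (Real.exp (t * ρ ^ 2 * ⟪x, e⟫ ^ 2 + (-t * ‖x - ⟪x, e⟫ • e‖ ^ 2)))
  have hG : Measurable G := by fun_prop
  have hA : MeasurableSet {x : Vec d | ‖x - ⟪x, e⟫ • e‖ ^ 2 ≤ ρ ^ 2 * ⟪x, e⟫ ^ 2} :=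
    measurableSet_le (by fun_prop) (by fun_prop)
  have hle : ∀ x, Set.indicator {x : Vec d | ‖x - ⟪x, e⟫ • e‖ ^ 2 ≤ ρ ^ 2 * ⟪x, e⟫ ^ 2} 1 x ≤ G x := by
    intro x
    by_cases hx : x ∈ {x : Vec d | ‖x - ⟪x, e⟫ • e‖ ^ 2 ≤ ρ ^ 2 * ⟪x, e⟫ ^ 2}
    · rw [Set.indicator_of_mem hx]
      simp only [Pi.one_apply, G]
      rw [← ENNReal.ofReal_one]
      apply ENNReal.ofReal_le_ofReal
      apply Real.one_le_exp
      have hx' : ‖x - ⟪x, e⟫ • e‖ ^ 2 ≤ ρ ^ 2 * ⟪x, e⟫ ^ 2 := hx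
      nlinarith
    · rw [Set.indicator_of_notMem hx]
      exact zero_le
  calc gam d {x | ‖x - ⟪x, e⟫ • e‖ ^ 2 ≤ ρ ^ 2 * ⟪x, e⟫ ^ 2}
      = ∫⁻ x, Set.indicator {x : Vec d | ‖x - ⟪x, e⟫ • e‖ ^ 2 ≤ ρ ^ 2 * ⟪x, e⟫ ^ 2} 1 x ∂gam d := by
        rw [lintegral_indicator_one hA]
    _ ≤ ∫⁻ x, G x ∂gam d := lintegral_mono hle
    _ = ∫⁻ x, ∫⁻ g, G (x + (g - ⟪x, e⟫) • e) ∂gaussianReal 0 1 ∂gam d :=
        lintegral_gam_resample he hG
    _ = ∫⁻ x, ENNReal.ofReal (Real.exp (-t * ‖x - ⟪x, e⟫ • e‖ ^ 2)) * ENNReal.ofReal (√2) ∂gam d := by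
        congr 1
        funext x
        have h2 : ∫⁻ g, ENNReal.ofReal (Real.exp ((1 / 4) * g ^ 2)) ∂gaussianReal 0 1
            = ENNReal.ofReal (√2) := by
          rw [lintegral_exp_sq (by norm_num)]
          congr 2
          norm_num
        rw [← h2, ← lintegral_const_mul' _ _ (by simp)]
        congr 1
        funext g
        simp only [G]
        have hp := perp_resample he x g
        rw [inner_resample he] at hp
        rw [inner_resample he, hp, ← ENNReal.ofReal_mul (Real.exp_pos _).le,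
          ← Real.exp_add, htρ]
        congr 2
        ring
    _ = ENNReal.ofReal (√(1 / (1 + 2 * t))) ^ (d - 1) * ENNReal.ofReal (√2) := by
        rw [lintegral_mul_const' _ _ (by simp), lintegral_exp_perp' hd he htpos.le]
    _ ≤ ENNReal.ofReal (√2) * ENNReal.ofReal (√2 * ρ) ^ (d - 1) := by
        rw [mul_comm]
        gcongr
        have h3 : 1 / (1 + 2 * t) ≤ 2 * ρ ^ 2 := by
          rw [div_le_iff₀ (by positivity)]
          have : 2 * ρ ^ 2 * (2 * t) = 1 := by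
            rw [ht]; field_simp; norm_num
          nlinarith [sq_nonneg ρ]
        calc √(1 / (1 + 2 * t)) ≤ √(2 * ρ ^ 2) := Real.sqrt_le_sqrt h3
          _ = √2 * ρ := by
            rw [Real.sqrt_mul (by norm_num), Real.sqrt_sq hρ.le]

/-- The set of `x` whose direction lies in a small ball is contained in a thin cone. -/
theorem dir_ball_subset {z e : Vec d} {r : ℝ} (hr : 0 < r) (hr4 : r < 1 / 4)
    (he : ‖e‖ = 1) (hball : ∀ u : Vec d, ‖u‖ = 1 → u ∈ closedBall z r → ‖u - e‖ ≤ 2 * r) :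
    (fun g : Vec d => (‖g‖⁻¹ : ℝ) • g) ⁻¹' closedBall z r
      ⊆ {x | ‖x - ⟪x, e⟫ • e‖ ^ 2 ≤ ((16 / 7) * r) ^ 2 * ⟪x, e⟫ ^ 2} := by
  intro g hg
  by_cases hg0 : g = 0
  · subst hg0
    simp
  have hn : 0 < ‖g‖ := norm_pos_iff.mpr hg0
  set u : Vec d := (‖g‖⁻¹ : ℝ) • g with hu
  have hu1 : ‖u‖ = 1 := by
    rw [hu, norm_smul, norm_inv, norm_norm]
    field_simp
  have hgu : g = ‖g‖ • u := by
    rw [hu, smul_smul]
    field_simp
    simp
  have h1 : ‖u - e‖ ≤ 2 * r := hball u hu1 hg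
  set c : ℝ := ⟪u, e⟫ with hc
  have h2 : ‖u - e‖ ^ 2 = 2 - 2 * c := by
    rw [norm_sub_sq_real, hu1, he]
    ring
  have h3 : ‖u - e‖ ^ 2 ≤ 4 * r ^ 2 := by
    have := pow_le_pow_left₀ (norm_nonneg _) h1 2
    nlinarith
  have hc1 : c ≤ 1 := by
    have := real_inner_le_norm u e
    rw [hu1, he] at this
    simpa using this
  have hc2 : 7 / 8 ≤ c := by nlinarith
  have ha : ⟪g, e⟫ = ‖g‖ * c := by
    conv_lhs => rw [hgu]
    rw [inner_smul_left]
    simp [hc]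
  have hperp : ‖g - ⟪g, e⟫ • e‖ ^ 2 = ‖g‖ ^ 2 * (1 - c ^ 2) := by
    rw [norm_sub_sq_real, inner_smul_right, norm_smul, mul_pow, he, Real.norm_eq_abs, sq_abs, ha]
    ring
  show ‖g - ⟪g, e⟫ • e‖ ^ 2 ≤ ((16 / 7) * r) ^ 2 * ⟪g, e⟫ ^ 2
  rw [hperp, ha]
  have hc3 : 1 - c ^ 2 ≤ 4 * r ^ 2 := by nlinarith
  have hc4 : 49 / 64 ≤ c ^ 2 := by nlinarith
  have hR : 4 * r ^ 2 ≤ ((16 / 7) * r) ^ 2 * c ^ 2 := by
    have : ((16 / 7) * r) ^ 2 * c ^ 2 = (256 / 49) * r ^ 2 * c ^ 2 := by ring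
    rw [this]
    nlinarith [sq_nonneg r]
  calc ‖g‖ ^ 2 * (1 - c ^ 2) ≤ ‖g‖ ^ 2 * (((16 / 7) * r) ^ 2 * c ^ 2) :=
        mul_le_mul_of_nonneg_left (hc3.trans hR) (by positivity)
    _ = ((16 / 7) * r) ^ 2 * (‖g‖ * c) ^ 2 := by ring

/-- The signal law has all the properties used of the prior. -/
theorem prior_signalLaw (hd : 1 ≤ d) : Prior (signalLaw d) := by
  have hmeas : Measurable (fun g : Vec d => (‖g‖⁻¹ : ℝ) • g) := by fun_prop
  have hprob : IsProbabilityMeasure (signalLaw d) :=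
    Measure.isProbabilityMeasure_map hmeas.aemeasurable
  refine ⟨hprob, ?_, ?_⟩
  · intro z r hr
    by_cases hr4 : r < 1 / 4
    · obtain ⟨e, he, hball⟩ : ∃ e : Vec d, ‖e‖ = 1 ∧
          ∀ u : Vec d, ‖u‖ = 1 → u ∈ closedBall z r → ‖u - e‖ ≤ 2 * r := by
        by_cases h : ∃ u₀ : Vec d, ‖u₀‖ = 1 ∧ u₀ ∈ closedBall z r
        · obtain ⟨u₀, h1, h2⟩ := h
          refine ⟨u₀, h1, fun u _ hu => ?_⟩
          rw [← dist_eq_norm]
          have h3 := dist_triangle_right u u₀ z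
          rw [mem_closedBall] at hu h2
          linarith
        · obtain ⟨e, he⟩ := exists_unit hd
          exact ⟨e, he, fun u h1 h2 => absurd ⟨u, h1, h2⟩ h⟩
      have hsub := dir_ball_subset hr hr4 he hball
      have hρ : 0 < (16 / 7) * r := by positivity
      rw [signalLaw, Measure.map_apply hmeas isClosed_closedBall.measurableSet]
      calc stdGaussian (Vec d) ((fun g : Vec d => (‖g‖⁻¹ : ℝ) • g) ⁻¹' closedBall z r)
          ≤ gam d {x | ‖x - ⟪x, e⟫ • e‖ ^ 2 ≤ ((16 / 7) * r) ^ 2 * ⟪x, e⟫ ^ 2} :=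
            measure_mono hsub
        _ ≤ ENNReal.ofReal (√2) * ENNReal.ofReal (√2 * ((16 / 7) * r)) ^ (d - 1) :=
            gam_cone_le hd he hρ
        _ ≤ ENNReal.ofReal 2 * ENNReal.ofReal (4 * r) ^ (d - 1) := by
            have h7 : √2 ≤ 7 / 4 := by
              rw [Real.sqrt_le_left (by norm_num)]
              norm_num
            have h8 : √2 * ((16 / 7) * r) ≤ 4 * r := by nlinarith
            have h9 : √2 ≤ 2 := by linarith
            exact mul_le_mul' (ENNReal.ofReal_le_ofReal h9)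
              (pow_le_pow_left' (ENNReal.ofReal_le_ofReal h8) _)
        _ = ENNReal.ofReal (2 * (4 * r) ^ (d - 1)) := by
            rw [ENNReal.ofReal_mul (p := 2) (by norm_num), ENNReal.ofReal_pow (by positivity)]
    · have h1 : (1:ℝ) ≤ 4 * r := by
        push Not at hr4
        linarith
      calc signalLaw d (closedBall z r) ≤ 1 := prob_le_one
        _ = ENNReal.ofReal 1 := ENNReal.ofReal_one.symm
        _ ≤ ENNReal.ofReal (2 * (4 * r) ^ (d - 1)) := by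
            apply ENNReal.ofReal_le_ofReal
            have := one_le_pow₀ h1 (n := d - 1)
            linarith
  · rw [signalLaw, Measure.map_apply hmeas isClosed_closedBall.measurableSet.compl]
    have : (fun g : Vec d => (‖g‖⁻¹ : ℝ) • g) ⁻¹' (closedBall 0 1)ᶜ = ∅ := by
      ext g
      simp only [Set.mem_preimage, Set.mem_compl_iff, mem_closedBall_zero_iff, Set.mem_empty_iff_false,
        iff_false, not_not]
      rw [norm_smul, norm_inv, norm_norm]
      by_cases hg : g = 0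
      · simp [hg]
      · have : 0 < ‖g‖ := norm_pos_iff.mpr hg
        rw [inv_mul_cancel₀ this.ne']
    rw [this]
    simp

/-- Almost surely the signal is a unit vector. -/
theorem signalLaw_ae_norm (hd : 1 ≤ d) : ∀ᵐ s ∂signalLaw d, ‖s‖ = 1 := by
  have hmeas : Measurable (fun g : Vec d => (‖g‖⁻¹ : ℝ) • g) := by fun_prop
  rw [signalLaw, ae_map_iff hmeas.aemeasurable
    (measurableSet_eq_fun (by fun_prop) (by fun_prop))]
  obtain ⟨e, he⟩ := exists_unit hd
  have h0 : gam d {0} = 0 := by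
    have h1 : ({0} : Set (Vec d)) ⊆ (fun x : Vec d => ⟪x, e⟫) ⁻¹' (Set.Icc 0 0) := by
      intro x hx
      rw [Set.mem_singleton_iff] at hx
      subst hx
      simp
    have h2 : gam d ((fun x : Vec d => ⟪x, e⟫) ⁻¹' (Set.Icc 0 0)) = 0 := by
      rw [← Measure.map_apply (by fun_prop) measurableSet_Icc, gam_map_inner he]
      have := gaussian_Icc_le 0 0
      simpa using this
    exact measure_mono_null h1 h2
  have : ∀ᵐ g ∂gam d, g ≠ 0 := by
    rw [ae_iff]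
    simpa using h0
  filter_upwards [this] with g hg
  rw [norm_smul, norm_inv, norm_norm]
  have : 0 < ‖g‖ := norm_pos_iff.mpr hg
  rw [inv_mul_cancel₀ this.ne']

end Vale.Agent.Lib.P309
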