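import Vale.Agent.Lib.P309.Reduce

/-!
# The main theorem
-/

open MeasureTheory ProbabilityTheory Metric Set
open scoped RealInnerProductSpace ENNReal

namespace Vale.Agent.Lib.P309

section arith

theorem goodParams_main {d : ℕ} (hd : 2 ^ 20 ≤ d) : GoodParams d (d / 64) 345 := by
  have hj : 2 ^ 14 ≤ d / 64 := by omega
  refine ⟨by omega, by omega, ?_⟩
  set j := d / 64 with hjdef
  have h1 : 3 ^ j ≤ 2 ^ (2 * j) := by
    rw [pow_mul]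
    exact Nat.pow_le_pow_left (by norm_num) j
  calc 3 ^ j * (2 ^ 36) ^ d * 2 ^ (d + 2) ≤ 2 ^ (2 * j) * (2 ^ 36) ^ d * 2 ^ (d + 2) := by gcongr
    _ = 2 ^ (2 * j + 36 * d + (d + 2)) := by
        rw [← pow_mul, ← pow_add, ← pow_add]
    _ ≤ 2 ^ (7 * j * 345) := Nat.pow_le_pow_right (by norm_num) (by omega)

theorem d_lt_pow {d : ℕ} (hd : 2 ^ 20 ≤ d) : d < 2 ^ (d / 8) := by
  obtain ⟨p, hp⟩ : ∃ p, d / 8 = p + 4 := ⟨d / 8 - 4, by omega⟩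
  have h1 : p < 2 ^ p := Nat.lt_two_pow_self
  rw [hp, pow_add]
  have : p ≥ 100 := by omega
  omega

theorem gainC_bound {j : ℕ} (hj : 12 ≤ j) {x : ℝ} :
    gainC j 345 x ≤ 495 * j + 2 / j * (x + 1) := by
  unfold gainC
  have hl : Real.log 2 ≤ 0.7 := by
    have := Real.log_two_lt_d9
    linarith
  have hl0 : 0 ≤ Real.log 2 := by positivity
  have he : Real.exp (-1) ≤ 1 := by
    rw [Real.exp_le_one_iff]
    norm_num
  have hj' : (12:ℝ) ≤ j := by exact_mod_cast hj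
  have h1 : ((j * (345 + 2) + 1 : ℕ) : ℝ) = 347 * j + 1 := by
    push_cast
    ring
  rw [h1]
  have h2 : (347 * (j:ℝ) + 1) * Real.log 2 ≤ (347 * (j:ℝ) + 1) * 0.7 := by
    gcongr
  nlinarith

theorem arith_small {D M T Λ Λ₁ l2 : ℝ} (hD : (2:ℝ) ^ 20 ≤ D) (hM0 : 0 ≤ M) (hT0 : 0 ≤ T)
    (hl2 : l2 ≤ 0.7) (hΛ98 : 98 ≤ Λ) (hΛΛ : Λ₁ = Λ + 2 * l2) (hcount : (D - 1) * Λ ≤ M + 3)
    (hH : 10 ^ 8 * (T + D) * (M + D ^ 2) < D ^ 3 * Λ₁) : 10 ^ 8 * (T + D) < 4 * D ^ 2 := by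
  have hbig : (100:ℝ) ≤ D := by
    have : (100:ℝ) ≤ (2:ℝ) ^ 20 := by norm_num
    linarith
  have hD0 : 0 < D := by linarith
  have hdd : 0 < M + D ^ 2 := by positivity
  have hd2 : D ≤ 2 * (D - 1) := by linarith
  have h1 : D * Λ ≤ 2 * (M + 3) := by
    have : D * Λ ≤ (2 * (D - 1)) * Λ := by
      gcongr
    linarith
  have h2 : D ^ 3 * Λ₁ ≤ 4 * D ^ 2 * (M + D ^ 2) := by
    have h3 : D ^ 3 * Λ₁ = D ^ 2 * (D * Λ) + D ^ 3 * (2 * l2) := by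
      rw [hΛΛ]; ring
    rw [h3]
    have h4 : D ^ 2 * (D * Λ) ≤ D ^ 2 * (2 * (M + 3)) := by gcongr
    have h5 : D ^ 3 * (2 * l2) ≤ D ^ 3 * 2 := by
      gcongr
      linarith
    have h6 : (3:ℝ) ≤ D ^ 2 := by nlinarith
    have h7 : D ^ 3 ≤ D ^ 2 * (M + D ^ 2) := by
      have : D ≤ M + D ^ 2 := by nlinarith
      calc D ^ 3 = D ^ 2 * D := by ring
        _ ≤ _ := by gcongr
    have h8 : D ^ 2 * (2 * (M + 3)) ≤ D ^ 2 * (2 * (M + D ^ 2)) := by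
      gcongr
    calc _ ≤ D ^ 2 * (2 * (M + D ^ 2)) + D ^ 2 * (M + D ^ 2) * 2 := by linarith
      _ = _ := by ring
  have h3 : 10 ^ 8 * (T + D) * (M + D ^ 2) < 4 * D ^ 2 * (M + D ^ 2) := by
    linarith
  exact lt_of_mul_lt_mul_right h3 hdd.le

theorem arith_exp {J j y E : ℝ} (hj : (2:ℝ) ^ 14 ≤ j) (hJ : J ≤ 4225 * j) (hy0 : 0 < y)
    (hy : y * E = 1) (hE : (j / 4) ^ 4 ≤ E) : J * (2 * y) ≤ 1 / 24 := by
  have hj0 : 0 < j := by
    have : (0:ℝ) < (2:ℝ) ^ 14 := by positivity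
    linarith
  have h3 : y * j ^ 4 ≤ 256 := by
    have : y * (j / 4) ^ 4 ≤ y * E := by gcongr
    rw [hy] at this
    have h4 : y * (j / 4) ^ 4 = y * j ^ 4 / 256 := by ring
    rw [h4] at this
    linarith
  have h4 : (2:ℝ) ^ 42 ≤ j ^ 3 := by
    calc (2:ℝ) ^ 42 = ((2:ℝ) ^ 14) ^ 3 := by norm_num
      _ ≤ _ := by gcongr
  have h5 : j * y * j ^ 3 ≤ 256 := by
    calc _ = y * j ^ 4 := by ring
      _ ≤ _ := h3
  have h6 : j * y ≤ 256 / (2:ℝ) ^ 42 := by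
    rw [le_div_iff₀ (by positivity)]
    have h7 : j * y * (2:ℝ) ^ 42 ≤ j * y * j ^ 3 := by gcongr
    linarith
  calc J * (2 * y) ≤ (4225 * j) * (2 * y) := by gcongr
    _ = 8450 * (j * y) := by ring
    _ ≤ 8450 * (256 / (2:ℝ) ^ 42) := by gcongr
    _ ≤ 1 / 24 := by norm_num

theorem arith_num {D M J Δ b Q R P : ℝ} (hD0 : 0 ≤ D) (hM0 : 0 ≤ M) (hJ0 : 0 ≤ J) (hΔ0 : 0 ≤ Δ)
    (hJ : J ≤ 65 * D) (hΔ : Δ ≤ 495 * D + 2 * (M + 2)) (hb : b ≤ 1.4 * D) (hq : D ≤ Q) (hMR : M ≤ R)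
    (ht1 : (2:ℝ) ^ 9 * Q ≤ P) (ht2 : (2:ℝ) ^ 15 * (Q * Q) ≤ P) (ht3 : (2:ℝ) ^ 8 * (Q * R) ≤ P) :
    b + J * Δ ≤ 4 * P := by
  have hQ0 : 0 ≤ Q := hD0.trans hq
  have hJΔ : J * Δ ≤ (65 * D) * (495 * D + 2 * (M + 2)) := by
    gcongr
  have h1 : D * D ≤ Q * Q := by gcongr
  have h2 : D * M ≤ Q * R := by gcongr
  have e1 : (65 * D) * (495 * D + 2 * (M + 2)) = 32175 * (D * D) + 130 * (D * M) + 260 * D := by ring
  rw [e1] at hJΔ
  norm_num at ht1 ht2 ht3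
  linarith

theorem arith_final {D j J Δ T M Λ Λ₁ b : ℝ} (hD : (2:ℝ) ^ 20 ≤ D) (hj0 : 0 < j)
    (hjD : 64 * j ≤ D) (hDj : D ≤ 65 * j) (hJj : J * j ≤ T + D) (hM0 : 0 ≤ M) (hT0 : 0 ≤ T)
    (hΛ98 : 98 ≤ Λ) (hΛ₁ : Λ₁ ≤ 2 * Λ) (hΛ₁0 : 0 ≤ Λ₁) (hΔ0 : 0 ≤ Δ) (hb : b ≤ 1.4 * D)
    (hΔle : j * Δ ≤ 495 * j ^ 2 + 2 * (M + 2))
    (hmain : ((D - 1 - 8 * j) * Λ / 2 - 2) / 4 ≤ b + J * Δ) :
    D ^ 3 * Λ₁ ≤ 10 ^ 8 * (T + D) * (M + D ^ 2) := by
  have hbig : (16:ℝ) ≤ D := by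
    have : (16:ℝ) ≤ (2:ℝ) ^ 20 := by norm_num
    linarith
  have hD0 : 0 < D := by linarith
  have hκ : (3 / 4 : ℝ) * D ≤ D - 1 - 8 * j := by linarith
  have hΛ0 : 0 ≤ Λ := by linarith
  have hκΛ : (3 / 4 : ℝ) * D * Λ ≤ (D - 1 - 8 * j) * Λ := by gcongr
  have hJΔ1 : (3 / 128 : ℝ) * D * Λ₁ ≤ J * Δ := by
    have h2 : D * Λ₁ ≤ D * (2 * Λ) := by gcongr
    have h3 : (98:ℝ) * D ≤ Λ * D := by gcongr
    have h4 : D * Λ = Λ * D := by ring
    have h5 : D * (2 * Λ) = 2 * (Λ * D) := by ring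
    have h6 : (3 / 4 : ℝ) * D * Λ = 3 / 4 * (Λ * D) := by ring
    rw [h6] at hκΛ
    have h7 : (3 / 128 : ℝ) * D * Λ₁ = 3 / 128 * (D * Λ₁) := by ring
    rw [h7]
    rw [h5] at h2
    linarith
  have hjΔ : j * Δ ≤ 500 * (M + D ^ 2) := by
    have h3 : j ^ 2 ≤ D ^ 2 := by
      have : j ≤ D := by linarith
      gcongr
    have h4 : (4:ℝ) ≤ D ^ 2 := by nlinarith
    linarith
  have hfinal : j ^ 2 * ((3 / 128 : ℝ) * D * Λ₁) ≤ (T + D) * (500 * (M + D ^ 2)) := by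
    calc j ^ 2 * ((3 / 128 : ℝ) * D * Λ₁) ≤ j ^ 2 * (J * Δ) := by gcongr
      _ = (J * j) * (j * Δ) := by ring
      _ ≤ _ := by
        apply mul_le_mul hJj hjΔ (mul_nonneg hj0.le hΔ0) (by positivity)
  have hj2D : D ^ 2 / 4225 ≤ j ^ 2 := by
    have : D ^ 2 ≤ (65 * j) ^ 2 := by gcongr
    rw [div_le_iff₀ (by norm_num)]
    linarith [this, mul_pow (65:ℝ) j 2]
  have hfinal2 : D ^ 2 / 4225 * ((3 / 128 : ℝ) * D * Λ₁) ≤ (T + D) * (500 * (M + D ^ 2)) := by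
    refine le_trans ?_ hfinal
    gcongr
  have hpos : 0 ≤ (T + D) * (M + D ^ 2) := by positivity
  have e1 : D ^ 2 / 4225 * ((3 / 128 : ℝ) * D * Λ₁) = (3 / 540800) * (D ^ 3 * Λ₁) := by ring
  have e2 : (T + D) * (500 * (M + D ^ 2)) = 500 * ((T + D) * (M + D ^ 2)) := by ring
  have e3 : 10 ^ 8 * (T + D) * (M + D ^ 2) = 10 ^ 8 * ((T + D) * (M + D ^ 2)) := by ring
  rw [e1, e2] at hfinal2
  rw [e3]
  linarith

end arith

section

variable {d T K M : ℕ} {Ω : Type} [MeasurableSpace Ω]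

/-- The counting bound: a learner with few states cannot reach high accuracy at all. -/
theorem count_bound {μ : Measure (Vec d)} (hμ : Prior μ) {σ : Type} [Fintype σ] [DecidableEq σ]
    {j : ℕ} (init : σ) (f : ℕ → σ → Zsp d j → σ) (hf : ∀ e m a, MeasurableSet (f e m ⁻¹' {a}))
    (J : ℕ) (out : σ → Vec d) {ε : ℝ} (hε : 0 < ε)
    (hsucc : (2 / 3 : ℝ) ≤ ∫ s, ∑ m, uLaw init f J m s *
      Set.indicator (closedBall (out m) ε) (fun _ => (1:ℝ)) s ∂μ) :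
    (2 / 3 : ℝ) ≤ (Fintype.card σ : ℝ) * (2 * (4 * ε) ^ (d - 1)) := by
  have := hμ.prob
  have hind0 : ∀ m s, 0 ≤ Set.indicator (closedBall (out m) ε) (fun _ => (1:ℝ)) s := fun m s =>
    Set.indicator_nonneg (fun _ _ => zero_le_one) s
  have hu1 : ∀ m s, uLaw init f J m s ≤ 1 := by
    intro m s
    rw [← uLaw_sum init f hf J s]
    exact Finset.single_le_sum (fun b _ => uLaw_nonneg init f J b s) (Finset.mem_univ m)
  have hint : ∀ m, Integrable (Set.indicator (closedBall (out m) ε) (fun _ => (1:ℝ))) μ := fun m =>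
    (integrable_const _).indicator measurableSet_closedBall
  have h1 : ∫ s, ∑ m, uLaw init f J m s * Set.indicator (closedBall (out m) ε) (fun _ => (1:ℝ)) s ∂μ
      ≤ ∫ s, ∑ m, Set.indicator (closedBall (out m) ε) (fun _ => (1:ℝ)) s ∂μ := by
    apply integral_mono_of_nonneg
    · exact Filter.Eventually.of_forall fun s => Finset.sum_nonneg fun m _ =>
        mul_nonneg (uLaw_nonneg init f J m s) (hind0 m s)
    · exact integrable_finsetSum _ fun m _ => hint m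
    · refine Filter.Eventually.of_forall fun s => Finset.sum_le_sum fun m _ => ?_
      exact mul_le_of_le_one_left (hind0 m s) (hu1 m s)
  rw [integral_finsetSum _ fun m _ => hint m] at h1
  have h2 : ∀ m, ∫ s, Set.indicator (closedBall (out m) ε) (fun _ => (1:ℝ)) s ∂μ ≤ 2 * (4 * ε) ^ (d - 1) := by
    intro m
    rw [integral_indicator measurableSet_closedBall]
    simp only [integral_const, smul_eq_mul, mul_one, Measure.real, Measure.restrict_apply MeasurableSet.univ,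
      Set.univ_inter]
    exact ENNReal.toReal_le_of_le_ofReal (by positivity) (hμ.ball _ _ hε)
  calc (2 / 3 : ℝ) ≤ _ := hsucc
    _ ≤ _ := h1
    _ ≤ ∑ _m : σ, 2 * (4 * ε) ^ (d - 1) := Finset.sum_le_sum fun m _ => h2 m
    _ = _ := by
      simp

/-- The counting bound in logarithmic form. -/
theorem count_log {ε : ℝ} (hε : 0 < ε) (hK1 : 1 ≤ K) (hK : K ≤ 2 ^ M) (hd1 : 1 ≤ d)
    (h1 : (2 / 3 : ℝ) ≤ (K:ℝ) * 2 * (2 * (4 * ε) ^ (d - 1))) :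
    ((d:ℝ) - 1) * Real.log (1 / (4 * ε)) ≤ (M:ℝ) + 3 := by
  have hlog2 : Real.log 2 ≤ 0.7 := by
    have := Real.log_two_lt_d9
    linarith
  have hKr : (1:ℝ) ≤ (K:ℝ) := by exact_mod_cast hK1
  have hlogK : Real.log (K:ℝ) ≤ (M:ℝ) * Real.log 2 := by
    have h1 : (K:ℝ) ≤ (2:ℝ) ^ M := by exact_mod_cast hK
    have h2 := Real.log_le_log (by linarith) h1
    rwa [Real.log_pow] at h2
  have hx : 0 < 4 * ε := by positivity
  have h2 : Real.log (2 / 3) ≤ Real.log ((K:ℝ) * 2 * (2 * (4 * ε) ^ (d - 1))) :=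
    Real.log_le_log (by norm_num) h1
  rw [Real.log_mul (by positivity) (by positivity), Real.log_mul (by positivity) (by norm_num),
    Real.log_mul (by norm_num) (by positivity), Real.log_pow] at h2
  have h3 : Real.log (4 * ε) = -Real.log (1 / (4 * ε)) := by
    rw [one_div, Real.log_inv]
    ring
  rw [h3] at h2
  have h4 : Real.log (2 / 3) = Real.log 2 - Real.log 3 := Real.log_div (by norm_num) (by norm_num)
  have h5 : Real.log 3 ≤ 2 * Real.log 2 := by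
    have : Real.log 3 ≤ Real.log 4 := Real.log_le_log (by norm_num) (by norm_num)
    rw [show (4:ℝ) = 2 ^ 2 by norm_num, Real.log_pow] at this
    simpa using this
  have h6 : ((d - 1 : ℕ) : ℝ) = (d:ℝ) - 1 := by
    rw [Nat.cast_sub hd1]
    simp
  rw [h6] at h2
  have h7 : (M:ℝ) * Real.log 2 ≤ (M:ℝ) * 0.7 := by gcongr
  have h8 : ((d:ℝ) - 1) * -Real.log (1 / (4 * ε)) = -(((d:ℝ) - 1) * Real.log (1 / (4 * ε))) := by ring
  rw [h8] at h2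
  have hM : (M:ℝ) * 0.7 ≤ (M:ℝ) := by
    have : (0:ℝ) ≤ (M:ℝ) := by positivity
    linarith
  linarith

/-- The general memory-sample tradeoff. -/
theorem main_tradeoff (hd : 2 ^ 20 ≤ d)
    (hK : K ≤ 2 ^ M) (hM : (M : ℝ) ≤ 2 ^ (d / 2)) (L : Learner d T K Ω) (ν : Measure Ω)
    [IsProbabilityMeasure ν] {ε : ℝ} (hε : 0 < ε) (hε1 : ε ≤ Real.exp (-100)) (h : L.Succeeds ν ε) :
    (d : ℝ) ^ 3 * Real.log (1 / ε) ≤ 10 ^ 8 * ((T : ℝ) + d) * ((M : ℝ) + (d : ℝ) ^ 2) := by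
  by_contra hH
  push Not at hH
  have hd1 : 1 ≤ d := by omega
  have hprior := prior_signalLaw hd1
  set j := d / 64 with hjdef
  have hj14 : 2 ^ 14 ≤ j := by omega
  set J := T / j + 1 with hJdef
  have hTJ : T ≤ J * j := by
    have h1 := Nat.div_add_mod T j
    have h2 := Nat.mod_lt T (show 0 < j by omega)
    rw [hJdef, add_mul, one_mul, mul_comm]
    omega
  have hJj : J * j ≤ T + j := by
    rw [hJdef, add_mul, one_mul]
    have := Nat.div_mul_le_self T j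
    omega
  obtain ⟨init, f, out, hf, hsucc⟩ := reduce_learner L ν hd1 hε h j J hTJ
  -- real facts
  have hlog2 : Real.log 2 ≤ 0.7 := by
    have := Real.log_two_lt_d9
    linarith
  have hlog20 : 0 < Real.log 2 := by positivity
  have hD20 : (2:ℝ) ^ 20 ≤ (d:ℝ) := by exact_mod_cast hd
  have hD0 : (0:ℝ) < (d:ℝ) := lt_of_lt_of_le (by positivity) hD20
  have hj14r : (2:ℝ) ^ 14 ≤ (j:ℝ) := by exact_mod_cast hj14
  have hj0 : (0:ℝ) < (j:ℝ) := lt_of_lt_of_le (by positivity) hj14r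
  have hjD : 64 * (j:ℝ) ≤ (d:ℝ) := by
    have : 64 * j ≤ d := by omega
    exact_mod_cast this
  have hDj : (d:ℝ) ≤ 65 * (j:ℝ) := by
    have : d ≤ 65 * j := by omega
    exact_mod_cast this
  have hJjr : (J:ℝ) * j ≤ T + d := by
    have : J * j ≤ T + d := by omega
    exact_mod_cast this
  have hM0 : (0:ℝ) ≤ (M:ℝ) := by positivity
  have hT0 : (0:ℝ) ≤ (T:ℝ) := by positivity
  have hJ0 : (0:ℝ) ≤ (J:ℝ) := by positivity
  have hε8 : ε < 1 / 8 := by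
    refine lt_of_le_of_lt hε1 ?_
    have h1 : Real.exp (-100) ≤ Real.exp (-3) := Real.exp_le_exp.2 (by norm_num)
    have h2 : Real.exp (-3) < 1 / 8 := by
      rw [Real.exp_neg, inv_eq_one_div]
      apply one_div_lt_one_div_of_lt (by norm_num)
      have h3 : Real.exp 3 = Real.exp 1 ^ 3 := by
        rw [← Real.exp_nat_mul]
        norm_num
      rw [h3]
      have h4 := Real.exp_one_gt_d9
      have h5 : (2:ℝ) ^ 3 < Real.exp 1 ^ 3 := by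
        gcongr
        linarith
      linarith
    linarith
  -- the logarithms
  obtain ⟨Λ₁, hΛ₁⟩ : ∃ Λ₁, Λ₁ = Real.log (1 / ε) := ⟨_, rfl⟩
  obtain ⟨Λ, hΛ⟩ : ∃ Λ, Λ = Real.log (1 / (4 * ε)) := ⟨_, rfl⟩
  rw [← hΛ₁] at hH
  have hΛ₁100 : 100 ≤ Λ₁ := by
    rw [hΛ₁, one_div, Real.log_inv]
    have h1 : Real.log ε ≤ Real.log (Real.exp (-100)) := Real.log_le_log hε hε1
    rw [Real.log_exp] at h1
    linarith
  have hΛΛ : Λ₁ = Λ + 2 * Real.log 2 := by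
    have h2 : (1:ℝ) / ε = 4 * (1 / (4 * ε)) := by
      field_simp
    rw [hΛ₁, hΛ, h2, Real.log_mul (by norm_num) (by positivity),
      show (4:ℝ) = 2 ^ 2 by norm_num, Real.log_pow]
    push_cast
    ring
  have hΛ98 : 98 ≤ Λ := by linarith
  -- counting
  have hKpos : 1 ≤ K := by
    have := init.1.2
    omega
  have hKr : (1:ℝ) ≤ (K:ℝ) := by exact_mod_cast hKpos
  have hcard : ((Fintype.card (Fin K × Bool) : ℕ) : ℝ) = (K:ℝ) * 2 := by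
    simp
  have hlogK : Real.log (K:ℝ) ≤ (M:ℝ) * Real.log 2 := by
    have h1 : (K:ℝ) ≤ (2:ℝ) ^ M := by exact_mod_cast hK
    have h2 := Real.log_le_log (by linarith) h1
    rwa [Real.log_pow] at h2
  have hcount : ((d:ℝ) - 1) * Λ ≤ (M:ℝ) + 3 := by
    have h1 := count_bound hprior init f hf J out hε hsucc
    rw [hcard] at h1
    rw [hΛ]
    exact count_log hε hKpos hK hd1 h1
  -- the horizon is small
  have hTsmall := arith_small hD20 hM0 hT0 hlog2 hΛ98 hΛΛ hcount hH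
  have hd20 : 0 < (d:ℝ) ^ 2 := by positivity
  have hTd2 : (T:ℝ) + d < (d:ℝ) ^ 2 := by linarith
  have hJ65 : (J:ℝ) ≤ 65 * (d:ℝ) := by
    have h1 : (J:ℝ) * j ≤ (65 * (d:ℝ)) * j := by
      calc (J:ℝ) * j ≤ (d:ℝ) ^ 2 := by linarith
        _ = (d:ℝ) * (d:ℝ) := by ring
        _ ≤ (d:ℝ) * (65 * (j:ℝ)) := by gcongr
        _ = _ := by ring
    exact le_of_mul_le_mul_right h1 hj0
  -- the gain
  have hgp := goodParams_main hd
  have hj12 : 12 ≤ j := by omega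
  obtain ⟨x, hx⟩ : ∃ x, x = Real.log ((Fintype.card (Fin K × Bool) : ℕ) : ℝ) := ⟨_, rfl⟩
  have hxle : x ≤ (M:ℝ) + 1 := by
    rw [hx, hcard, Real.log_mul (by positivity) (by norm_num)]
    have h7 : (M:ℝ) * Real.log 2 ≤ (M:ℝ) * 0.7 := by gcongr
    linarith
  have hx0 : 0 ≤ x := by
    rw [hx, hcard]
    apply Real.log_nonneg
    linarith
  obtain ⟨Δ, hΔ⟩ : ∃ Δ, Δ = gainC j 345 x := ⟨_, rfl⟩
  have hΔle : Δ ≤ 495 * (j:ℝ) + 2 / (j:ℝ) * ((M:ℝ) + 2) := by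
    rw [hΔ]
    refine (gainC_bound hj12).trans ?_
    have : 2 / (j:ℝ) * (x + 1) ≤ 2 / (j:ℝ) * ((M:ℝ) + 2) :=
      mul_le_mul_of_nonneg_left (by linarith) (by positivity)
    linarith
  have hj1r : (1:ℝ) ≤ (j:ℝ) := le_trans (by norm_num) hj14r
  have hΔle2 : Δ ≤ 495 * (d:ℝ) + 2 * ((M:ℝ) + 2) := by
    have h1 : 2 / (j:ℝ) ≤ 2 := by
      rw [div_le_iff₀ hj0]
      linarith
    have h2 : 2 / (j:ℝ) * ((M:ℝ) + 2) ≤ 2 * ((M:ℝ) + 2) := by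
      gcongr
    have h3 : (j:ℝ) ≤ (d:ℝ) := by linarith
    linarith
  have hbC : bC d ≤ 1.4 * (d:ℝ) := by
    unfold bC
    have h2 : (0:ℝ) ≤ 2 * (d:ℝ) - 1 := by
      have : (1:ℝ) ≤ (2:ℝ) ^ 20 := by norm_num
      linarith
    have : (2 * (d:ℝ) - 1) * Real.log 2 ≤ (2 * (d:ℝ) - 1) * 0.7 := by gcongr
    linarith
  have hΔ0 : 0 ≤ Δ := by
    rw [hΔ]
    unfold gainC
    positivity
  -- the small dead mass
  have hδ1 : (J:ℝ) * (2 * Real.exp (-(j:ℝ))) ≤ 1 / 24 := by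
    have h1 : ((j:ℝ) / 4) ^ 4 ≤ Real.exp (j:ℝ) := by
      have h2 : (j:ℝ) / 4 ≤ Real.exp ((j:ℝ) / 4) := by
        have := Real.add_one_le_exp ((j:ℝ) / 4)
        linarith
      have h3 : Real.exp (j:ℝ) = Real.exp ((j:ℝ) / 4) ^ 4 := by
        rw [← Real.exp_nat_mul]
        congr 1
        push_cast
        ring
      rw [h3]
      gcongr
    have h2 : Real.exp (-(j:ℝ)) * Real.exp (j:ℝ) = 1 := by
      rw [← Real.exp_add]
      simp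
    exact arith_exp hj14r (by linarith) (Real.exp_pos _) h2 h1
  have hδ2 : (bC d + (J:ℝ) * Δ) / deadWeight d ≤ 1 / 24 := by
    unfold deadWeight
    have hq : (d:ℝ) ≤ (2:ℝ) ^ (d / 8) := by exact_mod_cast (d_lt_pow hd).le
    have hpow : (2:ℝ) ^ (d - 2) = 256 * (2:ℝ) ^ (d - 10) := by
      rw [show d - 2 = (d - 10) + 8 by omega, pow_add]
      ring
    rw [hpow, div_le_iff₀ (by positivity)]
    obtain ⟨P, hP⟩ : ∃ P, P = (2:ℝ) ^ (d - 10) := ⟨_, rfl⟩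
    rw [← hP]
    have ht1 : (2:ℝ) ^ 9 * (2:ℝ) ^ (d / 8) ≤ P := by
      rw [← pow_add, hP]
      exact pow_le_pow_right₀ (by norm_num) (by omega)
    have ht2 : (2:ℝ) ^ 15 * ((2:ℝ) ^ (d / 8) * (2:ℝ) ^ (d / 8)) ≤ P := by
      rw [← pow_add, ← pow_add, hP]
      exact pow_le_pow_right₀ (by norm_num) (by omega)
    have ht3 : (2:ℝ) ^ 8 * ((2:ℝ) ^ (d / 8) * (2:ℝ) ^ (d / 2)) ≤ P := by
      rw [← pow_add, ← pow_add, hP]
      exact pow_le_pow_right₀ (by norm_num) (by omega)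
    have := arith_num hD0.le hM0 hJ0 hΔ0 hJ65 hΔle2 hbC hq hM ht1 ht2 ht3
    have hP0 : 0 < P := by rw [hP]; positivity
    linarith
  have hδ : (J:ℝ) * (2 * Real.exp (-(j:ℝ))) + (bC d + (J:ℝ) * Δ) / deadWeight d ≤ 1 / 12 := by
    linarith
  -- the main bound
  have hmain := chain_bound hprior hgp init f hf J out hε hε8 hsucc (by
    rw [← hx, ← hΔ]
    exact hδ)
  rw [← hx, ← hΔ, ← hΛ] at hmain
  have hΔj : (j:ℝ) * Δ ≤ 495 * (j:ℝ) ^ 2 + 2 * ((M:ℝ) + 2) := by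
    have h1 : (j:ℝ) * Δ ≤ (j:ℝ) * (495 * (j:ℝ) + 2 / (j:ℝ) * ((M:ℝ) + 2)) := by gcongr
    have h2 : (j:ℝ) * (495 * (j:ℝ) + 2 / (j:ℝ) * ((M:ℝ) + 2)) = 495 * (j:ℝ) ^ 2 + 2 * ((M:ℝ) + 2) := by
      field_simp
    rwa [h2] at h1
  have hfin := arith_final (Λ₁ := Λ₁) hD20 hj0 hjD hDj hJjr hM0 hT0 hΛ98 (by linarith) (by linarith) hΔ0 hbC hΔj hmain
  linarith

end

end Vale.Agent.Lib.P309
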