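import Vale.Agent.Lib.P309.Gauss

/-!
# The row step: small ball probabilities of Gaussian rows against a tuple of points
-/

open MeasureTheory ProbabilityTheory Metric Set
open scoped RealInnerProductSpace ENNReal

namespace Vale.Agent.Lib.P309

variable {d : ℕ}

theorem finrank_spanS_le (s₀ : Vec d) (S : List (Vec d)) :
    Module.finrank ℝ (spanS s₀ S) ≤ S.length := by
  classical
  have h1 : spanS s₀ S = Submodule.span ℝ ((S.toFinset.image fun s => s - s₀ : Finset (Vec d)) : Set (Vec d)) := by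
    unfold spanS
    congr 1
    ext v
    simp only [Set.mem_ofPred_eq, Finset.coe_image, List.coe_toFinset, Set.mem_image]
    constructor
    · rintro ⟨s, hs, rfl⟩
      exact ⟨s, hs, rfl⟩
    · rintro ⟨s, hs, rfl⟩
      exact ⟨s, hs, rfl⟩
  rw [h1]
  refine (finrank_span_finset_le_card _).trans ?_
  exact Finset.card_image_le.trans (List.toFinset_card_le S)

theorem measurableSet_boxC (w : ℝ) (s₀ : Vec d) (S : List (Vec d)) :
    MeasurableSet (boxC w s₀ S) := by
  induction S with
  | nil => simp [boxC]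
  | cons s S ih =>
    have h1 : boxC w s₀ (s :: S) = {x | |⟪x, s - s₀⟫| ≤ 2 * w} ∩ boxC w s₀ S := by
      ext x; simp [boxC]
    rw [h1]
    refine MeasurableSet.inter ?_ ih
    have : Continuous fun x : Vec d => |⟪x, s - s₀⟫| := by fun_prop
    exact measurableSet_le this.measurable measurable_const

theorem continuous_dperp (V : Submodule ℝ (Vec d)) (b : Vec d) : Continuous (dperp V b) := by
  unfold dperp
  fun_prop

theorem boxC_cons_subset (w : ℝ) (s₀ s' : Vec d) (S : List (Vec d)) :
    boxC w s₀ (s' :: S) ⊆ boxC w s₀ S := fun _ hx s hs => hx s (List.mem_cons_of_mem _ hs)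

/-- One more point in the tuple gains the inverse of its distance from the span of the others. -/
theorem row_step {w : ℝ} (hw : 0 < w) (s₀ s' : Vec d) (S : List (Vec d)) :
    gam d (boxC w s₀ (s' :: S))
      ≤ gam d (boxC w s₀ S) *
        (ENNReal.ofReal (4 * w / √(2 * Real.pi)) / ENNReal.ofReal (dperp (spanS s₀ S) s₀ s')) := by
  set V := spanS s₀ S with hV
  set u := V.starProjection (s' - s₀) with hu
  set v := (s' - s₀) - u with hv
  have hδ : dperp V s₀ s' = ‖v‖ := rfl
  rw [hδ]
  have hsq : 0 < √(2 * Real.pi) := by positivity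
  have hcpos : 0 < 4 * w / √(2 * Real.pi) := by positivity
  by_cases hv0 : ‖v‖ = 0
  · rw [hv0, ENNReal.ofReal_zero, ENNReal.div_zero (by simpa using hcpos)]
    by_cases hq : gam d (boxC w s₀ S) = 0
    · rw [hq, zero_mul]
      exact (measure_mono (boxC_cons_subset w s₀ s' S)).trans (le_of_eq hq)
    · rw [ENNReal.mul_top hq]
      exact le_top
  have hδpos : 0 < ‖v‖ := lt_of_le_of_ne (norm_nonneg _) (Ne.symm hv0)
  set δ := ‖v‖ with hδdef
  have hkey : ∃ e : Vec d, ‖e‖ = 1 ∧ (∀ s ∈ S, ⟪e, s - s₀⟫ = 0) ∧ ⟪e, u⟫ = 0 ∧ s' - s₀ = δ • e + u := by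
    have hvperp : v ∈ Vᗮ := Submodule.sub_starProjection_mem_orthogonal _
    have huV : u ∈ V := Submodule.starProjection_apply_mem _ _
    have heperp : δ⁻¹ • v ∈ Vᗮ := Submodule.smul_mem _ _ hvperp
    have hSV : ∀ s ∈ S, s - s₀ ∈ V := fun s hs =>
      Submodule.subset_span ⟨s, hs, rfl⟩
    refine ⟨δ⁻¹ • v, ?_, ?_, ?_, ?_⟩
    · rw [norm_smul, Real.norm_eq_abs, abs_of_pos (inv_pos.2 hδpos), inv_mul_cancel₀ hδpos.ne']
    · exact fun s hs => Submodule.inner_left_of_mem_orthogonal (hSV s hs) heperp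
    · exact Submodule.inner_left_of_mem_orthogonal huV heperp
    · rw [smul_smul, mul_inv_cancel₀ hδpos.ne', one_smul, hv]
      abel
  obtain ⟨e, henorm, heS, heu, hsplit⟩ := hkey
  have hee : ⟪e, e⟫ = 1 := by
    rw [real_inner_self_eq_norm_sq, henorm]
    norm_num
  -- resampling
  have hF : Measurable (Set.indicator (boxC w s₀ (s' :: S)) (fun _ => (1 : ℝ≥0∞))) :=
    measurable_const.indicator (measurableSet_boxC w s₀ _)
  have h1 : gam d (boxC w s₀ (s' :: S))
      = ∫⁻ x, ∫⁻ g, Set.indicator (boxC w s₀ (s' :: S)) (fun _ => (1 : ℝ≥0∞)) (x + (g - ⟪x, e⟫) • e)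
          ∂gaussianReal 0 1 ∂gam d := by
    rw [← lintegral_gam_resample henorm hF, lintegral_indicator (measurableSet_boxC w s₀ _)]
    simp
  rw [h1]
  have hbd : ∀ x, ∫⁻ g, Set.indicator (boxC w s₀ (s' :: S)) (fun _ => (1 : ℝ≥0∞)) (x + (g - ⟪x, e⟫) • e)
      ∂gaussianReal 0 1
      ≤ Set.indicator (boxC w s₀ S) (fun _ => ENNReal.ofReal (4 * w / √(2 * Real.pi) / δ)) x := by
    intro x
    have hinner : ∀ g s, s ∈ S → ⟪x + (g - ⟪x, e⟫) • e, s - s₀⟫ = ⟪x, s - s₀⟫ := by
      intro g s hs
      rw [inner_add_left, inner_smul_left, heS s hs]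
      simp
    have hinner' : ∀ g : ℝ, ⟪x + (g - ⟪x, e⟫) • e, s' - s₀⟫ = δ * g + ⟪x, u⟫ := by
      intro g
      rw [hsplit, inner_add_right, inner_add_left, inner_add_left, inner_smul_left, inner_smul_left,
        inner_smul_right, inner_smul_right, heu, hee]
      simp only [conj_trivial]
      ring
    by_cases hx : x ∈ boxC w s₀ S
    · rw [Set.indicator_of_mem hx]
      have h2 : ∀ g : ℝ, Set.indicator (boxC w s₀ (s' :: S)) (fun _ => (1 : ℝ≥0∞)) (x + (g - ⟪x, e⟫) • e)
          ≤ Set.indicator (Set.Icc ((-(2 * w) - ⟪x, u⟫) / δ) ((2 * w - ⟪x, u⟫) / δ)) (fun _ => (1 : ℝ≥0∞)) g := by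
        intro g
        by_cases hg : x + (g - ⟪x, e⟫) • e ∈ boxC w s₀ (s' :: S)
        · have h3 := hg s' (by simp)
          rw [hinner', abs_le] at h3
          have h4 : g ∈ Set.Icc ((-(2 * w) - ⟪x, u⟫) / δ) ((2 * w - ⟪x, u⟫) / δ) := by
            constructor
            · rw [div_le_iff₀ hδpos]
              linarith [h3.1]
            · rw [le_div_iff₀ hδpos]
              linarith [h3.2]
          simp [Set.indicator_of_mem h4, hg]
        · simp [hg, Set.indicator_apply]
      refine (lintegral_mono h2).trans ?_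
      rw [lintegral_indicator measurableSet_Icc]
      simp only [lintegral_const, one_mul, Measure.restrict_apply MeasurableSet.univ, Set.univ_inter]
      refine (gaussian_Icc_le _ _).trans (le_of_eq ?_)
      congr 1
      field_simp
      ring
    · rw [Set.indicator_of_notMem hx]
      have h2 : ∀ g : ℝ, Set.indicator (boxC w s₀ (s' :: S)) (fun _ => (1 : ℝ≥0∞)) (x + (g - ⟪x, e⟫) • e) = 0 := by
        intro g
        apply Set.indicator_of_notMem
        intro hg
        apply hx
        intro s hs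
        have := hg s (List.mem_cons_of_mem _ hs)
        rwa [hinner g s hs] at this
      simp [h2]
  refine (lintegral_mono hbd).trans ?_
  rw [lintegral_indicator (measurableSet_boxC w s₀ _)]
  simp only [lintegral_const, Measure.restrict_apply MeasurableSet.univ, Set.univ_inter]
  rw [mul_comm, ENNReal.ofReal_div_of_pos hδpos]

end Vale.Agent.Lib.P309
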