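import Vale.Agent.Lib.P309.Cells
import Vale.Agent.Lib.P309.Row

/-!
# Inverse moments of the distance from an affine subspace under a regular measure
-/

open MeasureTheory ProbabilityTheory Metric Set
open scoped RealInnerProductSpace ENNReal

namespace Vale.Agent.Lib.P309

variable {d : ℕ}

/-- Separated sets in a ball of a finite-dimensional space are small, by a volume argument. -/
lemma card_le_of_sep {E : Type*} [NormedAddCommGroup E] [NormedSpace ℝ E] [FiniteDimensional ℝ E]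
    (s : Finset E) {R r : ℝ} (hr : 0 < r) (hR : 0 ≤ R) (hs : ∀ c ∈ s, ‖c‖ ≤ R)
    (h : ∀ c ∈ s, ∀ c' ∈ s, c ≠ c' → r ≤ ‖c - c'‖) :
    (s.card : ℝ) ≤ (1 + 2 * R / r) ^ Module.finrank ℝ E := by
  borelize E
  let μ : Measure E := Measure.addHaar
  set δ : ℝ := r / 2 with hδ
  set ρ : ℝ := R + r / 2 with hρ
  have δpos : 0 < δ := by positivity
  have ρpos : 0 < ρ := by positivity
  set A := ⋃ c ∈ s, ball (c : E) δ with hA
  have D : Set.Pairwise (s : Set E) (Function.onFun Disjoint fun c => ball (c : E) δ) := by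
    rintro c hc c' hc' hcc
    apply ball_disjoint_ball
    rw [dist_eq_norm]
    have := h c hc c' hc' hcc
    rw [hδ]
    linarith
  have A_subset : A ⊆ ball (0 : E) ρ := by
    refine iUnion₂_subset fun x hx => ?_
    apply ball_subset_ball'
    rw [dist_zero_right]
    have := hs x hx
    rw [hδ, hρ]
    linarith
  have I : (s.card : ℝ≥0∞) * ENNReal.ofReal (δ ^ Module.finrank ℝ E) * μ (ball 0 1) ≤
      ENNReal.ofReal (ρ ^ Module.finrank ℝ E) * μ (ball 0 1) :=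
    calc (s.card : ℝ≥0∞) * ENNReal.ofReal (δ ^ Module.finrank ℝ E) * μ (ball 0 1) = μ A := by
          rw [hA, measure_biUnion_finset D fun c _ => measurableSet_ball]
          simp only [μ.addHaar_ball_of_pos _ δpos]
          simp only [Finset.sum_const, nsmul_eq_mul, mul_assoc]
      _ ≤ μ (ball (0 : E) ρ) := measure_mono A_subset
      _ = ENNReal.ofReal (ρ ^ Module.finrank ℝ E) * μ (ball 0 1) := by
          simp only [μ.addHaar_ball_of_pos _ ρpos]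
  have J : (s.card : ℝ≥0∞) * ENNReal.ofReal (δ ^ Module.finrank ℝ E) ≤
      ENNReal.ofReal (ρ ^ Module.finrank ℝ E) :=
    (ENNReal.mul_le_mul_iff_left (measure_ball_pos _ _ zero_lt_one).ne' measure_ball_lt_top.ne).1 I
  have K : (s.card : ℝ) * δ ^ Module.finrank ℝ E ≤ ρ ^ Module.finrank ℝ E := by
    have h1 : ENNReal.ofReal ((s.card : ℝ) * δ ^ Module.finrank ℝ E) ≤
        ENNReal.ofReal (ρ ^ Module.finrank ℝ E) := by
      rw [ENNReal.ofReal_mul (by positivity), ENNReal.ofReal_natCast]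
      exact J
    exact (ENNReal.ofReal_le_ofReal_iff (by positivity)).1 h1
  have e : 1 + 2 * R / r = ρ / δ := by
    rw [hρ, hδ]
    field_simp
    ring
  rw [e, div_pow, le_div_iff₀ (by positivity)]
  exact K

/-- Finite-dimensional nets by a volume argument. -/
theorem exists_net (V : Submodule ℝ (Vec d)) {R r : ℝ} (hR : 0 < R) (hr : 0 < r) :
    ∃ F : Finset (Vec d), (F.card : ℝ) ≤ (1 + 2 * R / r) ^ Module.finrank ℝ V ∧
      ∀ v ∈ V, ‖v‖ ≤ R → ∃ c ∈ F, ‖v - c‖ ≤ r := by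
  classical
  let Pr : Finset V → Prop := fun F =>
    (∀ c ∈ F, ‖c‖ ≤ R) ∧ ∀ c ∈ F, ∀ c' ∈ F, c ≠ c' → r ≤ ‖c - c'‖
  set N := ⌈(1 + 2 * R / r) ^ Module.finrank ℝ V⌉₊ with hN
  have hcard : ∀ F, Pr F → F.card ≤ N := by
    intro F hF
    have h1 := card_le_of_sep F hr hR.le hF.1 hF.2
    have h2 := h1.trans (Nat.le_ceil _)
    exact_mod_cast h2
  set k := Nat.findGreatest (fun k => ∃ F, Pr F ∧ F.card = k) N with hk
  have hspec : ∃ F, Pr F ∧ F.card = k :=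
    Nat.findGreatest_spec (P := fun k => ∃ F, Pr F ∧ F.card = k) (m := 0) (Nat.zero_le _)
      ⟨∅, ⟨by simp, by simp⟩, rfl⟩
  obtain ⟨F, hF, hFc⟩ := hspec
  refine ⟨F.image Subtype.val, ?_, ?_⟩
  · have h1 := card_le_of_sep F hr hR.le hF.1 hF.2
    have h2 : ((F.image Subtype.val).card : ℝ) ≤ F.card := by
      exact_mod_cast Finset.card_image_le
    exact h2.trans h1
  · intro v hv hvR
    by_contra hc
    push Not at hc
    have hfar : ∀ c ∈ F, r < ‖(⟨v, hv⟩ : V) - c‖ := by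
      intro c hcF
      have := hc c.1 (Finset.mem_image_of_mem _ hcF)
      exact this
    have hnot : (⟨v, hv⟩ : V) ∉ F := by
      intro hmem
      have := hfar _ hmem
      simp only [sub_self, norm_zero] at this
      linarith
    have hP : Pr (insert (⟨v, hv⟩ : V) F) := by
      constructor
      · intro c hcm
        rcases Finset.mem_insert.1 hcm with rfl | hcF
        · exact hvR
        · exact hF.1 c hcF
      · intro c hcm c' hcm' hne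
        rcases Finset.mem_insert.1 hcm with rfl | hcF
        · rcases Finset.mem_insert.1 hcm' with rfl | hcF'
          · exact absurd rfl hne
          · exact (hfar c' hcF').le
        · rcases Finset.mem_insert.1 hcm' with rfl | hcF'
          · rw [norm_sub_rev]
            exact (hfar c hcF).le
          · exact hF.2 c hcF c' hcF' hne
    have h3 : (insert (⟨v, hv⟩ : V) F).card ≤ k :=
      Nat.le_findGreatest (hcard _ hP) ⟨_, hP, rfl⟩
    rw [Finset.card_insert_of_notMem hnot] at h3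
    omega

lemma rad_pos (D : ℕ) : 0 < rad D := by rw [rad]; positivity

lemma rad_add (D ℓ : ℕ) : rad (D + ℓ) = rad D / 2 ^ ℓ := by
  rw [rad, rad, pow_add, inv_pow (2:ℝ) ℓ, div_eq_mul_inv]

/-- The mass of a neighbourhood of an affine subspace under a regular measure. -/
theorem measure_dperp_le (ρ : Measure (Vec d)) {j u D : ℕ} {z : Vec d}
    (hsupp : ρ (closedBall z (rad D))ᶜ = 0)
    (hreg : ∀ (ℓ : ℕ) (k : Fin d → ℤ), ρ (cellSet d (D + ℓ) k) ≤ 2 ^ u / 2 ^ (8 * j * ℓ))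
    (V : Submodule ℝ (Vec d)) (b : Vec d) (ℓ : ℕ) :
    ρ {s | dperp V b s ≤ rad (D + ℓ)}
      ≤ ((3:ℝ≥0∞) * 2 ^ ℓ) ^ Module.finrank ℝ V * ((2 ^ 36) ^ d * (2 ^ u / 2 ^ (8 * j * ℓ))) := by
  classical
  set τ := rad D with hτ
  set r := rad (D + ℓ) with hr
  have τpos : 0 < τ := rad_pos D
  have rpos : 0 < r := rad_pos _
  obtain ⟨F, hFcard, hFnet⟩ := exists_net V τpos rpos
  set a : Vec d → Vec d := fun s => b + V.starProjection (s - b) with ha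
  choose G hGcard hGcover using fun c : Vec d => exists_cells_cover (d := d) (D + ℓ) (a z + c)
  set T := F.biUnion G with hT
  have hsub : {s | dperp V b s ≤ r} ⊆
      (closedBall z τ)ᶜ ∪ ⋃ k ∈ T, cellSet d (D + ℓ) k := by
    intro s hs
    by_cases hball : s ∈ closedBall z τ
    · right
      have hasz : a s - a z = V.starProjection (s - z) := by
        have hP : V.starProjection (s - z) =
            V.starProjection (s - b) - V.starProjection (z - b) := by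
          rw [← map_sub]
          congr 1
          abel
        rw [hP]
        simp only [ha]
        abel
      have hv : a s - a z ∈ V := by
        rw [hasz]
        exact Submodule.starProjection_apply_mem _ _
      have hvn : ‖a s - a z‖ ≤ τ := by
        rw [hasz]
        refine (Submodule.norm_starProjection_apply_le _ _).trans ?_
        rw [← dist_eq_norm]
        exact mem_closedBall.1 hball
      obtain ⟨c, hcF, hc⟩ := hFnet _ hv hvn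
      have hdist : s ∈ closedBall (a z + c) (2 * rad (D + ℓ)) := by
        rw [mem_closedBall, dist_eq_norm]
        have e : s - (a z + c) = ((s - b) - V.starProjection (s - b)) + (a s - a z - c) := by
          simp only [ha]
          abel
        rw [e]
        refine (norm_add_le _ _).trans ?_
        have h1 : ‖(s - b) - V.starProjection (s - b)‖ ≤ r := hs
        rw [← hr]
        linarith
      have hmem := hGcover c s hdist
      refine Set.mem_biUnion (x := cellIdx d (D + ℓ) s) ?_ rfl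
      exact Finset.mem_coe.2 (Finset.mem_biUnion.2 ⟨c, hcF, hmem⟩)
    · left
      exact hball
  have hTcard : T.card ≤ F.card * (2 ^ 36) ^ d :=
    Finset.card_biUnion_le_card_mul _ _ _ fun c _ => hGcard c
  have hFcard' : F.card ≤ (3 * 2 ^ ℓ) ^ Module.finrank ℝ V := by
    have h1 : 1 + 2 * τ / r ≤ ((3 * 2 ^ ℓ : ℕ) : ℝ) := by
      have e : τ / r = 2 ^ ℓ := by
        rw [hr, rad_add, ← hτ]
        field_simp
      have e2 : 2 * τ / r = 2 * 2 ^ ℓ := by rw [mul_div_assoc, e]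
      rw [e2]
      push_cast
      have : (1:ℝ) ≤ 2 ^ ℓ := one_le_pow₀ (by norm_num)
      linarith
    have h2 : (F.card : ℝ) ≤ (((3 * 2 ^ ℓ : ℕ) : ℝ)) ^ Module.finrank ℝ V :=
      hFcard.trans (pow_le_pow_left₀ (by positivity) h1 _)
    exact_mod_cast h2
  calc ρ {s | dperp V b s ≤ r}
      ≤ ρ ((closedBall z τ)ᶜ ∪ ⋃ k ∈ T, cellSet d (D + ℓ) k) := measure_mono hsub
    _ ≤ ρ (closedBall z τ)ᶜ + ρ (⋃ k ∈ T, cellSet d (D + ℓ) k) := measure_union_le _ _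
    _ = ρ (⋃ k ∈ T, cellSet d (D + ℓ) k) := by rw [hsupp, zero_add]
    _ ≤ ∑ k ∈ T, ρ (cellSet d (D + ℓ) k) := measure_biUnion_finset_le _ _
    _ ≤ ∑ _k ∈ T, ((2:ℝ≥0∞) ^ u / 2 ^ (8 * j * ℓ)) := Finset.sum_le_sum fun k _ => hreg ℓ k
    _ = (T.card : ℝ≥0∞) * (2 ^ u / 2 ^ (8 * j * ℓ)) := by simp
    _ ≤ (((3 * 2 ^ ℓ) ^ Module.finrank ℝ V * (2 ^ 36) ^ d : ℕ) : ℝ≥0∞) *
        (2 ^ u / 2 ^ (8 * j * ℓ)) := by
        gcongr
        exact hTcard.trans (Nat.mul_le_mul_right _ hFcard')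
    _ = _ := by
        push_cast
        ring

/-- If the distance exceeds the radius at depth `D + m`, then the ratio is at most `2 ^ m`. -/
lemma ratio_pow_le {D m n : ℕ} {δ : ℝ} (h : rad (D + m) < δ) :
    (ENNReal.ofReal (rad D) / ENNReal.ofReal δ) ^ n ≤ 2 ^ (m * n) := by
  have hδ : 0 < δ := (rad_pos _).trans h
  have h1 : rad D / δ ≤ 2 ^ m := by
    rw [rad_add, div_lt_iff₀ (by positivity)] at h
    rw [div_le_iff₀ hδ]
    linarith [mul_comm δ ((2:ℝ) ^ m)]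
  have h2 : ENNReal.ofReal (rad D) / ENNReal.ofReal δ ≤ 2 ^ m := by
    rw [← ENNReal.ofReal_div_of_pos hδ]
    calc ENNReal.ofReal (rad D / δ) ≤ ENNReal.ofReal (2 ^ m) := ENNReal.ofReal_le_ofReal h1
      _ = 2 ^ m := by
          rw [ENNReal.ofReal_pow (by norm_num)]
          norm_num
  calc (ENNReal.ofReal (rad D) / ENNReal.ofReal δ) ^ n ≤ ((2:ℝ≥0∞) ^ m) ^ n := by gcongr
    _ = 2 ^ (m * n) := (pow_mul _ _ _).symm

/-- The pointwise layer-cake inequality. -/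
lemma pointwise_bound {D ℓ₀ n : ℕ} {δ : ℝ} (hδ : 0 ≤ δ) :
    (ENNReal.ofReal (rad D) / ENNReal.ofReal δ) ^ n ≤
      2 ^ (ℓ₀ * n) + ∑' t : ℕ, (if δ ≤ rad (D + ℓ₀ + t) then (2:ℝ≥0∞) ^ ((ℓ₀ + t + 1) * n) else 0) := by
  rcases hδ.eq_or_lt with rfl | hpos
  · have h1 : (⊤ : ℝ≥0∞) ≤ ∑' t : ℕ,
        (if (0:ℝ) ≤ rad (D + ℓ₀ + t) then (2:ℝ≥0∞) ^ ((ℓ₀ + t + 1) * n) else 0) := by
      have h2 : (∑' _t : ℕ, (1:ℝ≥0∞)) = ⊤ := ENNReal.tsum_const_eq_top_of_ne_zero one_ne_zero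
      rw [← h2]
      refine ENNReal.tsum_le_tsum fun t => ?_
      rw [if_pos (rad_pos _).le]
      exact one_le_pow₀ (by norm_num)
    exact le_top.trans (h1.trans le_add_self)
  · by_cases hfar : rad (D + ℓ₀) < δ
    · exact (ratio_pow_le hfar).trans le_self_add
    · have hex : ∃ t : ℕ, rad (D + ℓ₀ + (t + 1)) < δ := by
        obtain ⟨t, ht⟩ := exists_pow_lt_of_lt_one hpos (by norm_num : (2:ℝ)⁻¹ < 1)
        refine ⟨t, ?_⟩
        refine lt_of_le_of_lt ?_ ht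
        rw [rad]
        exact pow_le_pow_of_le_one (by norm_num) (by norm_num) (by omega)
      classical
      set t := Nat.find hex with ht
      have h1 := Nat.find_spec hex
      have h2 : δ ≤ rad (D + ℓ₀ + t) := by
        rcases Nat.eq_zero_or_pos t with h0 | h0
        · rw [h0]
          exact not_lt.1 hfar
        · have h3 := Nat.find_min hex (m := t - 1) (by omega)
          rw [show t - 1 + 1 = t by omega] at h3
          exact not_lt.1 h3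
      have h4 : rad (D + (ℓ₀ + t + 1)) < δ := by
        rw [show D + (ℓ₀ + t + 1) = D + ℓ₀ + (t + 1) by ring]
        exact h1
      have h5 := ratio_pow_le (n := n) h4
      refine h5.trans (le_trans ?_ le_add_self)
      have h6 := ENNReal.le_tsum (f := fun t : ℕ =>
        (if δ ≤ rad (D + ℓ₀ + t) then (2:ℝ≥0∞) ^ ((ℓ₀ + t + 1) * n) else 0)) t
      simp only [if_pos h2] at h6
      exact h6

/-- The arithmetic of one term of the layer cake sum. -/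
lemma term_arith {d j u ℓ₀ i t : ℕ} (hj : 1 ≤ j) (hi : i < j)
    (hG : 3 ^ j * (2 ^ 36) ^ d * 2 ^ u ≤ 2 ^ (7 * j * ℓ₀)) :
    2 ^ ((ℓ₀ + t + 1) * (2 * j)) * (3 * 2 ^ (ℓ₀ + t)) ^ i * (2 ^ 36) ^ d * 2 ^ u * 2 ^ t ≤
      2 ^ (2 * j * (ℓ₀ + 1)) * 2 ^ (8 * j * (ℓ₀ + t)) := by
  set ℓ := ℓ₀ + t with hℓ
  have h1 : (3 * 2 ^ ℓ) ^ i ≤ 3 ^ j * 2 ^ (ℓ * j) := by
    calc (3 * 2 ^ ℓ) ^ i ≤ (3 * 2 ^ ℓ) ^ j := Nat.pow_le_pow_right (by positivity) hi.le
      _ = 3 ^ j * 2 ^ (ℓ * j) := by rw [mul_pow, ← pow_mul]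
  have hexp : (ℓ + 1) * (2 * j) + ℓ * j + 7 * j * ℓ₀ + t ≤ 2 * j * (ℓ₀ + 1) + 8 * j * ℓ := by
    have ht : t ≤ j * t := Nat.le_mul_of_pos_left t hj
    rw [hℓ]
    nlinarith
  calc 2 ^ ((ℓ + 1) * (2 * j)) * (3 * 2 ^ ℓ) ^ i * (2 ^ 36) ^ d * 2 ^ u * 2 ^ t
      ≤ 2 ^ ((ℓ + 1) * (2 * j)) * (3 ^ j * 2 ^ (ℓ * j)) * (2 ^ 36) ^ d * 2 ^ u * 2 ^ t := by gcongr
    _ = 2 ^ ((ℓ + 1) * (2 * j)) * 2 ^ (ℓ * j) * 2 ^ t * (3 ^ j * (2 ^ 36) ^ d * 2 ^ u) := by ring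
    _ ≤ 2 ^ ((ℓ + 1) * (2 * j)) * 2 ^ (ℓ * j) * 2 ^ t * 2 ^ (7 * j * ℓ₀) := by gcongr
    _ = 2 ^ ((ℓ + 1) * (2 * j) + ℓ * j + 7 * j * ℓ₀ + t) := by
        simp only [pow_add]
        ring
    _ ≤ 2 ^ (2 * j * (ℓ₀ + 1) + 8 * j * ℓ) := Nat.pow_le_pow_right (by norm_num) hexp
    _ = _ := pow_add _ _ _

/-- The bound of one term of the layer cake sum. -/
lemma moment_term_bound (ρ : Measure (Vec d)) {j u ℓ₀ D : ℕ} {z : Vec d}
    (hj : 1 ≤ j) (hsupp : ρ (closedBall z (rad D))ᶜ = 0)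
    (hreg : ∀ (ℓ : ℕ) (k : Fin d → ℤ), ρ (cellSet d (D + ℓ) k) ≤ 2 ^ u / 2 ^ (8 * j * ℓ))
    (hG : 3 ^ j * (2 ^ 36) ^ d * 2 ^ u ≤ 2 ^ (7 * j * ℓ₀))
    (V : Submodule ℝ (Vec d)) (hV : Module.finrank ℝ V < j) (b : Vec d) (t : ℕ) :
    (2:ℝ≥0∞) ^ ((ℓ₀ + t + 1) * (2 * j)) * ρ {s | dperp V b s ≤ rad (D + ℓ₀ + t)} ≤
      2 ^ (2 * j * (ℓ₀ + 1)) * 2⁻¹ ^ t := by
  have h1 := measure_dperp_le ρ hsupp hreg V b (ℓ₀ + t)
  rw [show D + (ℓ₀ + t) = D + ℓ₀ + t by ring] at h1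
  set i := Module.finrank ℝ V with hi
  have hnat := term_arith (d := d) (u := u) (t := t) hj hV hG
  set Nn : ℝ≥0∞ := 2 ^ ((ℓ₀ + t + 1) * (2 * j)) * (3 * 2 ^ (ℓ₀ + t)) ^ i * (2 ^ 36) ^ d * 2 ^ u
    with hNn
  set W : ℝ≥0∞ := 2 ^ (8 * j * (ℓ₀ + t)) with hW
  set Q : ℝ≥0∞ := 2 ^ (2 * j * (ℓ₀ + 1)) with hQ
  have hnat' : Nn * 2 ^ t ≤ Q * W := by
    rw [hNn, hQ, hW]
    exact_mod_cast hnat
  have hcancel : (2:ℝ≥0∞) ^ t * 2⁻¹ ^ t = 1 := by
    rw [← mul_pow, ENNReal.mul_inv_cancel (by norm_num) (by norm_num), one_pow]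
  have h2 : Nn ≤ Q * 2⁻¹ ^ t * W := by
    calc Nn = Nn * 2 ^ t * 2⁻¹ ^ t := by rw [mul_assoc, hcancel, mul_one]
      _ ≤ Q * W * 2⁻¹ ^ t := mul_le_mul' hnat' le_rfl
      _ = Q * 2⁻¹ ^ t * W := by ring
  have h3 : Nn / W ≤ Q * 2⁻¹ ^ t := ENNReal.div_le_of_le_mul h2
  calc (2:ℝ≥0∞) ^ ((ℓ₀ + t + 1) * (2 * j)) * ρ {s | dperp V b s ≤ rad (D + ℓ₀ + t)}
      ≤ (2:ℝ≥0∞) ^ ((ℓ₀ + t + 1) * (2 * j)) *
        (((3:ℝ≥0∞) * 2 ^ (ℓ₀ + t)) ^ i * ((2 ^ 36) ^ d * (2 ^ u / W))) := by gcongr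
    _ = Nn / W := by
        rw [hNn, mul_div_assoc]
        ring
    _ ≤ _ := h3

/-- The layer cake integral. -/
lemma layer_cake (ρ : Measure (Vec d)) {j u ℓ₀ D : ℕ} {z : Vec d}
    (hj : 1 ≤ j) (hsupp : ρ (closedBall z (rad D))ᶜ = 0)
    (hreg : ∀ (ℓ : ℕ) (k : Fin d → ℤ), ρ (cellSet d (D + ℓ) k) ≤ 2 ^ u / 2 ^ (8 * j * ℓ))
    (hG : 3 ^ j * (2 ^ 36) ^ d * 2 ^ u ≤ 2 ^ (7 * j * ℓ₀))
    (V : Submodule ℝ (Vec d)) (hV : Module.finrank ℝ V < j) (b : Vec d) [IsProbabilityMeasure ρ] :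
    ∫⁻ s, (ENNReal.ofReal (rad D) / ENNReal.ofReal (dperp V b s)) ^ (2 * j) ∂ρ ≤
      2 ^ (2 * j * (ℓ₀ + 1) + 2) := by
  have hmeas : ∀ t : ℕ, MeasurableSet {s | dperp V b s ≤ rad (D + ℓ₀ + t)} := fun t =>
    measurableSet_le (continuous_dperp V b).measurable measurable_const
  set E : ℕ → Vec d → ℝ≥0∞ := fun t =>
    Set.indicator {s | dperp V b s ≤ rad (D + ℓ₀ + t)}
      (fun _ => (2:ℝ≥0∞) ^ ((ℓ₀ + t + 1) * (2 * j))) with hE
  have hEmeas : ∀ t, Measurable (E t) := fun t => measurable_const.indicator (hmeas t)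
  have hpt : ∀ s, (ENNReal.ofReal (rad D) / ENNReal.ofReal (dperp V b s)) ^ (2 * j) ≤
      2 ^ (ℓ₀ * (2 * j)) + ∑' t, E t s := by
    intro s
    have h := pointwise_bound (D := D) (ℓ₀ := ℓ₀) (n := 2 * j) (δ := dperp V b s) (norm_nonneg _)
    exact h
  calc ∫⁻ s, (ENNReal.ofReal (rad D) / ENNReal.ofReal (dperp V b s)) ^ (2 * j) ∂ρ
      ≤ ∫⁻ s, (2 ^ (ℓ₀ * (2 * j)) + ∑' t, E t s) ∂ρ := lintegral_mono hpt
    _ = ∫⁻ _s, (2:ℝ≥0∞) ^ (ℓ₀ * (2 * j)) ∂ρ + ∫⁻ s, ∑' t, E t s ∂ρ :=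
        lintegral_add_left measurable_const _
    _ = 2 ^ (ℓ₀ * (2 * j)) + ∑' t, ∫⁻ s, E t s ∂ρ := by
        rw [lintegral_const, measure_univ, mul_one, lintegral_tsum fun t => (hEmeas t).aemeasurable]
    _ = 2 ^ (ℓ₀ * (2 * j)) + ∑' t, (2:ℝ≥0∞) ^ ((ℓ₀ + t + 1) * (2 * j)) *
          ρ {s | dperp V b s ≤ rad (D + ℓ₀ + t)} := by
        congr 1
        refine tsum_congr fun t => ?_
        exact lintegral_indicator_const (hmeas t) _
    _ ≤ 2 ^ (ℓ₀ * (2 * j)) + ∑' t : ℕ, 2 ^ (2 * j * (ℓ₀ + 1)) * (2:ℝ≥0∞)⁻¹ ^ t := by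
        exact add_le_add le_rfl (ENNReal.tsum_le_tsum fun t => moment_term_bound ρ hj hsupp hreg hG V hV b t)
    _ = 2 ^ (ℓ₀ * (2 * j)) + 2 ^ (2 * j * (ℓ₀ + 1)) * 2 := by
        rw [ENNReal.tsum_mul_left, ENNReal.tsum_geometric, ENNReal.one_sub_inv_two, inv_inv]
    _ ≤ 2 ^ (2 * j * (ℓ₀ + 1)) + 2 ^ (2 * j * (ℓ₀ + 1)) * 2 := by
        have hexp : ℓ₀ * (2 * j) ≤ 2 * j * (ℓ₀ + 1) := by nlinarith [Nat.zero_le j]
        exact add_le_add (pow_le_pow_right₀ (by norm_num) hexp) le_rfl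
    _ ≤ 2 ^ (2 * j * (ℓ₀ + 1) + 2) := by
        generalize 2 * j * (ℓ₀ + 1) = K
        have h4 : (1 + 2 : ℝ≥0∞) ≤ 2 ^ 2 := by norm_num
        calc (2:ℝ≥0∞) ^ K + 2 ^ K * 2 = 2 ^ K * (1 + 2) := by ring
          _ ≤ 2 ^ K * 2 ^ 2 := by gcongr
          _ = 2 ^ (K + 2) := (pow_add _ _ _).symm

/-- The inverse moment bound. -/
theorem moment_bound (ρ : Measure (Vec d)) [IsProbabilityMeasure ρ] {j u ℓ₀ D : ℕ} {z : Vec d}
    (hj : 1 ≤ j) (hsupp : ρ (closedBall z (rad D))ᶜ = 0)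
    (hreg : ∀ (ℓ : ℕ) (k : Fin d → ℤ), ρ (cellSet d (D + ℓ) k) ≤ 2 ^ u / 2 ^ (8 * j * ℓ))
    (hG : 3 ^ j * (2 ^ 36) ^ d * 2 ^ u ≤ 2 ^ (7 * j * ℓ₀))
    (V : Submodule ℝ (Vec d)) (hV : Module.finrank ℝ V < j) (b : Vec d) :
    ∫⁻ s, (cGauss / ENNReal.ofReal (dperp V b s)) ^ (2 * j) ∂ρ
      ≤ (cGauss / ENNReal.ofReal (rad D)) ^ (2 * j) * 2 ^ (2 * j * (ℓ₀ + 1) + 2) := by
  set τ' := ENNReal.ofReal (rad D) with hτ'
  have hτ0 : τ' ≠ 0 := by
    rw [hτ']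
    exact (ENNReal.ofReal_pos.2 (rad_pos D)).ne'
  have hτt : τ' ≠ ⊤ := ENNReal.ofReal_ne_top
  have hsplit : ∀ s, (cGauss / ENNReal.ofReal (dperp V b s)) ^ (2 * j) =
      (cGauss / τ') ^ (2 * j) * (τ' / ENNReal.ofReal (dperp V b s)) ^ (2 * j) := by
    intro s
    rw [← mul_pow]
    congr 1
    rw [div_eq_mul_inv, div_eq_mul_inv, div_eq_mul_inv]
    calc cGauss * (ENNReal.ofReal (dperp V b s))⁻¹
        = cGauss * (τ'⁻¹ * τ') * (ENNReal.ofReal (dperp V b s))⁻¹ := by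
          rw [ENNReal.inv_mul_cancel hτ0 hτt, mul_one]
      _ = cGauss * τ'⁻¹ * (τ' * (ENNReal.ofReal (dperp V b s))⁻¹) := by ring
  have hm : Measurable fun s => (τ' / ENNReal.ofReal (dperp V b s)) ^ (2 * j) :=
    (measurable_const.div (ENNReal.measurable_ofReal.comp (continuous_dperp V b).measurable)).pow_const _
  simp_rw [hsplit]
  rw [lintegral_const_mul _ hm]
  gcongr
  exact layer_cake ρ hj hsupp hreg hG V hV b

end Vale.Agent.Lib.P309
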