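import Vale.Agent.Lib.P309.Chain
import Vale.Agent.Lib.P309.Gauss

/-!
# From a randomized stopping learner to a deterministic chain of block channels
-/

open MeasureTheory ProbabilityTheory Metric Set
open scoped RealInnerProductSpace ENNReal

namespace Vale.Agent.Lib.P309

variable {d : ℕ}

section generic

variable {σ : Type} [Fintype σ] [DecidableEq σ] (F : ℕ → σ → Vec d → ℝ → σ)

/-- The state after `r` more steps from time `t` and state `m`. -/
def blockRun (t : ℕ) : (r : ℕ) → σ → (Fin r → Vec d) → (Fin r → ℝ) → σ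
  | 0, m, _, _ => m
  | r + 1, m, X, y =>
    F (t + r) (blockRun t r m (Fin.init X) (Fin.init y)) (X (Fin.last r)) (y (Fin.last r))

variable {F}

theorem measurableSet_blockRun (hF : ∀ t m a, MeasurableSet {p : Vec d × ℝ | F t m p.1 p.2 = a})
    (t r : ℕ) (m a : σ) : MeasurableSet {z : Zsp d r | blockRun F t r m z.1 z.2 = a} := by
  induction r generalizing a with
  | zero =>
    by_cases h : m = a
    · simp [blockRun, h]
    · simp [blockRun, h]
  | succ r ih =>
    have h1 : {z : Zsp d (r + 1) | blockRun F t (r + 1) m z.1 z.2 = a}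
        = ⋃ b, ((fun z : Zsp d (r + 1) => ((Fin.init z.1, Fin.init z.2) : Zsp d r)) ⁻¹'
            {z : Zsp d r | blockRun F t r m z.1 z.2 = b})
          ∩ ((fun z : Zsp d (r + 1) => (z.1 (Fin.last r), z.2 (Fin.last r))) ⁻¹'
            {p : Vec d × ℝ | F (t + r) b p.1 p.2 = a}) := by
      ext z
      simp [blockRun]
    rw [h1]
    refine MeasurableSet.iUnion fun b => MeasurableSet.inter ?_ ?_
    · have hm : Measurable fun z : Zsp d (r + 1) => ((Fin.init z.1, Fin.init z.2) : Zsp d r) := by
        apply Measurable.prodMk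
        · exact measurable_pi_lambda _ fun i => (measurable_pi_apply _).comp measurable_fst
        · exact measurable_pi_lambda _ fun i => (measurable_pi_apply _).comp measurable_snd
      exact hm (ih b)
    · have hm : Measurable fun z : Zsp d (r + 1) => (z.1 (Fin.last r), z.2 (Fin.last r)) :=
        ((measurable_pi_apply _).comp measurable_fst).prodMk
          ((measurable_pi_apply _).comp measurable_snd)
      exact hm (hF (t + r) b a)

/-- The law of the state after `r` more steps. -/
noncomputable def BK (F : ℕ → σ → Vec d → ℝ → σ) (t r : ℕ) (m a : σ) (s : Vec d) : ℝ≥0∞ :=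
  chan d r {z : Zsp d r | blockRun F t r m z.1 z.2 = a} s

theorem BK_zero (t : ℕ) (m a : σ) (s : Vec d) : BK F t 0 m a s = if m = a then 1 else 0 := by
  unfold BK chan
  by_cases h : m = a
  · simp [blockRun, h]
  · simp [blockRun, h]

/-- One step. -/
theorem BK_succ (hF : ∀ t m a, MeasurableSet {p : Vec d × ℝ | F t m p.1 p.2 = a})
    (t r : ℕ) (m a : σ) (s : Vec d) :
    BK F t (r + 1) m a s = ∑ b, BK F t r m b s * gam d {x | F (t + r) b x ⟪x, s⟫ = a} := by
  have hmeas := measurableSet_chan_section (measurableSet_blockRun hF t (r + 1) m a) s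
  have hmp := measurePreserving_piFinSuccAbove (fun _ : Fin (r + 1) => gam d) (Fin.last r)
  have hsym := hmp.symm
  unfold BK chan
  unfold rowLaw at *
  have h1 := hsym.measure_preimage hmeas.nullMeasurableSet
  rw [← h1]
  have hs : ∀ p : Vec d × Rows d r,
      (MeasurableEquiv.piFinSuccAbove (fun _ : Fin (r + 1) => Vec d) (Fin.last r)).symm p
        = Fin.snoc (α := fun _ => Vec d) p.2 p.1 := fun p =>
    Fin.insertNth_last' p.1 p.2
  have hset : (MeasurableEquiv.piFinSuccAbove (fun _ : Fin (r + 1) => Vec d) (Fin.last r)).symm ⁻¹'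
      {X : Rows d (r + 1) | (X, labels X s) ∈ {z : Zsp d (r + 1) | blockRun F t (r + 1) m z.1 z.2 = a}}
      = {p : Vec d × Rows d r | F (t + r) (blockRun F t r m p.2 (labels p.2 s)) p.1 ⟪p.1, s⟫ = a} := by
    ext p
    simp only [Set.mem_preimage, Set.mem_ofPred_eq, hs]
    have h2 : ∀ X : Rows d (r + 1), Fin.init (labels X s) = labels (Fin.init X) s := fun X => rfl
    simp only [blockRun, h2, Fin.init_snoc]
    simp [labels]
  have hmS : MeasurableSet {p : Vec d × Rows d r | F (t + r) (blockRun F t r m p.2 (labels p.2 s)) p.1 ⟪p.1, s⟫ = a} := by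
    rw [← hset]
    exact hsym.measurable hmeas
  rw [hset, Measure.prod_apply_symm hmS]
  have hmb : ∀ c, MeasurableSet {X : Rows d r | blockRun F t r m X (labels X s) = c} := fun c =>
    measurableSet_chan_section (measurableSet_blockRun hF t r m c) s
  have h3 : ∀ X : Rows d r,
      gam d ((fun x => (x, X)) ⁻¹' {p : Vec d × Rows d r | F (t + r) (blockRun F t r m p.2 (labels p.2 s)) p.1 ⟪p.1, s⟫ = a})
        = ∑ c, Set.indicator {X : Rows d r | blockRun F t r m X (labels X s) = c}
            (fun _ => gam d {x | F (t + r) c x ⟪x, s⟫ = a}) X := by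
    intro X
    rw [Finset.sum_eq_single (blockRun F t r m X (labels X s))]
    · simp only [Set.indicator_of_mem, Set.mem_ofPred_eq]
      rfl
    · intro c _ hc
      apply Set.indicator_of_notMem
      simp only [Set.mem_ofPred_eq]
      exact fun h => hc h.symm
    · simp
  simp_rw [h3]
  rw [lintegral_finsetSum _ (fun c _ => measurable_const.indicator (hmb c))]
  apply Finset.sum_congr rfl
  intro c _
  rw [lintegral_indicator (hmb c)]
  simp only [lintegral_const, Measure.restrict_apply MeasurableSet.univ, Set.univ_inter]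
  rw [mul_comm]
  rfl

/-- Chapman-Kolmogorov -/
theorem BK_add (hF : ∀ t m a, MeasurableSet {p : Vec d × ℝ | F t m p.1 p.2 = a})
    (t r₁ r₂ : ℕ) (m a : σ) (s : Vec d) :
    BK F t (r₁ + r₂) m a s = ∑ b, BK F t r₁ m b s * BK F (t + r₁) r₂ b a s := by
  induction r₂ generalizing a with
  | zero =>
    simp only [BK_zero, Nat.add_zero]
    rw [Finset.sum_eq_single a]
    · simp
    · intro b _ hb
      simp [hb]
    · simp
  | succ r₂ ih =>
    rw [← add_assoc, BK_succ hF t (r₁ + r₂)]
    simp_rw [ih, BK_succ hF (t + r₁) r₂, Finset.sum_mul, Finset.mul_sum]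
    rw [Finset.sum_comm]
    apply Finset.sum_congr rfl
    intro b _
    apply Finset.sum_congr rfl
    intro c _
    rw [mul_assoc, add_assoc]

theorem BK_le_one (t r : ℕ) (m a : σ) (s : Vec d) : BK F t r m a s ≤ 1 := chan_le_one _ _

theorem BK_ne_top (t r : ℕ) (m a : σ) (s : Vec d) : BK F t r m a s ≠ ⊤ :=
  ne_top_of_le_ne_top ENNReal.one_ne_top (BK_le_one t r m a s)

/-- The block functions. -/
def blockF (F : ℕ → σ → Vec d → ℝ → σ) (j e : ℕ) (m : σ) (z : Zsp d j) : σ :=
  blockRun F (e * j) j m z.1 z.2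

theorem measurableSet_blockF (hF : ∀ t m a, MeasurableSet {p : Vec d × ℝ | F t m p.1 p.2 = a})
    (j e : ℕ) (m a : σ) : MeasurableSet (blockF F j e m ⁻¹' {a}) :=
  measurableSet_blockRun hF (e * j) j m a

/-- The chain law is the law of the run. -/
theorem uLaw_blockF (hF : ∀ t m a, MeasurableSet {p : Vec d × ℝ | F t m p.1 p.2 = a})
    (j : ℕ) (init : σ) (e : ℕ) (a : σ) (s : Vec d) :
    uLaw init (blockF F j) e a s = (BK F 0 (e * j) init a s).toReal := by
  induction e generalizing a with
  | zero =>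
    simp only [uLaw, Nat.zero_mul, BK_zero]
    by_cases h : a = init
    · simp [h]
    · simp [h, Ne.symm h]
  | succ e ih =>
    simp only [uLaw]
    rw [show (e + 1) * j = e * j + j by ring, BK_add hF 0 (e * j) j]
    rw [ENNReal.toReal_sum (fun b _ => ENNReal.mul_ne_top (BK_ne_top _ _ _ _ _) (BK_ne_top _ _ _ _ _))]
    apply Finset.sum_congr rfl
    intro b _
    rw [ih, ENNReal.toReal_mul, Nat.zero_add]
    rfl

/-- Once all the steps are trivial the law stops changing. -/
theorem BK_of_id {T : ℕ} (hid : ∀ t, T ≤ t → ∀ m x y, F t m x y = m) (x : ℕ) (m : σ) (X : Fin x → Vec d)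
    (y : Fin x → ℝ) : blockRun F T x m X y = m := by
  induction x with
  | zero => rfl
  | succ x ih =>
    simp only [blockRun]
    rw [hid (T + x) (by omega), ih]

theorem BK_stop (hF : ∀ t m a, MeasurableSet {p : Vec d × ℝ | F t m p.1 p.2 = a})
    {T : ℕ} (hid : ∀ t, T ≤ t → ∀ m x y, F t m x y = m) (x : ℕ) (m a : σ) (s : Vec d) :
    BK F 0 (T + x) m a s = BK F 0 T m a s := by
  rw [BK_add hF]
  rw [Finset.sum_eq_single a]
  · have h1 : BK F (0 + T) x a a s = 1 := by
      unfold BK chan
      rw [zero_add]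
      have h2 : {X : Rows d x | (X, labels X s) ∈ {z : Zsp d x | blockRun F T x a z.1 z.2 = a}} = Set.univ := by
        ext X
        simp [BK_of_id hid]
      rw [h2]
      exact measure_univ
    rw [h1, mul_one]
  · intro b _ hb
    have h1 : BK F (0 + T) x b a s = 0 := by
      unfold BK chan
      rw [zero_add]
      simp only [Set.mem_ofPred_eq, BK_of_id hid, hb]
      simp
    rw [h1, mul_zero]
  · simp

end generic

section learner

variable {T K : ℕ} {Ω : Type} [MeasurableSpace Ω]

/-- The one-step map on `Fin K × Bool`, on a fixed seed. -/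
noncomputable def Learner.stepF (L : Learner d T K Ω) (ω₀ : Ω) :
    ℕ → Fin K × Bool → Vec d → ℝ → Fin K × Bool := fun t m x y =>
  if h : t < T ∧ m.2 = false then (L.step ⟨t, h.1⟩ m.1 x y ω₀, L.stop ⟨t, h.1⟩ m.1 x y ω₀) else m

theorem Learner.measurableSet_stepF (L : Learner d T K Ω) (ω₀ : Ω) (t : ℕ) (m a : Fin K × Bool) :
    MeasurableSet {p : Vec d × ℝ | L.stepF ω₀ t m p.1 p.2 = a} := by
  unfold Learner.stepF
  by_cases h : t < T ∧ m.2 = false
  · simp only [h, and_self, dite_true]
    have h1 : Measurable fun p : Vec d × ℝ => (L.step ⟨t, h.1⟩ m.1 p.1 p.2 ω₀, L.stop ⟨t, h.1⟩ m.1 p.1 p.2 ω₀) := by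
      have hm : Measurable fun p : Vec d × ℝ => ((p.1, p.2, ω₀) : Vec d × ℝ × Ω) :=
        measurable_fst.prodMk (measurable_snd.prodMk measurable_const)
      exact ((L.measurable_step ⟨t, h.1⟩ m.1).comp hm).prodMk ((L.measurable_stop ⟨t, h.1⟩ m.1).comp hm)
    exact h1 (measurableSet_singleton a)
  · simp only [h, dite_false]
    by_cases hm : m = a
    · simp [hm]
    · simp [hm]

/-- The run of the learner is the block run of the one-step map. -/
theorem Learner.run_eq_blockRun (L : Learner d T K Ω) (ω₀ : Ω) (X : Fin T → Vec d) (s : Vec d) (t : ℕ)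
    (ht : t ≤ T) :
    L.run ω₀ X s t = blockRun (L.stepF ω₀) 0 t (L.init ω₀, false) (fun i => X (Fin.castLE ht i))
      (labels (fun i => X (Fin.castLE ht i)) s) := by
  induction t with
  | zero => rfl
  | succ t ih =>
    have ht' : t ≤ T := by omega
    have htT : t < T := by omega
    simp only [Learner.run, blockRun, Nat.zero_add]
    have h1 := ih ht'
    have h2 : (Fin.init fun i : Fin (t + 1) => X (Fin.castLE ht i)) = fun i : Fin t => X (Fin.castLE ht' i) := rfl
    have h3 : (Fin.init (labels (fun i : Fin (t + 1) => X (Fin.castLE ht i)) s))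
        = labels (fun i : Fin t => X (Fin.castLE ht' i)) s := rfl
    rw [h2, h3, ← h1]
    rfl

theorem Learner.run_T (L : Learner d T K Ω) (ω₀ : Ω) (X : Fin T → Vec d) (s : Vec d) :
    L.run ω₀ X s T = blockRun (L.stepF ω₀) 0 T (L.init ω₀, false) X (labels X s) :=
  L.run_eq_blockRun ω₀ X s T le_rfl

/-- Measurability of the run, in all variables. -/
theorem Learner.measurableSet_run (L : Learner d T K Ω) (t : ℕ) (a : Fin K × Bool) :
    MeasurableSet {p : Ω × (Fin T → Vec d) × Vec d | L.run p.1 p.2.1 p.2.2 t = a} := by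
  induction t generalizing a with
  | zero =>
    simp only [Learner.run]
    have hm : Measurable fun p : Ω × (Fin T → Vec d) × Vec d => ((L.init p.1, false) : Fin K × Bool) :=
      (L.measurable_init.comp measurable_fst).prodMk measurable_const
    exact hm (measurableSet_singleton a)
  | succ t ih =>
    by_cases ht : t < T
    · have h1 : {p : Ω × (Fin T → Vec d) × Vec d | L.run p.1 p.2.1 p.2.2 (t + 1) = a}
          = ⋃ c : Fin K × Bool, {p | L.run p.1 p.2.1 p.2.2 t = c} ∩
              {p | (if c.2 = false then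
                  (L.step ⟨t, ht⟩ c.1 (p.2.1 ⟨t, ht⟩) ⟪p.2.1 ⟨t, ht⟩, p.2.2⟫ p.1,
                    L.stop ⟨t, ht⟩ c.1 (p.2.1 ⟨t, ht⟩) ⟪p.2.1 ⟨t, ht⟩, p.2.2⟫ p.1) else c) = a} := by
        ext p
        simp only [Set.mem_ofPred_eq, Set.mem_iUnion, Set.mem_inter_iff, Learner.run]
        constructor
        · intro h
          refine ⟨L.run p.1 p.2.1 p.2.2 t, rfl, ?_⟩
          by_cases hc : (L.run p.1 p.2.1 p.2.2 t).2 = false
          · simpa [ht, hc] using h
          · simpa [ht, hc] using h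
        · rintro ⟨c, hc, h⟩
          subst hc
          by_cases hc : (L.run p.1 p.2.1 p.2.2 t).2 = false
          · simpa [ht, hc] using h
          · simpa [ht, hc] using h
      rw [h1]
      refine MeasurableSet.iUnion fun c => (ih c).inter ?_
      by_cases hc : c.2 = false
      · simp only [hc, if_true]
        have hm : Measurable fun p : Ω × (Fin T → Vec d) × Vec d =>
            ((p.2.1 ⟨t, ht⟩, ⟪p.2.1 ⟨t, ht⟩, p.2.2⟫, p.1) : Vec d × ℝ × Ω) := by
          have h2 : Continuous fun p : (Fin T → Vec d) × Vec d => ⟪p.1 ⟨t, ht⟩, p.2⟫ := by fun_prop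
          have h3 : Measurable fun p : Ω × (Fin T → Vec d) × Vec d => ⟪p.2.1 ⟨t, ht⟩, p.2.2⟫ :=
            h2.measurable.comp measurable_snd
          exact ((measurable_pi_apply _).comp (measurable_fst.comp measurable_snd)).prodMk
            (h3.prodMk measurable_fst)
        have hm2 : Measurable fun p : Ω × (Fin T → Vec d) × Vec d =>
            ((L.step ⟨t, ht⟩ c.1 (p.2.1 ⟨t, ht⟩) ⟪p.2.1 ⟨t, ht⟩, p.2.2⟫ p.1,
              L.stop ⟨t, ht⟩ c.1 (p.2.1 ⟨t, ht⟩) ⟪p.2.1 ⟨t, ht⟩, p.2.2⟫ p.1) : Fin K × Bool) :=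
          ((L.measurable_step ⟨t, ht⟩ c.1).comp hm).prodMk ((L.measurable_stop ⟨t, ht⟩ c.1).comp hm)
        exact hm2 (measurableSet_singleton a)
      · simp only [hc]
        by_cases hca : c = a
        · simp [hca]
        · simp [hca]
    · have h1 : {p : Ω × (Fin T → Vec d) × Vec d | L.run p.1 p.2.1 p.2.2 (t + 1) = a}
          = {p | L.run p.1 p.2.1 p.2.2 t = a} := by
        ext p
        simp [Learner.run, ht]
      rw [h1]
      exact ih a

theorem dist_le_of_arccos {u s : Vec d} (hu : ‖u‖ = 1) (hs : ‖s‖ = 1) {ε : ℝ}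
    (h : Real.arccos ⟪u, s⟫ ≤ ε) : s ∈ closedBall u ε := by
  have h0 : 0 ≤ Real.arccos ⟪u, s⟫ := Real.arccos_nonneg _
  have hε : 0 ≤ ε := h0.trans h
  have habs : |⟪u, s⟫| ≤ 1 := by
    have := abs_real_inner_le_norm u s
    rwa [hu, hs, one_mul] at this
  have hcos : Real.cos (Real.arccos ⟪u, s⟫) = ⟪u, s⟫ :=
    Real.cos_arccos (abs_le.1 habs).1 (abs_le.1 habs).2
  have h1 := Real.one_sub_sq_div_two_le_cos (x := Real.arccos ⟪u, s⟫)
  rw [hcos] at h1
  have h2 : ‖s - u‖ ^ 2 = 2 - 2 * ⟪u, s⟫ := by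
    rw [norm_sub_sq_real, hu, hs, real_inner_comm]
    ring
  have h3 : ‖s - u‖ ^ 2 ≤ ε ^ 2 := by
    rw [h2]
    have : Real.arccos ⟪u, s⟫ ^ 2 ≤ ε ^ 2 := by gcongr
    linarith
  rw [mem_closedBall, dist_eq_norm]
  exact abs_le_of_sq_le_sq' h3 hε |>.2

/-- Reduction of a successful learner to a chain of block channels on the state set
`Fin K × Bool`, with blocks of any length `j` and at least `T / j` blocks. -/
theorem reduce_learner (L : Learner d T K Ω) (ν : Measure Ω) [IsProbabilityMeasure ν] {ε : ℝ}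
    (hd : 1 ≤ d) (hε : 0 < ε) (h : L.Succeeds ν ε) (j J : ℕ) (hJ : T ≤ J * j) :
    ∃ (init : Fin K × Bool) (f : ℕ → Fin K × Bool → Zsp d j → Fin K × Bool)
      (out : Fin K × Bool → Vec d),
      (∀ e m a, MeasurableSet (f e m ⁻¹' {a})) ∧
      (2 / 3 : ℝ) ≤ ∫ s, ∑ m, uLaw init f J m s *
        Set.indicator (closedBall (out m) ε) (fun _ => (1:ℝ)) s ∂signalLaw d := by
  classical
  have hprior := prior_signalLaw hd
  have := hprior.prob
  set Λ := (Measure.pi fun _ : Fin T => stdGaussian (Vec d)).prod (signalLaw d) with hΛ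
  -- measurability of the success set
  have hS : MeasurableSet {p : Ω × (Fin T → Vec d) × Vec d |
      Real.arccos ⟪L.answer p.1 p.2.1 p.2.2, p.2.2⟫ ≤ ε} := by
    have h1 : {p : Ω × (Fin T → Vec d) × Vec d | Real.arccos ⟪L.answer p.1 p.2.1 p.2.2, p.2.2⟫ ≤ ε}
        = ⋃ c : Fin K × Bool, {p | L.run p.1 p.2.1 p.2.2 T = c} ∩
            {p | Real.arccos ⟪L.output c.1 p.1, p.2.2⟫ ≤ ε} := by
      ext p
      simp only [Learner.answer, Set.mem_ofPred_eq, Set.mem_iUnion, Set.mem_inter_iff]
      constructor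
      · intro h
        exact ⟨_, rfl, h⟩
      · rintro ⟨c, rfl, h⟩
        exact h
    rw [h1]
    refine MeasurableSet.iUnion fun c => (L.measurableSet_run T c).inter ?_
    have h2 : Measurable fun p : Ω × (Fin T → Vec d) × Vec d => ⟪L.output c.1 p.1, p.2.2⟫ :=
      ((L.measurable_output c.1).comp measurable_fst).inner (measurable_snd.comp measurable_snd)
    exact measurableSet_le (Real.continuous_arccos.measurable.comp h2) measurable_const
  -- fix the seed
  have hsf : SFinite Λ := by rw [hΛ]; infer_instance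
  unfold Learner.Succeeds at h
  rw [Measure.prod_apply hS] at h
  have hprob : IsProbabilityMeasure Λ := by rw [hΛ]; infer_instance
  have hfin : ∫⁻ a, Λ (Prod.mk a ⁻¹' {p : Ω × (Fin T → Vec d) × Vec d |
      Real.arccos ⟪L.answer p.1 p.2.1 p.2.2, p.2.2⟫ ≤ ε}) ∂ν ≠ ⊤ := by
    refine ne_top_of_le_ne_top ENNReal.one_ne_top ?_
    calc _ ≤ ∫⁻ _, 1 ∂ν := lintegral_mono fun a => prob_le_one
      _ = 1 := by simp
  obtain ⟨ω₀, hω₀⟩ := exists_lintegral_le (μ := ν) hfin
  have hgood := h.trans hω₀
  set F := L.stepF ω₀ with hFdef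
  have hF : ∀ t m a, MeasurableSet {p : Vec d × ℝ | F t m p.1 p.2 = a} := L.measurableSet_stepF ω₀
  set init : Fin K × Bool := (L.init ω₀, false) with hinit
  let out : Fin K × Bool → Vec d := fun c => L.output c.1 ω₀
  have hout : ∀ c, ‖out c‖ = 1 := fun c => L.output_unit _ _
  refine ⟨init, blockF F j, out, fun e m a => measurableSet_blockF hF j e m a, ?_⟩
  -- stopping after the horizon
  have hid : ∀ t, T ≤ t → ∀ m x y, F t m x y = m := by
    intro t ht m x y
    simp only [hFdef, Learner.stepF]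
    rw [dif_neg]
    intro hc
    omega
  obtain ⟨x, hx⟩ : ∃ x, J * j = T + x := ⟨J * j - T, by omega⟩
  have huJ : ∀ m s, uLaw init (blockF F j) J m s = (BK F 0 T init m s).toReal := by
    intro m s
    rw [uLaw_blockF hF, hx, BK_stop hF hid]
  -- the real integrand
  set G : Vec d → ℝ := fun s => ∑ m, uLaw init (blockF F j) J m s *
    Set.indicator (closedBall (out m) ε) (fun _ => (1:ℝ)) s with hG
  have hGeq : ∀ s, G s = ∑ m, (BK F 0 T init m s).toReal *
      Set.indicator (closedBall (out m) ε) (fun _ => (1:ℝ)) s := by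
    intro s
    simp only [hG, huJ]
  have hBKm : ∀ m, Measurable fun s => BK F 0 T init m s := fun m =>
    measurable_chan (measurableSet_blockRun hF 0 T init m)
  have hGm : Measurable G := by
    have : G = fun s => ∑ m, (BK F 0 T init m s).toReal *
        Set.indicator (closedBall (out m) ε) (fun _ => (1:ℝ)) s := funext hGeq
    rw [this]
    refine Finset.measurable_sum _ fun m _ => (hBKm m).ennreal_toReal.mul ?_
    exact measurable_const.indicator measurableSet_closedBall
  have hind0 : ∀ m s, 0 ≤ Set.indicator (closedBall (out m) ε) (fun _ => (1:ℝ)) s := fun m s =>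
    Set.indicator_nonneg (fun _ _ => zero_le_one) s
  have hind1 : ∀ m s, Set.indicator (closedBall (out m) ε) (fun _ => (1:ℝ)) s ≤ 1 := by
    intro m s
    simp only [Set.indicator]
    split_ifs <;> norm_num
  have hG0 : ∀ s, 0 ≤ G s := fun s =>
    Finset.sum_nonneg fun m _ => mul_nonneg (uLaw_nonneg _ _ _ _ _) (hind0 m s)
  have hG1 : ∀ s, G s ≤ 1 := by
    intro s
    rw [← uLaw_sum init (blockF F j) (fun e m a => measurableSet_blockF hF j e m a) J s]
    refine Finset.sum_le_sum fun m _ => ?_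
    exact mul_le_of_le_one_right (uLaw_nonneg _ _ _ _ _) (hind1 m s)
  have hGint : Integrable G (signalLaw d) := by
    refine Integrable.of_bound (C := 1) hGm.aestronglyMeasurable (Filter.Eventually.of_forall ?_)
    intro s
    rw [Real.norm_eq_abs, abs_of_nonneg (hG0 s)]
    exact hG1 s
  -- pointwise bound
  have hsec : MeasurableSet {p : (Fin T → Vec d) × Vec d | Real.arccos ⟪L.answer ω₀ p.1 p.2, p.2⟫ ≤ ε} :=
    (measurable_prodMk_left (x := ω₀)) hS
  have hmain : (2 / 3 : ℝ≥0∞) ≤ ∫⁻ s, ENNReal.ofReal (G s) ∂signalLaw d := by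
    refine hgood.trans ?_
    change Λ {p : (Fin T → Vec d) × Vec d | Real.arccos ⟪L.answer ω₀ p.1 p.2, p.2⟫ ≤ ε} ≤ _
    rw [hΛ, Measure.prod_apply_symm hsec]
    refine lintegral_mono_ae ?_
    filter_upwards [signalLaw_ae_norm hd] with s hs
    have hsub : (fun X : Fin T → Vec d => (X, s)) ⁻¹'
        {p : (Fin T → Vec d) × Vec d | Real.arccos ⟪L.answer ω₀ p.1 p.2, p.2⟫ ≤ ε}
        ⊆ ⋃ m ∈ (Finset.univ.filter fun m => s ∈ closedBall (out m) ε),
            {X : Fin T → Vec d | blockRun F 0 T init X (labels X s) = m} := by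
      intro X hX
      simp only [Set.mem_preimage, Set.mem_ofPred_eq, Learner.answer] at hX
      simp only [Set.mem_iUnion, Finset.mem_filter, Finset.mem_univ, true_and, Set.mem_ofPred_eq]
      refine ⟨L.run ω₀ X s T, dist_le_of_arccos (hout _) hs hX, ?_⟩
      rw [L.run_T ω₀ X s]
    refine (measure_mono hsub).trans ((measure_biUnion_finset_le _ _).trans ?_)
    have hGs : ENNReal.ofReal (G s) = ∑ m, BK F 0 T init m s *
        Set.indicator (closedBall (out m) ε) (fun _ => (1:ℝ≥0∞)) s := by
      rw [hGeq, ENNReal.ofReal_sum_of_nonneg (fun m _ => mul_nonneg ENNReal.toReal_nonneg (hind0 m s))]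
      apply Finset.sum_congr rfl
      intro m _
      rw [ENNReal.ofReal_mul ENNReal.toReal_nonneg, ENNReal.ofReal_toReal (BK_ne_top _ _ _ _ _)]
      congr 1
      simp only [Set.indicator]
      split_ifs <;> simp
    rw [hGs, Finset.sum_filter]
    apply Finset.sum_le_sum
    intro m _
    by_cases hm : s ∈ closedBall (out m) ε
    · simp only [hm, if_true, Set.indicator_of_mem, mul_one]
      exact le_rfl
    · simp [hm]
  rw [← ofReal_integral_eq_lintegral_ofReal hGint (Filter.Eventually.of_forall hG0)] at hmain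
  have h23 : (2 / 3 : ℝ≥0∞) = ENNReal.ofReal (2 / 3) := by
    rw [ENNReal.ofReal_div_of_pos (by norm_num)]
    simp
  rw [h23] at hmain
  exact (ENNReal.ofReal_le_ofReal_iff (integral_nonneg hG0)).1 hmain

end learner

end Vale.Agent.Lib.P309
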