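import Vale.Agent.Lib.P309.Main

/-!
# P309: the upper bound, quantized Kaczmarz iteration, and the counting bound
-/

open MeasureTheory ProbabilityTheory Metric Set
open scoped RealInnerProductSpace ENNReal

namespace Vale.Agent.Lib.P309

variable {d : ℕ}

/-! ### the Kaczmarz step -/

/-- The Kaczmarz update of `z` on the pair `(x, y)`. -/
noncomputable def kz (x : Vec d) (y : ℝ) (z : Vec d) : Vec d :=
  z + ((y - ⟪x, z⟫) / ‖x‖ ^ 2) • x

theorem norm_sub_kz_sq (x s z : Vec d) :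
    ‖s - kz x ⟪x, s⟫ z‖ ^ 2 = ‖s - z‖ ^ 2 - ⟪x, s - z⟫ ^ 2 / ‖x‖ ^ 2 := by
  have h1 : s - kz x ⟪x, s⟫ z = (s - z) - (⟪x, s - z⟫ / ‖x‖ ^ 2) • x := by
    simp only [kz, inner_sub_right]
    abel
  rw [h1, norm_sub_sq_real, real_inner_smul_right, norm_smul, mul_pow, real_inner_comm]
  by_cases hx : x = 0
  · simp [hx]
  · have hx' : ‖x‖ ≠ 0 := norm_ne_zero_iff.2 hx
    rw [Real.norm_eq_abs, sq_abs]
    field_simp
    ring

theorem inner_sq_div_le (x e : Vec d) : ⟪x, e⟫ ^ 2 / ‖x‖ ^ 2 ≤ ‖e‖ ^ 2 := by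
  by_cases hx : x = 0
  · simp [hx]
  · have hx' : 0 < ‖x‖ := norm_pos_iff.2 hx
    rw [div_le_iff₀ (by positivity)]
    have h := abs_real_inner_le_norm x e
    have h2 : ⟪x, e⟫ ^ 2 ≤ (‖x‖ * ‖e‖) ^ 2 := by
      rw [← sq_abs]
      gcongr
    nlinarith

theorem measurable_inner_sq_div (e : Vec d) :
    Measurable fun x : Vec d => ⟪x, e⟫ ^ 2 / ‖x‖ ^ 2 := by
  fun_prop

theorem integrable_inner_sq_div (e : Vec d) :
    Integrable (fun x : Vec d => ⟪x, e⟫ ^ 2 / ‖x‖ ^ 2) (gam d) := by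
  refine Integrable.of_bound (C := ‖e‖ ^ 2) (measurable_inner_sq_div e).aestronglyMeasurable
    (Filter.Eventually.of_forall fun x => ?_)
  rw [Real.norm_eq_abs, abs_of_nonneg (by positivity)]
  exact inner_sq_div_le x e

/-- The second moment form of the direction of a Gaussian vector. -/
noncomputable def dirForm (d : ℕ) (e : Vec d) : ℝ := ∫ x, ⟪x, e⟫ ^ 2 / ‖x‖ ^ 2 ∂(gam d)

theorem dirForm_map (R : Vec d ≃ₗᵢ[ℝ] Vec d) (e : Vec d) : dirForm d (R e) = dirForm d e := by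
  unfold dirForm
  have h1 : (stdGaussian (Vec d)).map R = stdGaussian (Vec d) := stdGaussian_map R
  conv_lhs => rw [gam, ← h1]
  rw [integral_map R.continuous.measurable.aemeasurable
    (by exact (measurable_inner_sq_div (R e)).aestronglyMeasurable)]
  simp only [LinearIsometryEquiv.inner_map_map, LinearIsometryEquiv.norm_map]

theorem dirForm_unit {u v : Vec d} (hu : ‖u‖ = 1) (hv : ‖v‖ = 1) : dirForm d u = dirForm d v := by
  have h := Submodule.reflection_sub (v := u) (w := v) (by rw [hu, hv])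
  rw [← h]
  exact (dirForm_map _ u).symm

theorem dirForm_smul (c : ℝ) (e : Vec d) : dirForm d (c • e) = c ^ 2 * dirForm d e := by
  unfold dirForm
  rw [← integral_const_mul]
  congr 1
  ext x
  rw [real_inner_smul_right]
  ring

theorem gam_ae_ne_zero (hd : 1 ≤ d) : ∀ᵐ x ∂(gam d), x ≠ 0 := by
  obtain ⟨e, he⟩ := exists_unit hd
  have h0 : gam d {0} = 0 := by
    have h1 : ({0} : Set (Vec d)) ⊆ (fun x : Vec d => ⟪x, e⟫) ⁻¹' (Set.Icc 0 0) := by
      intro x hx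
      rw [Set.mem_singleton_iff] at hx
      subst hx
      simp
    have h2 : gam d ((fun x : Vec d => ⟪x, e⟫) ⁻¹' (Set.Icc 0 0)) = 0 := by
      rw [← Measure.map_apply (by fun_prop) measurableSet_Icc, gam_map_inner he]
      have := gaussian_Icc_le 0 0
      simpa using this
    exact measure_mono_null h1 h2
  rw [ae_iff]
  simpa using h0

theorem dirForm_sum (hd : 1 ≤ d) :
    ∑ i : Fin d, dirForm d (EuclideanSpace.single i (1:ℝ)) = 1 := by
  unfold dirForm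
  rw [← integral_finsetSum _ fun i _ => integrable_inner_sq_div _]
  have h1 : ∀ᵐ x ∂(gam d), ∑ i : Fin d, ⟪x, EuclideanSpace.single i (1:ℝ)⟫ ^ 2 / ‖x‖ ^ 2 = 1 := by
    filter_upwards [gam_ae_ne_zero hd] with x hx
    have hx' : ‖x‖ ^ 2 ≠ 0 := by
      have := norm_ne_zero_iff.2 hx
      positivity
    rw [← Finset.sum_div, div_eq_one_iff_eq hx', EuclideanSpace.real_norm_sq_eq]
    refine Finset.sum_congr rfl fun i _ => ?_
    simp [EuclideanSpace.inner_single_right]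
  rw [integral_congr_ae h1]
  simp

theorem dirForm_eq (hd : 1 ≤ d) (e : Vec d) : dirForm d e = ‖e‖ ^ 2 / d := by
  have hD : (d:ℝ) ≠ 0 := by
    have : 0 < d := hd
    positivity
  have hunit : ∀ i : Fin d, ‖EuclideanSpace.single i (1:ℝ)‖ = 1 := fun i => by simp
  let i₀ : Fin d := ⟨0, hd⟩
  have hall : ∀ u : Vec d, ‖u‖ = 1 → dirForm d u = 1 / d := by
    intro u hu
    have h1 := dirForm_sum hd
    have h2 : ∀ i ∈ (Finset.univ : Finset (Fin d)),
        dirForm d (EuclideanSpace.single i (1:ℝ)) = dirForm d u :=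
      fun i _ => dirForm_unit (hunit i) hu
    rw [Finset.sum_congr rfl h2] at h1
    simp only [Finset.sum_const, Finset.card_univ, Fintype.card_fin, nsmul_eq_mul] at h1
    field_simp
    linarith
  by_cases he : e = 0
  · subst he
    have := dirForm_smul 0 (EuclideanSpace.single i₀ (1:ℝ))
    simp only [zero_smul, ne_eq, OfNat.ofNat_ne_zero, not_false_eq_true, zero_pow, zero_mul] at this
    rw [this]
    simp
  · have hn : ‖e‖ ≠ 0 := norm_ne_zero_iff.2 he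
    have h1 : e = ‖e‖ • ((‖e‖⁻¹ : ℝ) • e) := by
      rw [smul_smul, mul_inv_cancel₀ hn, one_smul]
    have h2 : ‖(‖e‖⁻¹ : ℝ) • e‖ = 1 := by
      rw [norm_smul, norm_inv, norm_norm, inv_mul_cancel₀ hn]
    conv_lhs => rw [h1]
    rw [dirForm_smul, hall _ h2]
    ring

/-- The mean contraction of the Kaczmarz step. -/
theorem integral_norm_sub_kz_sq (hd : 1 ≤ d) (s z : Vec d) :
    ∫ x, ‖s - kz x ⟪x, s⟫ z‖ ^ 2 ∂(gam d) = (1 - 1 / (d:ℝ)) * ‖s - z‖ ^ 2 := by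
  simp_rw [norm_sub_kz_sq]
  rw [integral_sub (integrable_const _) (integrable_inner_sq_div _)]
  have := dirForm_eq hd (s - z)
  unfold dirForm at this
  rw [this]
  simp only [integral_const, probReal_univ, smul_eq_mul, one_mul]
  ring

/-! ### nets and rounding -/

/-- A grid net of the ball of radius `3`. -/
theorem grid_net {m K : ℕ} (hm : 0 < m) (hK : (6 * m + 1) ^ d ≤ K) :
    ∃ dec : Fin K → Vec d, ∀ v : Vec d, ‖v‖ ≤ 3 → ∃ k, ‖dec k - v‖ ≤ √(d:ℝ) / m := by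
  have hK0 : 0 < K := lt_of_lt_of_le (by positivity) hK
  let pt : (Fin d → Fin (6 * m + 1)) → Vec d :=
    fun a => WithLp.toLp 2 fun i => ((a i : ℕ) : ℝ) / m - 3
  let enc : (Fin d → Fin (6 * m + 1)) → Fin K := fun a =>
    Fin.castLE (by simpa using hK) (finFunctionFinEquiv a)
  have henc : Function.Injective enc := by
    intro a b h
    have h2 : finFunctionFinEquiv a = finFunctionFinEquiv b := Fin.castLE_injective _ h
    exact finFunctionFinEquiv.injective h2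
  have hne : Nonempty (Fin d → Fin (6 * m + 1)) := ⟨fun _ => 0⟩
  refine ⟨fun k => pt (Function.invFun enc k), fun v hv => ?_⟩
  have hm' : (0:ℝ) < m := by exact_mod_cast hm
  have hvi : ∀ i, |v i| ≤ 3 := by
    intro i
    have := PiLp.norm_apply_le v i
    rw [Real.norm_eq_abs] at this
    linarith
  let a : Fin d → Fin (6 * m + 1) := fun i => ⟨⌊(v i + 3) * m⌋₊, by
    have h1 : (v i + 3) * m ≤ 6 * m := by
      have := (abs_le.1 (hvi i)).2
      gcongr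
      linarith
    have h2 : ⌊(v i + 3) * m⌋₊ ≤ 6 * m := by
      apply Nat.floor_le_of_le
      push_cast
      exact h1
    omega⟩
  refine ⟨enc a, ?_⟩
  change ‖pt (Function.invFun enc (enc a)) - v‖ ≤ _
  rw [Function.leftInverse_invFun henc a]
  have hco : ∀ i, |(pt a - v) i| ≤ 1 / m := by
    intro i
    have h0 : 0 ≤ (v i + 3) * m := by
      have := (abs_le.1 (hvi i)).1
      apply mul_nonneg _ hm'.le
      linarith
    have h1 := Nat.floor_le h0
    have h2 := Nat.lt_floor_add_one ((v i + 3) * m)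
    have h3 : (pt a - v) i = ((⌊(v i + 3) * m⌋₊ : ℕ) : ℝ) / m - 3 - v i := by
      simp [pt, a]
    rw [h3, abs_le]
    have h4 : ((⌊(v i + 3) * m⌋₊ : ℕ) : ℝ) / m ≤ v i + 3 := by
      rw [div_le_iff₀ hm']
      exact h1
    have h5 : v i + 3 - 1 / m ≤ ((⌊(v i + 3) * m⌋₊ : ℕ) : ℝ) / m := by
      rw [le_div_iff₀ hm']
      have : (v i + 3 - 1 / m) * m = (v i + 3) * m - 1 := by
        field_simp
      rw [this]
      linarith
    have h6 : (0:ℝ) ≤ 1 / m := by positivity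
    constructor <;> linarith
  have hsq : ‖pt a - v‖ ^ 2 ≤ (√(d:ℝ) / m) ^ 2 := by
    rw [EuclideanSpace.real_norm_sq_eq, div_pow, Real.sq_sqrt (by positivity)]
    calc ∑ i, (pt a - v) i ^ 2 ≤ ∑ _i : Fin d, (1 / (m:ℝ)) ^ 2 := by
          refine Finset.sum_le_sum fun i _ => ?_
          rw [← sq_abs]
          gcongr
          exact hco i
      _ = (d:ℝ) / (m:ℝ) ^ 2 := by
          simp
          field_simp
  exact abs_le_of_sq_le_sq' hsq (by positivity) |>.2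

/-- A measurable choice of a covering index. -/
theorem exists_selector {α : Type*} [MeasurableSpace α] {K : ℕ} (hK : 0 < K)
    (B : Fin K → Set α) (hB : ∀ k, MeasurableSet (B k)) :
    ∃ r : α → Fin K, Measurable r ∧ ∀ x k, x ∈ B k → x ∈ B (r x) := by
  classical
  let p : ℕ → α → Prop := fun n x => K ≤ n + 1 ∨ ∃ h : n < K, x ∈ B ⟨n, h⟩
  have hp : ∀ x, ∃ n, p n x := fun x => ⟨K, Or.inl (by omega)⟩
  let f : ℕ → α → Fin K := fun n _ => ⟨min n (K - 1), by omega⟩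
  have hm : Measurable fun x => f (Nat.find (hp x)) x := by
    refine Measurable.find (f := f) (fun n => measurable_const) (fun n => ?_) hp
    by_cases hn : K ≤ n + 1
    · have : {x | p n x} = univ := by
        ext x
        simp [p, hn]
      rw [this]
      exact MeasurableSet.univ
    · have hn' : n < K := by omega
      have : {x | p n x} = B ⟨n, hn'⟩ := by
        ext x
        simp [p, hn, hn']
      rw [this]
      exact hB _
  refine ⟨_, hm, fun x k hx => ?_⟩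
  have h1 : Nat.find (hp x) ≤ k := Nat.find_min' (hp x) (Or.inr ⟨k.2, hx⟩)
  have h2 := Nat.find_spec (hp x)
  have hk := k.2
  rcases h2 with h2 | ⟨h2, h3⟩
  · have h4 : Nat.find (hp x) = k := by omega
    have h5 : f (Nat.find (hp x)) x = k := by
      ext
      simp only [f]
      omega
    rw [h5]
    exact hx
  · have h5 : f (Nat.find (hp x)) x = ⟨Nat.find (hp x), h2⟩ := by
      ext
      simp only [f]
      omega
    rw [h5]
    exact h3

/-! ### the learner -/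

section learner

variable {K T : ℕ}

/-- A unit vector in the direction of `z`. -/
noncomputable def unitOf (hd : 1 ≤ d) (z : Vec d) : Vec d :=
  if z = 0 then EuclideanSpace.single ⟨0, hd⟩ (1:ℝ) else (‖z‖⁻¹ : ℝ) • z

theorem norm_unitOf (hd : 1 ≤ d) (z : Vec d) : ‖unitOf hd z‖ = 1 := by
  unfold unitOf
  split_ifs with h
  · simp
  · rw [norm_smul, norm_inv, norm_norm, inv_mul_cancel₀ (norm_ne_zero_iff.2 h)]

/-- Quantized Kaczmarz iteration as a deterministic learner. -/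
noncomputable def kzLearner (hd : 1 ≤ d) (dec : Fin K → Vec d) (rnd : Vec d → Fin K)
    (hrnd : Measurable rnd) : Learner d T K Unit where
  init := fun _ => rnd 0
  step := fun _ m x y _ => rnd (kz x y (dec m))
  stop := fun _ _ _ _ _ => false
  output := fun m _ => unitOf hd (dec m)
  output_unit := fun m _ => norm_unitOf hd _
  measurable_init := measurable_const
  measurable_step := fun _ m => by
    refine hrnd.comp ?_
    unfold kz
    fun_prop
  measurable_stop := fun _ _ => measurable_const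
  measurable_output := fun _ => measurable_const

/-- The states of the iteration. -/
noncomputable def zs (dec : Fin K → Vec d) (rnd : Vec d → Fin K) (X : Fin T → Vec d) (s : Vec d) :
    ℕ → Fin K
  | 0 => rnd 0
  | t + 1 => if h : t < T then rnd (kz (X ⟨t, h⟩) ⟪X ⟨t, h⟩, s⟫ (dec (zs dec rnd X s t)))
      else zs dec rnd X s t

theorem run_kzLearner (hd : 1 ≤ d) (dec : Fin K → Vec d) (rnd : Vec d → Fin K)
    (hrnd : Measurable rnd) (X : Fin T → Vec d) (s : Vec d) (t : ℕ) :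
    (kzLearner (T := T) hd dec rnd hrnd).run () X s t = (zs dec rnd X s t, false) := by
  induction t with
  | zero => rfl
  | succ t ih =>
    simp only [Learner.run, ih, zs]
    by_cases h : t < T
    · simp [h, kzLearner]
    · simp [h]

variable {dec : Fin K → Vec d} {rnd : Vec d → Fin K}

theorem measurable_zs (hrnd : Measurable rnd) (s : Vec d) (t : ℕ) :
    Measurable fun X : Fin T → Vec d => zs dec rnd X s t := by
  induction t with
  | zero => exact measurable_const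
  | succ t ih =>
    simp only [zs]
    by_cases h : t < T
    · simp only [h, dite_true]
      refine hrnd.comp ?_
      have h1 : Measurable fun X : Fin T → Vec d => dec (zs dec rnd X s t) :=
        (measurable_of_countable dec).comp ih
      have h2 : Measurable fun X : Fin T → Vec d => X ⟨t, h⟩ := measurable_pi_apply _
      unfold kz
      exact h1.add (((h2.inner measurable_const).sub (h2.inner h1)).div (h2.norm.pow_const 2)
        |>.smul h2)
    · simpa [h] using ih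

theorem zs_update (s : Vec d) (t : ℕ) (i : Fin T) (hi : t ≤ i) (X : Fin T → Vec d) (y : Vec d) :
    zs dec rnd (Function.update X i y) s t = zs dec rnd X s t := by
  induction t with
  | zero => rfl
  | succ t ih =>
    simp only [zs]
    by_cases h : t < T
    · have hne : (⟨t, h⟩ : Fin T) ≠ i := by
        intro hc
        rw [← hc] at hi
        simp at hi
      simp only [h, dite_true, Function.update_of_ne hne, ih (by omega)]
    · simp only [h, dite_false, ih (by omega)]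

theorem zs_succ_update (s : Vec d) (t : ℕ) (h : t < T) (X : Fin T → Vec d) (y : Vec d) :
    zs dec rnd (Function.update X ⟨t, h⟩ y) s (t + 1)
      = rnd (kz y ⟪y, s⟫ (dec (zs dec rnd X s t))) := by
  simp only [zs, h, dite_true, Function.update_self]
  rw [zs_update s t ⟨t, h⟩ le_rfl]

/-- Resampling one coordinate of a product measure. -/
theorem lintegral_resample {μ : Measure (Vec d)} [IsProbabilityMeasure μ] (i : Fin T)
    {F : (Fin T → Vec d) → ℝ≥0∞} (hF : Measurable F) :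
    ∫⁻ X, F X ∂(Measure.pi fun _ : Fin T => μ)
      = ∫⁻ X, ∫⁻ y, F (Function.update X i y) ∂μ ∂(Measure.pi fun _ : Fin T => μ) := by
  classical
  set G : (Fin T → Vec d) → ℝ≥0∞ := fun X => ∫⁻ y, F (Function.update X i y) ∂μ with hG
  have hGm : Measurable G := by
    have : Measurable (Function.uncurry fun (X : Fin T → Vec d) (y : Vec d) =>
        F (Function.update X i y)) := by
      refine hF.comp ?_
      exact (measurable_update' (a := i))
    exact this.lintegral_prod_right'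
  have hx : Nonempty (Fin T → Vec d) := ⟨fun _ => 0⟩
  obtain ⟨x₀⟩ := hx
  rw [lintegral_eq_lmarginal_univ (μ := fun _ : Fin T => μ) x₀,
    lintegral_eq_lmarginal_univ (μ := fun _ : Fin T => μ) (f := G) x₀]
  rw [lmarginal_erase' _ hF (Finset.mem_univ i), lmarginal_erase' _ hGm (Finset.mem_univ i)]
  congr 1
  ext X
  simp only [hG, Function.update_idem]
  simp

/-! ### the error recursion -/

section analysis

variable {δ : ℝ}

/-- One rounded step. -/
theorem norm_rnd_step (happ : ∀ v : Vec d, ‖v‖ ≤ 3 → ‖dec (rnd v) - v‖ ≤ δ) {s z y : Vec d}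
    (hs : ‖s‖ = 1) (hz : ‖s - z‖ ≤ 2) :
    ‖s - kz y ⟪y, s⟫ z‖ ≤ ‖s - z‖ ∧
      ‖s - dec (rnd (kz y ⟪y, s⟫ z))‖ ≤ ‖s - kz y ⟪y, s⟫ z‖ + δ := by
  have h1 : ‖s - kz y ⟪y, s⟫ z‖ ≤ ‖s - z‖ := by
    have h2 := norm_sub_kz_sq y s z
    have h3 : 0 ≤ ⟪y, s - z⟫ ^ 2 / ‖y‖ ^ 2 := by positivity
    exact abs_le_of_sq_le_sq' (by linarith) (norm_nonneg _) |>.2
  refine ⟨h1, ?_⟩
  obtain ⟨z', hz'⟩ : ∃ z', z' = kz y ⟪y, s⟫ z := ⟨_, rfl⟩
  rw [← hz'] at h1 ⊢
  have h3 : ‖z'‖ ≤ 3 := by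
    have h4 : ‖z'‖ ≤ ‖s‖ + ‖s - z'‖ := by
      have := norm_sub_le s (s - z')
      simpa using this
    linarith
  have h5 := happ z' h3
  have h6 : ‖s - dec (rnd z')‖ ≤ ‖s - z'‖ + ‖dec (rnd z') - z'‖ := by
    have h7 := norm_sub_le (s - z') (dec (rnd z') - z')
    rwa [sub_sub_sub_cancel_right] at h7
  linarith

/-- The error never grows beyond `2`. -/
theorem norm_err_le (happ : ∀ v : Vec d, ‖v‖ ≤ 3 → ‖dec (rnd v) - v‖ ≤ δ) (hδ : 0 ≤ δ)
    (hδT : ((T:ℝ) + 1) * δ ≤ 1) {s : Vec d} (hs : ‖s‖ = 1) (X : Fin T → Vec d) (t : ℕ)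
    (ht : t ≤ T) : ‖s - dec (zs dec rnd X s t)‖ ≤ 1 + ((t:ℝ) + 1) * δ := by
  induction t with
  | zero =>
    have h1 := happ 0 (by simp)
    simp only [zs]
    have h2 : ‖s - dec (rnd 0)‖ ≤ ‖s‖ + ‖dec (rnd 0)‖ := norm_sub_le _ _
    simp only [sub_zero] at h1
    push_cast
    linarith
  | succ t ih =>
    have ht' : t < T := by omega
    have ih' := ih ht'.le
    have htr : ((t:ℝ) + 1) ≤ (T:ℝ) + 1 := by
      have : (t:ℝ) ≤ (T:ℝ) := by exact_mod_cast ht'.le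
      linarith
    have h2 : ((t:ℝ) + 1) * δ ≤ 1 := (mul_le_mul_of_nonneg_right htr hδ).trans hδT
    simp only [zs, ht', dite_true]
    obtain ⟨h3, h4⟩ := norm_rnd_step (y := X ⟨t, ht'⟩) happ hs (z := dec (zs dec rnd X s t))
      (by linarith)
    push_cast
    linarith

theorem sq_add_le_of_pos {a b D : ℝ} (hD : 0 < D) :
    (a + b) ^ 2 ≤ (1 + 1 / D) * a ^ 2 + (1 + D) * b ^ 2 := by
  have h : 0 ≤ (a - D * b) ^ 2 / D := by positivity
  have h2 : (a - D * b) ^ 2 / D = a ^ 2 / D - 2 * a * b + D * b ^ 2 := by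
    field_simp
    ring
  have h3 : (1 + 1 / D) * a ^ 2 = a ^ 2 + a ^ 2 / D := by
    field_simp
  rw [h3]
  nlinarith

/-- The mean squared error of the iteration. -/
noncomputable def errE (dec : Fin K → Vec d) (rnd : Vec d → Fin K) (T : ℕ) (s : Vec d) (t : ℕ) : ℝ≥0∞ :=
  ∫⁻ X : Fin T → Vec d, ENNReal.ofReal (‖s - dec (zs dec rnd X s t)‖ ^ 2)
    ∂(Measure.pi fun _ : Fin T => gam d)

theorem measurable_err (hrnd : Measurable rnd) (s : Vec d) (t : ℕ) :
    Measurable fun X : Fin T → Vec d => ENNReal.ofReal (‖s - dec (zs dec rnd X s t)‖ ^ 2) := by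
  have h1 : Measurable fun X : Fin T → Vec d => dec (zs dec rnd X s t) :=
    (measurable_of_countable dec).comp (measurable_zs hrnd s t)
  exact ((measurable_const.sub h1).norm.pow_const 2).ennreal_ofReal

/-- One step of the mean error recursion. -/
theorem errE_succ (hd : 1 ≤ d) (hrnd : Measurable rnd)
    (happ : ∀ v : Vec d, ‖v‖ ≤ 3 → ‖dec (rnd v) - v‖ ≤ δ) (hδ : 0 ≤ δ)
    (hδT : ((T:ℝ) + 1) * δ ≤ 1) {s : Vec d} (hs : ‖s‖ = 1) (t : ℕ) (ht : t < T) :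
    errE dec rnd T s (t + 1) ≤ ENNReal.ofReal (1 - 1 / (2 * (d:ℝ))) * errE dec rnd T s t
      + ENNReal.ofReal ((1 + 2 * (d:ℝ)) * δ ^ 2) := by
  have hD1 : (1:ℝ) ≤ (d:ℝ) := by exact_mod_cast hd
  have hD0 : (0:ℝ) < (d:ℝ) := by linarith
  have hq0 : 0 ≤ 1 - 1 / (2 * (d:ℝ)) := by
    have : 1 / (2 * (d:ℝ)) ≤ 1 := by
      rw [div_le_one (by positivity)]
      linarith
    linarith
  unfold errE
  rw [lintegral_resample ⟨t, ht⟩ (measurable_err hrnd s (t + 1))]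
  have hpt : ∀ X : Fin T → Vec d,
      ∫⁻ y, ENNReal.ofReal (‖s - dec (zs dec rnd (Function.update X ⟨t, ht⟩ y) s (t + 1))‖ ^ 2)
          ∂(gam d)
        ≤ ENNReal.ofReal (1 - 1 / (2 * (d:ℝ))) *
            ENNReal.ofReal (‖s - dec (zs dec rnd X s t)‖ ^ 2)
          + ENNReal.ofReal ((1 + 2 * (d:ℝ)) * δ ^ 2) := by
    intro X
    simp_rw [zs_succ_update s t ht X]
    obtain ⟨z, hz⟩ : ∃ z, z = dec (zs dec rnd X s t) := ⟨_, rfl⟩
    rw [← hz]
    have hzle : ‖s - z‖ ≤ 2 := by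
      have h1 := norm_err_le happ hδ hδT hs X t ht.le
      rw [← hz] at h1
      have htr : ((t:ℝ) + 1) ≤ (T:ℝ) + 1 := by
        have : (t:ℝ) ≤ (T:ℝ) := by exact_mod_cast ht.le
        linarith
      have h2 : ((t:ℝ) + 1) * δ ≤ 1 := (mul_le_mul_of_nonneg_right htr hδ).trans hδT
      linarith
    have hD2 : (0:ℝ) < 2 * (d:ℝ) := by positivity
    have hint : Integrable (fun y : Vec d =>
        (1 + 1 / (2 * (d:ℝ))) * ‖s - kz y ⟪y, s⟫ z‖ ^ 2 + (1 + 2 * (d:ℝ)) * δ ^ 2) (gam d) := by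
      refine Integrable.add (Integrable.const_mul ?_ _) (integrable_const _)
      simp_rw [norm_sub_kz_sq]
      exact (integrable_const _).sub (integrable_inner_sq_div _)
    have hval : ∫ y, ((1 + 1 / (2 * (d:ℝ))) * ‖s - kz y ⟪y, s⟫ z‖ ^ 2 + (1 + 2 * (d:ℝ)) * δ ^ 2)
        ∂(gam d) = (1 + 1 / (2 * (d:ℝ))) * ((1 - 1 / (d:ℝ)) * ‖s - z‖ ^ 2)
          + (1 + 2 * (d:ℝ)) * δ ^ 2 := by
      have hint2 : Integrable (fun y : Vec d => ‖s - kz y ⟪y, s⟫ z‖ ^ 2) (gam d) := by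
        simp_rw [norm_sub_kz_sq]
        exact (integrable_const _).sub (integrable_inner_sq_div _)
      rw [integral_add (hint2.const_mul _) (integrable_const _), integral_const_mul,
        integral_norm_sub_kz_sq hd]
      simp
    have hnn : ∀ y : Vec d, 0 ≤ (1 + 1 / (2 * (d:ℝ))) * ‖s - kz y ⟪y, s⟫ z‖ ^ 2
        + (1 + 2 * (d:ℝ)) * δ ^ 2 := fun y => by positivity
    calc ∫⁻ y, ENNReal.ofReal (‖s - dec (rnd (kz y ⟪y, s⟫ z))‖ ^ 2) ∂(gam d)
        ≤ ∫⁻ y, ENNReal.ofReal ((1 + 1 / (2 * (d:ℝ))) * ‖s - kz y ⟪y, s⟫ z‖ ^ 2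
            + (1 + 2 * (d:ℝ)) * δ ^ 2) ∂(gam d) := by
          refine lintegral_mono fun y => ENNReal.ofReal_le_ofReal ?_
          obtain ⟨-, h4⟩ := norm_rnd_step (y := y) happ hs hzle
          refine le_trans ?_ (sq_add_le_of_pos hD2)
          gcongr
      _ = ENNReal.ofReal ((1 + 1 / (2 * (d:ℝ))) * ((1 - 1 / (d:ℝ)) * ‖s - z‖ ^ 2)
            + (1 + 2 * (d:ℝ)) * δ ^ 2) := by
          rw [← ofReal_integral_eq_lintegral_ofReal hint (Filter.Eventually.of_forall hnn), hval]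
      _ ≤ ENNReal.ofReal ((1 - 1 / (2 * (d:ℝ))) * ‖s - z‖ ^ 2 + (1 + 2 * (d:ℝ)) * δ ^ 2) := by
          refine ENNReal.ofReal_le_ofReal ?_
          have h5 : (1 + 1 / (2 * (d:ℝ))) * (1 - 1 / (d:ℝ)) ≤ 1 - 1 / (2 * (d:ℝ)) := by
            have h6 : (1 + 1 / (2 * (d:ℝ))) * (1 - 1 / (d:ℝ))
                = 1 - 1 / (2 * (d:ℝ)) - 1 / (2 * (d:ℝ) ^ 2) := by
              field_simp
              ring
            rw [h6]
            have : 0 ≤ 1 / (2 * (d:ℝ) ^ 2) := by positivity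
            linarith
          have h7 : 0 ≤ ‖s - z‖ ^ 2 := by positivity
          nlinarith
      _ = _ := by
          rw [ENNReal.ofReal_add (mul_nonneg hq0 (by positivity)) (by positivity),
            ENNReal.ofReal_mul hq0]
  refine (lintegral_mono hpt).trans ?_
  rw [lintegral_add_right _ measurable_const, lintegral_const_mul _ (measurable_err hrnd s t)]
  simp

/-- The mean error bound. -/
theorem errE_le (hd : 1 ≤ d) (hrnd : Measurable rnd)
    (happ : ∀ v : Vec d, ‖v‖ ≤ 3 → ‖dec (rnd v) - v‖ ≤ δ) (hδ : 0 ≤ δ)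
    (hδT : ((T:ℝ) + 1) * δ ≤ 1) {s : Vec d} (hs : ‖s‖ = 1) (t : ℕ) (ht : t ≤ T) :
    errE dec rnd T s t ≤ ENNReal.ofReal (4 * (1 - 1 / (2 * (d:ℝ))) ^ t
      + 2 * (d:ℝ) * ((1 + 2 * (d:ℝ)) * δ ^ 2)) := by
  have hD1 : (1:ℝ) ≤ (d:ℝ) := by exact_mod_cast hd
  have hD0 : (0:ℝ) < (d:ℝ) := by linarith
  have hq0 : 0 ≤ 1 - 1 / (2 * (d:ℝ)) := by
    have : 1 / (2 * (d:ℝ)) ≤ 1 := by
      rw [div_le_one (by positivity)]
      linarith
    linarith
  induction t with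
  | zero =>
    have hT : (0:ℝ) ≤ (T:ℝ) := by positivity
    have hδ1 : δ ≤ 1 := by nlinarith
    have h1 : ∀ X : Fin T → Vec d, ENNReal.ofReal (‖s - dec (zs dec rnd X s 0)‖ ^ 2)
        ≤ ENNReal.ofReal 4 := by
      intro X
      refine ENNReal.ofReal_le_ofReal ?_
      have h2 := norm_err_le happ hδ hδT hs X 0 (Nat.zero_le _)
      have h3 : ‖s - dec (zs dec rnd X s 0)‖ ≤ 2 := by
        push_cast at h2
        linarith
      have h4 := norm_nonneg (s - dec (zs dec rnd X s 0))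
      nlinarith
    unfold errE
    refine (lintegral_mono h1).trans ?_
    simp only [lintegral_const, measure_univ, mul_one, pow_zero]
    refine ENNReal.ofReal_le_ofReal ?_
    have : 0 ≤ 2 * (d:ℝ) * ((1 + 2 * (d:ℝ)) * δ ^ 2) := by positivity
    linarith
  | succ t ih =>
    have ih' := ih (by omega)
    refine (errE_succ hd hrnd happ hδ hδT hs t (by omega)).trans ?_
    have hq1 : (0:ℝ) ≤ (1 + 2 * (d:ℝ)) * δ ^ 2 := by positivity
    calc ENNReal.ofReal (1 - 1 / (2 * (d:ℝ))) * errE dec rnd T s t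
          + ENNReal.ofReal ((1 + 2 * (d:ℝ)) * δ ^ 2)
        ≤ ENNReal.ofReal (1 - 1 / (2 * (d:ℝ))) * ENNReal.ofReal (4 * (1 - 1 / (2 * (d:ℝ))) ^ t
            + 2 * (d:ℝ) * ((1 + 2 * (d:ℝ)) * δ ^ 2))
          + ENNReal.ofReal ((1 + 2 * (d:ℝ)) * δ ^ 2) := by
          gcongr
      _ = ENNReal.ofReal (4 * (1 - 1 / (2 * (d:ℝ))) ^ (t + 1)
            + 2 * (d:ℝ) * ((1 + 2 * (d:ℝ)) * δ ^ 2)) := by
          rw [← ENNReal.ofReal_mul hq0, ← ENNReal.ofReal_add (by positivity) hq1]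
          congr 1
          have hqd : (1 - 1 / (2 * (d:ℝ))) * (2 * (d:ℝ)) = 2 * (d:ℝ) - 1 := by
            field_simp
          rw [pow_succ]
          linear_combination ((1 + 2 * (d:ℝ)) * δ ^ 2) * hqd

/-- A point close to the unit vector `s` has a direction at small angle from `s`. -/
theorem arccos_unitOf_le (hd : 1 ≤ d) {s z : Vec d} (hs : ‖s‖ = 1) {ε : ℝ} (hε : 0 < ε)
    (hε1 : ε ≤ 1 / 2) (h : ‖s - z‖ ≤ ε / 4) : Real.arccos ⟪unitOf hd z, s⟫ ≤ ε := by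
  have hz1 : |‖s‖ - ‖z‖| ≤ ‖s - z‖ := abs_norm_sub_norm_le s z
  rw [hs] at hz1
  have hz2 := abs_le.1 hz1
  have hz3 : 0 < ‖z‖ := by linarith [hz2.2]
  have hz : z ≠ 0 := norm_pos_iff.1 hz3
  have hu : unitOf hd z = (‖z‖⁻¹ : ℝ) • z := by
    simp [unitOf, hz]
  have hun : ‖unitOf hd z‖ = 1 := norm_unitOf hd z
  have huz : ‖unitOf hd z - z‖ ≤ ‖s - z‖ := by
    have h1 : unitOf hd z - z = ((‖z‖⁻¹ : ℝ) - 1) • z := by
      rw [hu, sub_smul, one_smul]
    rw [h1, norm_smul, Real.norm_eq_abs]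
    have h2 : ((‖z‖⁻¹ : ℝ) - 1) * ‖z‖ = 1 - ‖z‖ := by
      field_simp
    have h3 : |(‖z‖⁻¹ : ℝ) - 1| * ‖z‖ = |1 - ‖z‖| := by
      rw [← h2, abs_mul, abs_of_pos hz3]
    rw [h3]
    exact hz1
  have hus : ‖unitOf hd z - s‖ ≤ ε / 2 := by
    have h1 : ‖unitOf hd z - s‖ ≤ ‖unitOf hd z - z‖ + ‖s - z‖ := by
      have := norm_sub_le (unitOf hd z - z) (s - z)
      rwa [sub_sub_sub_cancel_right] at this
    linarith
  have hin : ⟪unitOf hd z, s⟫ = 1 - ‖unitOf hd z - s‖ ^ 2 / 2 := by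
    rw [norm_sub_sq_real, hun, hs]
    ring
  have hpi : ε ≤ Real.pi := by
    have := Real.pi_gt_three
    linarith
  have hcos : Real.cos ε ≤ ⟪unitOf hd z, s⟫ := by
    have h1 := Real.cos_bound (x := ε) (by
      rw [abs_of_pos hε]
      linarith)
    rw [abs_of_pos hε] at h1
    have h1' := (abs_le.1 h1).2
    have h2 : ‖unitOf hd z - s‖ ^ 2 ≤ (ε / 2) ^ 2 := by
      gcongr
    have h3 : ε ^ 4 ≤ ε ^ 2 := by
      have h5 : ε ^ 2 ≤ 1 := by nlinarith
      have h6 : ε ^ 4 = ε ^ 2 * ε ^ 2 := by ring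
      rw [h6]
      nlinarith [sq_nonneg ε]
    rw [hin]
    nlinarith
  calc Real.arccos ⟪unitOf hd z, s⟫ ≤ Real.arccos (Real.cos ε) := Real.arccos_le_arccos hcos
    _ = ε := Real.arccos_cos hε.le hpi

/-- The measurability of the success event. -/
theorem measurableSet_success {Ω : Type} [MeasurableSpace Ω] (L : Learner d T K Ω) (ε : ℝ) :
    MeasurableSet {p : Ω × (Fin T → Vec d) × Vec d |
      Real.arccos ⟪L.answer p.1 p.2.1 p.2.2, p.2.2⟫ ≤ ε} := by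
  have h1 : {p : Ω × (Fin T → Vec d) × Vec d | Real.arccos ⟪L.answer p.1 p.2.1 p.2.2, p.2.2⟫ ≤ ε}
      = ⋃ c : Fin K × Bool, {p | L.run p.1 p.2.1 p.2.2 T = c} ∩
          {p | Real.arccos ⟪L.output c.1 p.1, p.2.2⟫ ≤ ε} := by
    ext p
    simp only [Learner.answer, Set.mem_ofPred_eq, Set.mem_iUnion, Set.mem_inter_iff]
    constructor
    · intro h
      exact ⟨_, rfl, h⟩
    · rintro ⟨c, rfl, h⟩
      exact h
  rw [h1]
  refine MeasurableSet.iUnion fun c => (L.measurableSet_run T c).inter ?_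
  have h2 : Measurable fun p : Ω × (Fin T → Vec d) × Vec d => ⟪L.output c.1 p.1, p.2.2⟫ :=
    ((L.measurable_output c.1).comp measurable_fst).inner (measurable_snd.comp measurable_snd)
  exact measurableSet_le (Real.continuous_arccos.measurable.comp h2) measurable_const

/-- The quantized iteration succeeds, under numerical conditions on its parameters. -/
theorem kzLearner_succeeds (hd : 1 ≤ d) (hrnd : Measurable rnd)
    (happ : ∀ v : Vec d, ‖v‖ ≤ 3 → ‖dec (rnd v) - v‖ ≤ δ) (hδ : 0 ≤ δ)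
    (hδT : ((T:ℝ) + 1) * δ ≤ 1) {ε : ℝ} (hε : 0 < ε) (hε1 : ε ≤ 1 / 2)
    (hnum : 4 * (1 - 1 / (2 * (d:ℝ))) ^ T + 2 * (d:ℝ) * ((1 + 2 * (d:ℝ)) * δ ^ 2) ≤ ε ^ 2 / 48) :
    (kzLearner (T := T) hd dec rnd hrnd).Succeeds (Measure.dirac ()) ε := by
  unfold Learner.Succeeds
  have hprob : IsProbabilityMeasure (signalLaw d) := (prior_signalLaw hd).prob
  have hS := measurableSet_success (kzLearner (T := T) hd dec rnd hrnd) ε
  rw [Measure.prod_apply hS, lintegral_dirac' _ (measurable_measure_prodMk_left hS)]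
  have hS2 : MeasurableSet {p : (Fin T → Vec d) × Vec d |
      Real.arccos ⟪(kzLearner (T := T) hd dec rnd hrnd).answer () p.1 p.2, p.2⟫ ≤ ε} :=
    (measurable_prodMk_left (x := ())) hS
  change (2 / 3 : ℝ≥0∞) ≤ ((Measure.pi fun _ : Fin T => stdGaussian (Vec d)).prod (signalLaw d))
    {p : (Fin T → Vec d) × Vec d |
      Real.arccos ⟪(kzLearner (T := T) hd dec rnd hrnd).answer () p.1 p.2, p.2⟫ ≤ ε}
  rw [Measure.prod_apply_symm hS2]
  have hconst : (2 / 3 : ℝ≥0∞) = ∫⁻ _ : Vec d, (2 / 3 : ℝ≥0∞) ∂(signalLaw d) := by simp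
  rw [hconst]
  refine lintegral_mono_ae ?_
  filter_upwards [signalLaw_ae_norm hd] with s hs
  -- Markov inequality for the fixed signal `s`
  have hmeasE := measurable_err (T := T) (dec := dec) hrnd s T
  have hE := errE_le (T := T) hd hrnd happ hδ hδT hs T le_rfl
  have hE2 : errE dec rnd T s T ≤ ENNReal.ofReal (ε ^ 2 / 48) :=
    hE.trans (ENNReal.ofReal_le_ofReal hnum)
  have hpos : (0:ℝ) < ε ^ 2 / 16 := by positivity
  have hbad : (Measure.pi fun _ : Fin T => gam d)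
      {X | ENNReal.ofReal (ε ^ 2 / 16) ≤ ENNReal.ofReal (‖s - dec (zs dec rnd X s T)‖ ^ 2)}
      ≤ ENNReal.ofReal (1 / 3) := by
    have h1 := meas_ge_le_lintegral_div (μ := Measure.pi fun _ : Fin T => gam d)
      hmeasE.aemeasurable (ε := ENNReal.ofReal (ε ^ 2 / 16))
      (by simpa using hpos) (by simp)
    refine h1.trans ?_
    calc errE dec rnd T s T / ENNReal.ofReal (ε ^ 2 / 16)
        ≤ ENNReal.ofReal (ε ^ 2 / 48) / ENNReal.ofReal (ε ^ 2 / 16) := by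
          gcongr
      _ = ENNReal.ofReal (1 / 3) := by
          rw [← ENNReal.ofReal_div_of_pos hpos]
          congr 1
          field_simp
          norm_num
  -- the good event
  have hsub : {X | ENNReal.ofReal (ε ^ 2 / 16) ≤ ENNReal.ofReal (‖s - dec (zs dec rnd X s T)‖ ^ 2)}ᶜ
      ⊆ (fun X : Fin T → Vec d => (X, s)) ⁻¹' {p : (Fin T → Vec d) × Vec d |
        Real.arccos ⟪(kzLearner (T := T) hd dec rnd hrnd).answer () p.1 p.2, p.2⟫ ≤ ε} := by
    intro X hX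
    simp only [Set.mem_compl_iff, Set.mem_ofPred_eq, not_le] at hX
    have h1 : ‖s - dec (zs dec rnd X s T)‖ ^ 2 < ε ^ 2 / 16 := by
      by_contra hc
      push Not at hc
      exact absurd (ENNReal.ofReal_le_ofReal hc) (not_le.2 hX)
    have h2 : ‖s - dec (zs dec rnd X s T)‖ ≤ ε / 4 := by
      have h3 : ‖s - dec (zs dec rnd X s T)‖ ^ 2 ≤ (ε / 4) ^ 2 := by
        have : (ε / 4) ^ 2 = ε ^ 2 / 16 := by ring
        linarith
      exact abs_le_of_sq_le_sq' h3 (by positivity) |>.2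
    simp only [Set.mem_preimage, Set.mem_ofPred_eq, Learner.answer, run_kzLearner]
    exact arccos_unitOf_le hd hs hε hε1 h2
  have hmeasB : MeasurableSet
      {X : Fin T → Vec d | ENNReal.ofReal (ε ^ 2 / 16) ≤ ENNReal.ofReal (‖s - dec (zs dec rnd X s T)‖ ^ 2)} :=
    measurableSet_le measurable_const hmeasE
  have hfin : (2 / 3 : ℝ≥0∞) ≤ (Measure.pi fun _ : Fin T => gam d)
      {X | ENNReal.ofReal (ε ^ 2 / 16) ≤ ENNReal.ofReal (‖s - dec (zs dec rnd X s T)‖ ^ 2)}ᶜ := by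
    rw [prob_compl_eq_one_sub hmeasB]
    have h1 : (1:ℝ≥0∞) - ENNReal.ofReal (1 / 3) ≤ 1 - (Measure.pi fun _ : Fin T => gam d)
        {X | ENNReal.ofReal (ε ^ 2 / 16) ≤ ENNReal.ofReal (‖s - dec (zs dec rnd X s T)‖ ^ 2)} :=
      tsub_le_tsub_left hbad _
    refine le_trans ?_ h1
    have h2 : (2 / 3 : ℝ≥0∞) = ENNReal.ofReal (2 / 3) := by
      rw [ENNReal.ofReal_div_of_pos (by norm_num)]
      simp
    rw [h2, ← ENNReal.ofReal_one, ← ENNReal.ofReal_sub _ (by norm_num)]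
    refine ENNReal.ofReal_le_ofReal ?_
    norm_num
  exact hfin.trans (measure_mono hsub)

end analysis

end learner

/-! ### the upper bound with explicit parameters -/

/-- With `(244 d² / ε)^d` states the quantized iteration succeeds at accuracy `ε` within
`4 d log(1/ε) + 13 d` samples. -/
theorem exists_kz_learner (hd : 1 ≤ d) {ε : ℝ} (hε : 0 < ε) (hε1 : ε ≤ 1 / 2) {M : ℕ}
    (hM : (244 * (d:ℝ) ^ 2 / ε) ^ d ≤ (2:ℝ) ^ M) :
    ∃ T : ℕ, (T:ℝ) ≤ 4 * (d:ℝ) * Real.log (1 / ε) + 13 * (d:ℝ) ∧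
      ∃ L : Learner d T (2 ^ M) Unit, L.Succeeds (Measure.dirac ()) ε := by
  classical
  have hD1 : (1:ℝ) ≤ (d:ℝ) := by exact_mod_cast hd
  have hD0 : (0:ℝ) < (d:ℝ) := by linarith
  obtain ⟨Λ, hΛ⟩ : ∃ Λ, Λ = Real.log (1 / ε) := ⟨_, rfl⟩
  have h1ε : 1 < 1 / ε := by
    rw [lt_div_iff₀ hε]
    linarith
  have hΛ0 : 0 < Λ := by
    rw [hΛ]
    exact Real.log_pos h1ε
  have hΛε : Λ * ε ≤ 1 := by
    have h1 := Real.log_le_sub_one_of_pos (show 0 < 1 / ε by positivity)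
    rw [← hΛ] at h1
    have h2 : Λ * ε ≤ (1 / ε - 1) * ε := by gcongr
    have h3 : (1 / ε - 1) * ε = 1 - ε := by
      field_simp
    linarith
  obtain ⟨T, hT⟩ : ∃ T : ℕ, T = ⌈4 * (d:ℝ) * Λ + 12 * (d:ℝ)⌉₊ := ⟨_, rfl⟩
  have hT1 : 4 * (d:ℝ) * Λ + 12 * (d:ℝ) ≤ (T:ℝ) := by
    rw [hT]
    exact Nat.le_ceil _
  have hT2 : (T:ℝ) < 4 * (d:ℝ) * Λ + 12 * (d:ℝ) + 1 := by
    rw [hT]
    exact Nat.ceil_lt_add_one (by positivity)
  obtain ⟨m, hm⟩ : ∃ m : ℕ, m = ⌈40 * (d:ℝ) ^ 2 / ε⌉₊ := ⟨_, rfl⟩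
  have hm1 : 40 * (d:ℝ) ^ 2 / ε ≤ (m:ℝ) := by
    rw [hm]
    exact Nat.le_ceil _
  have hm2 : (m:ℝ) < 40 * (d:ℝ) ^ 2 / ε + 1 := by
    rw [hm]
    exact Nat.ceil_lt_add_one (by positivity)
  have hmpos : (0:ℝ) < (m:ℝ) := lt_of_lt_of_le (by positivity) hm1
  have hm0 : 0 < m := by exact_mod_cast hmpos
  -- number of states
  have hstates : (6 * m + 1) ^ d ≤ 2 ^ M := by
    have h1 : ((6 * m + 1 : ℕ) : ℝ) ≤ 244 * (d:ℝ) ^ 2 / ε := by
      push_cast
      have h2 : 4 * (d:ℝ) ^ 2 / ε ≥ 8 := by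
        rw [ge_iff_le, le_div_iff₀ hε]
        nlinarith
      have h3 : 244 * (d:ℝ) ^ 2 / ε = 240 * (d:ℝ) ^ 2 / ε + 4 * (d:ℝ) ^ 2 / ε := by ring
      have h4 : 6 * (40 * (d:ℝ) ^ 2 / ε) = 240 * (d:ℝ) ^ 2 / ε := by ring
      linarith
    have h2 : (((6 * m + 1) ^ d : ℕ) : ℝ) ≤ ((2 ^ M : ℕ) : ℝ) := by
      push_cast
      calc (6 * (m:ℝ) + 1) ^ d ≤ (244 * (d:ℝ) ^ 2 / ε) ^ d := by
            gcongr
            simpa using h1
        _ ≤ _ := hM
    exact_mod_cast h2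
  -- the net and the rounding map
  obtain ⟨dec, hdec⟩ := grid_net (d := d) hm0 hstates
  obtain ⟨δ, hδdef⟩ : ∃ δ, δ = √(d:ℝ) / (m:ℝ) := ⟨_, rfl⟩
  rw [← hδdef] at hdec
  have hKpos : 0 < 2 ^ M := by positivity
  obtain ⟨rnd, hrnd, hsel⟩ := exists_selector hKpos (fun k => {v : Vec d | ‖dec k - v‖ ≤ δ})
    (fun k => measurableSet_le (by fun_prop) measurable_const)
  have happ : ∀ v : Vec d, ‖v‖ ≤ 3 → ‖dec (rnd v) - v‖ ≤ δ := by
    intro v hv
    obtain ⟨k, hk⟩ := hdec v hv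
    exact hsel v k hk
  have hδ0 : 0 ≤ δ := by
    rw [hδdef]
    positivity
  have hδle : δ ≤ ε / (40 * (d:ℝ)) := by
    rw [hδdef, div_le_div_iff₀ hmpos (by positivity)]
    have hs : √(d:ℝ) ≤ (d:ℝ) := by
      rw [Real.sqrt_le_left (by linarith)]
      nlinarith
    have h1 : 40 * (d:ℝ) ^ 2 ≤ (m:ℝ) * ε := by
      rwa [div_le_iff₀ hε] at hm1
    calc √(d:ℝ) * (40 * (d:ℝ)) ≤ (d:ℝ) * (40 * (d:ℝ)) := by gcongr
      _ = 40 * (d:ℝ) ^ 2 := by ring
      _ ≤ _ := h1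
      _ ≤ ε * (m:ℝ) := by rw [mul_comm]
  refine ⟨T, ?_, kzLearner hd dec rnd hrnd, ?_⟩
  · rw [← hΛ]
    linarith
  -- the numerical conditions
  have hδT : ((T:ℝ) + 1) * δ ≤ 1 := by
    have h1 : (T:ℝ) + 1 ≤ (d:ℝ) * (4 * Λ + 14) := by nlinarith
    calc ((T:ℝ) + 1) * δ ≤ ((d:ℝ) * (4 * Λ + 14)) * (ε / (40 * (d:ℝ))) := by gcongr
      _ = (4 * (Λ * ε) + 14 * ε) / 40 := by
          field_simp
      _ ≤ 1 := by
          rw [div_le_one (by norm_num)]
          linarith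
  refine kzLearner_succeeds hd hrnd happ hδ0 hδT hε hε1 ?_
  have hq0 : 0 ≤ 1 - 1 / (2 * (d:ℝ)) := by
    have : 1 / (2 * (d:ℝ)) ≤ 1 := by
      rw [div_le_one (by positivity)]
      linarith
    linarith
  have hq1 : 1 - 1 / (2 * (d:ℝ)) ≤ Real.exp (-(1 / (2 * (d:ℝ)))) := Real.one_sub_le_exp_neg _
  have hqT : (1 - 1 / (2 * (d:ℝ))) ^ T ≤ ε ^ 2 * Real.exp (-6) := by
    calc (1 - 1 / (2 * (d:ℝ))) ^ T ≤ Real.exp (-(1 / (2 * (d:ℝ)))) ^ T := by gcongr
      _ = Real.exp ((T:ℝ) * (-(1 / (2 * (d:ℝ))))) := (Real.exp_nat_mul _ _).symm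
      _ ≤ Real.exp (-(2 * Λ) + -6) := by
          apply Real.exp_le_exp.2
          have h1 : (4 * (d:ℝ) * Λ + 12 * (d:ℝ)) * (1 / (2 * (d:ℝ))) = 2 * Λ + 6 := by
            field_simp
            ring
          have h2 : (4 * (d:ℝ) * Λ + 12 * (d:ℝ)) * (1 / (2 * (d:ℝ))) ≤ (T:ℝ) * (1 / (2 * (d:ℝ))) := by
            gcongr
          linarith
      _ = ε ^ 2 * Real.exp (-6) := by
          rw [Real.exp_add]
          congr 1
          rw [hΛ, one_div, Real.log_inv]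
          have h3 : -(2 * -Real.log ε) = 2 * Real.log ε := by ring
          rw [h3, two_mul, Real.exp_add, Real.exp_log hε]
          ring
  have hexp : Real.exp (-6) ≤ 1 / 400 := by
    rw [Real.exp_neg, inv_eq_one_div]
    apply one_div_le_one_div_of_le (by norm_num)
    have h3 : Real.exp 6 = Real.exp 1 ^ 6 := by
      rw [← Real.exp_nat_mul]
      norm_num
    rw [h3]
    have h4 := Real.exp_one_gt_d9
    calc (400:ℝ) ≤ (2.7182818283:ℝ) ^ 6 := by norm_num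
      _ ≤ _ := by
        gcongr
  have hB : 2 * (d:ℝ) * ((1 + 2 * (d:ℝ)) * δ ^ 2) ≤ 6 / 1600 * ε ^ 2 := by
    have h1 : δ ^ 2 ≤ (ε / (40 * (d:ℝ))) ^ 2 := by gcongr
    have h2 : 1 + 2 * (d:ℝ) ≤ 3 * (d:ℝ) := by linarith
    calc 2 * (d:ℝ) * ((1 + 2 * (d:ℝ)) * δ ^ 2)
        ≤ 2 * (d:ℝ) * ((3 * (d:ℝ)) * (ε / (40 * (d:ℝ))) ^ 2) := by gcongr
      _ = 6 / 1600 * ε ^ 2 := by
          field_simp
          norm_num
  have hε2 : 0 < ε ^ 2 := by positivity
  have h4q : 4 * (1 - 1 / (2 * (d:ℝ))) ^ T ≤ 1 / 100 * ε ^ 2 := by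
    have : ε ^ 2 * Real.exp (-6) ≤ ε ^ 2 * (1 / 400) := by gcongr
    linarith
  linarith

/-- The counting bound for learners: `(d - 1) log₂ (1 / (4 ε)) ≤ M + 3`,
whatever the horizon. -/
theorem no_learner {T K M : ℕ} {Ω : Type} [MeasurableSpace Ω] (hd : 1 ≤ d) (hK : K ≤ 2 ^ M)
    (L : Learner d T K Ω) (ν : Measure Ω) [IsProbabilityMeasure ν] {ε : ℝ} (hε : 0 < ε)
    (h : L.Succeeds ν ε) :
    ((d:ℝ) - 1) * Real.logb 2 (1 / (4 * ε)) ≤ (M:ℝ) + 3 := by
  have hprior := prior_signalLaw hd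
  obtain ⟨init, f, out, hf, hsucc⟩ := reduce_learner L ν hd hε h 1 T (by simp)
  have h1 := count_bound hprior init f hf T out hε hsucc
  have hcard : ((Fintype.card (Fin K × Bool) : ℕ) : ℝ) = (K:ℝ) * 2 := by
    simp
  rw [hcard] at h1
  have hKpos : 1 ≤ K := by
    have := init.1.2
    omega
  have hKr : (K:ℝ) ≤ (2:ℝ) ^ M := by exact_mod_cast hK
  have h4ε : 0 < 4 * ε := by positivity
  have h2 : (1:ℝ) ≤ (2:ℝ) ^ (M + 3) * (4 * ε) ^ (d - 1) := by
    have h3 : (K:ℝ) * 2 * (2 * (4 * ε) ^ (d - 1)) ≤ (2:ℝ) ^ M * 4 * (4 * ε) ^ (d - 1) := by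
      have h5 : 0 ≤ (4 * ε) ^ (d - 1) := by positivity
      nlinarith
    rw [pow_add]
    nlinarith [show (0:ℝ) < (2:ℝ) ^ M * (4 * ε) ^ (d - 1) by positivity]
  have h3 := Real.logb_le_logb_of_le (b := 2) (by norm_num) (by norm_num) h2
  rw [Real.logb_one, Real.logb_mul (by positivity) (by positivity),
    Real.logb_pow, Real.logb_pow, Real.logb_self_eq_one (by norm_num)] at h3
  have h6 : ((d - 1 : ℕ) : ℝ) = (d:ℝ) - 1 := by
    rw [Nat.cast_sub hd]
    simp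
  have h7 : Real.logb 2 (1 / (4 * ε)) = -Real.logb 2 (4 * ε) := by
    rw [one_div, Real.logb_inv]
  rw [h6] at h3
  rw [h7]
  push_cast at h3
  nlinarith

/-- Restatement of the lower bound for `M = O(d²)`. -/
theorem q1_lower (c₀ : ℝ) (hc₀ : 0 < c₀) :
    ∃ c' : ℝ, 0 < c' ∧ ∃ ε₀ : ℝ, 0 < ε₀ ∧ ∃ d₀ : ℕ,
      ∀ (d M T K : ℕ) (ε : ℝ), d₀ ≤ d → 0 < ε → ε < ε₀ →
        (M : ℝ) ≤ c₀ * (d : ℝ) ^ 2 → K ≤ 2 ^ M →
        ∀ (Ω : Type) [MeasurableSpace Ω] (ν : Measure Ω) [IsProbabilityMeasure ν]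
          (L : Learner d T K Ω),
          L.Succeeds ν ε → c' * (d : ℝ) * Real.log (1 / ε) ≤ (T : ℝ) := by
  -- constants
  obtain ⟨C, hC⟩ : ∃ C : ℝ, C = 10 ^ 8 * (c₀ + 1) := ⟨_, rfl⟩
  have hC0 : 0 < C := by rw [hC]; positivity
  obtain ⟨n, hn⟩ := pow_unbounded_of_one_lt c₀ (by norm_num : (1:ℝ) < 2)
  refine ⟨1 / (2 * C), by positivity, Real.exp (-(100 + 2 * C)), Real.exp_pos _,
    2 ^ 20 + 8 * n + 8, ?_⟩
  intro d M T K ε hd hε hεε hM hK Ω _ ν _ L hL
  have hd20 : 2 ^ 20 ≤ d := by omega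
  have hD0 : (0:ℝ) < (d:ℝ) := by
    have : 0 < d := by omega
    exact_mod_cast this
  -- the memory is below the exponential threshold
  have hMpow : (M : ℝ) ≤ 2 ^ (d / 2) := by
    have hq : (d:ℝ) ≤ (2:ℝ) ^ (d / 8) := by exact_mod_cast (d_lt_pow hd20).le
    calc (M:ℝ) ≤ c₀ * (d:ℝ) ^ 2 := hM
      _ ≤ (2:ℝ) ^ n * ((2:ℝ) ^ (d / 8)) ^ 2 := by
          gcongr
      _ = (2:ℝ) ^ (n + d / 8 * 2) := by
          rw [pow_add, ← pow_mul]
      _ ≤ (2:ℝ) ^ (d / 2) := pow_le_pow_right₀ (by norm_num) (by omega)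
  have hε1 : ε ≤ Real.exp (-100) := by
    refine hεε.le.trans (Real.exp_le_exp.2 ?_)
    linarith
  have hΛ : 100 + 2 * C ≤ Real.log (1 / ε) := by
    rw [one_div, Real.log_inv]
    have h1 : Real.log ε ≤ Real.log (Real.exp (-(100 + 2 * C))) := Real.log_le_log hε hεε.le
    rw [Real.log_exp] at h1
    linarith
  have hmain := main_tradeoff hd20 hK hMpow L ν hε hε1 hL
  obtain ⟨Λ, hΛdef⟩ : ∃ Λ, Λ = Real.log (1 / ε) := ⟨_, rfl⟩
  rw [← hΛdef] at hmain hΛ ⊢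
  have hdd : (0:ℝ) < (d:ℝ) ^ 2 := by positivity
  have hT0 : (0:ℝ) ≤ (T:ℝ) := by positivity
  -- divide by `d²`
  have h1 : (d:ℝ) * Λ ≤ C * ((T:ℝ) + d) := by
    have h2 : 10 ^ 8 * ((T:ℝ) + d) * ((M:ℝ) + (d:ℝ) ^ 2)
        ≤ 10 ^ 8 * ((T:ℝ) + d) * ((c₀ + 1) * (d:ℝ) ^ 2) := by
      gcongr
      linarith
    have h3 : ((d:ℝ) * Λ) * (d:ℝ) ^ 2 ≤ (C * ((T:ℝ) + d)) * (d:ℝ) ^ 2 := by
      calc ((d:ℝ) * Λ) * (d:ℝ) ^ 2 = (d:ℝ) ^ 3 * Λ := by ring
        _ ≤ _ := hmain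
        _ ≤ _ := h2
        _ = _ := by rw [hC]; ring
    exact le_of_mul_le_mul_right h3 hdd
  -- conclude
  have h2 : 1 / (2 * C) * (d:ℝ) * Λ ≤ (T:ℝ) := by
    have h3 : (d:ℝ) * Λ ≤ 2 * C * (T:ℝ) := by
      have h4 : 2 * C * (d:ℝ) ≤ (d:ℝ) * Λ := by
        have : (d:ℝ) * (2 * C) ≤ (d:ℝ) * Λ := by
          gcongr
          linarith
        linarith
      nlinarith
    have h5 : 1 / (2 * C) * (d:ℝ) * Λ = ((d:ℝ) * Λ) / (2 * C) := by
      field_simp
    rw [h5, div_le_iff₀ (by positivity)]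
    linarith
  exact h2

/-- The bit condition in exponential form. -/
theorem pow_le_of_logb {X : ℝ} (hX : 0 < X) {D M : ℕ} (h : (D:ℝ) * Real.logb 2 X ≤ (M:ℝ)) :
    X ^ D ≤ (2:ℝ) ^ M := by
  have h1 : X = (2:ℝ) ^ Real.logb 2 X := (Real.rpow_logb (by norm_num) (by norm_num) hX).symm
  calc X ^ D = ((2:ℝ) ^ Real.logb 2 X) ^ D := by rw [← h1]
    _ = (2:ℝ) ^ ((D:ℝ) * Real.logb 2 X) := by
        rw [← Real.rpow_natCast, ← Real.rpow_mul (by norm_num), mul_comm]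
    _ ≤ (2:ℝ) ^ (M:ℝ) := Real.rpow_le_rpow_of_exponent_le (by norm_num) h
    _ = (2:ℝ) ^ M := Real.rpow_natCast _ _

end Vale.Agent.Lib.P309
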